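import Vale.Agent.P179.H5.Tri4
import Vale.Agent.P179.H166.Orb
import Vale.Agent.P179.H905.Step1D

/-!
# The alternating sums over the chains fixed by a subgroup
-/

namespace P179S

open Subgroup MulAction P179A P179K

open scoped Classical Pointwise

/-- The signed number of chains fixed by `K`. -/
noncomputable def WW (p : ℕ) {G : Type*} [Group G] [Finite G] (K : Subgroup G) : ℤ :=
  ∑ s ∈ (chains p G).filter (fun s => K ≤ stab s), (-1) ^ s.card

section

variable {p : ℕ} {G : Type*} [Group G]

theorem stab_smul_eq (c : G) (s : Finset (Subgroup G)) : stab (c • s) = cj c (stab s) := by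
  ext x
  rw [mem_cj]
  have h := mem_stab_smul c (c⁻¹ * x * c) s
  have h2 : c * (c⁻¹ * x * c) * c⁻¹ = x := by group
  rw [h2] at h
  exact h

theorem cj_le_stab_smul {c : G} {K : Subgroup G} {s : Finset (Subgroup G)} :
    cj c K ≤ stab (c • s) ↔ K ≤ stab s := by
  rw [stab_smul_eq, cj_le, cj_cj, inv_mul_cancel, cj_one]

theorem inv_WW [Finite G] : Inv (WW p : Subgroup G → ℤ) := by
  intro c K
  unfold WW
  symm
  refine Finset.sum_bij (fun s _ => c • s) ?_ ?_ ?_ ?_
  · intro s hs
    rw [Finset.mem_filter, mem_chains] at hs ⊢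
    exact ⟨(isPChain_smul p c s).mpr hs.1, cj_le_stab_smul.2 hs.2⟩
  · intro s _ t _ h
    exact MulAction.injective c h
  · intro s hs
    refine ⟨c⁻¹ • s, ?_, by simp⟩
    rw [Finset.mem_filter, mem_chains] at hs ⊢
    refine ⟨(isPChain_smul p c⁻¹ s).mpr hs.1, ?_⟩
    rw [← cj_le_stab_smul (c := c), smul_inv_smul]
    exact hs.2
  · intro s _
    rw [card_smul]

theorem van_WW [Finite G] : Van p (WW p : Subgroup G → ℤ) := by
  intro K hK
  obtain ⟨R, hR, hR1, hRp, hRn⟩ := hK
  unfold WW
  have := sum_tog_eq_zero R ((chains p G).filter fun s => K ≤ stab s)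
    (fun s hs => by
      rw [Finset.mem_filter, mem_chains] at hs ⊢
      exact ⟨tog_isPChain hs.1 hRp hR1 (hR.trans hs.2),
        (le_stab_tog hs.1 hRp hR1 (hR.trans hs.2) hRn).2 hs.2⟩)
    (fun _ => (1 : ℤ)) (fun _ _ => rfl)
  simpa using this

theorem WW_top [Finite G] (h : P179H524.OpTrivial p G) : WW p (⊤ : Subgroup G) = 1 := by
  unfold WW
  have h1 : (chains p G).filter (fun s => (⊤ : Subgroup G) ≤ stab s) = {∅} := by
    ext s
    rw [Finset.mem_filter, mem_chains, Finset.mem_singleton]
    constructor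
    · rintro ⟨hs, hst⟩
      by_contra hne
      obtain ⟨Q, hQ⟩ := Finset.nonempty_iff_ne_empty.2 hne
      have h2 := hs.1 Q hQ
      refine h2.2 (h Q ?_ h2.1)
      have h3 := le_stab.1 hst Q hQ
      rw [top_le_iff] at h3
      exact normalizer_eq_top_iff.1 h3
    · rintro rfl
      refine ⟨⟨?_, ?_⟩, ?_⟩
      · intro Q hQ
        exact absurd hQ (Finset.notMem_empty Q)
      · simp
      · rw [le_stab]
        intro Q hQ
        exact absurd hQ (Finset.notMem_empty Q)
  rw [h1, Finset.sum_singleton, Finset.card_empty, pow_zero]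

theorem dress_WW [Fintype G] : Dress p (WW p : Subgroup G → ℤ) := by
  intro H T hHT hTn _
  have hfin := Fintype.ofFinite (Finset (Subgroup G))
  have h1 : (∑ t : G, if t ∈ T then WW p (H ⊔ zpowers t) else 0) =
      ∑ s : Finset (Subgroup G), if IsPChain p s ∧ H ≤ stab s then
        (-1 : ℤ) ^ s.card * (Nat.card (T ⊓ stab s : Subgroup G) : ℤ) else 0 := by
    have h2 : ∀ t : G, (if t ∈ T then WW p (H ⊔ zpowers t) else 0) =
        ∑ s : Finset (Subgroup G), if IsPChain p s ∧ H ≤ stab s ∧ t ∈ T ∧ t ∈ stab s then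
          (-1 : ℤ) ^ s.card else 0 := by
      intro t
      by_cases ht : t ∈ T
      · rw [if_pos ht]
        unfold WW
        rw [← Finset.sum_filter]
        refine Finset.sum_congr ?_ fun _ _ => rfl
        ext s
        rw [Finset.mem_filter, Finset.mem_filter, mem_chains, sup_le_iff, zpowers_le]
        simp only [Finset.mem_univ, true_and, ht]
      · rw [if_neg ht]
        symm
        refine Finset.sum_eq_zero fun s _ => ?_
        rw [if_neg fun h => ht h.2.2.1]
    rw [Finset.sum_congr rfl fun t _ => h2 t, Finset.sum_comm]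
    refine Finset.sum_congr rfl fun s _ => ?_
    by_cases hs : IsPChain p s ∧ H ≤ stab s
    · rw [if_pos hs]
      have h3 : ∀ t : G, (if IsPChain p s ∧ H ≤ stab s ∧ t ∈ T ∧ t ∈ stab s then
          (-1 : ℤ) ^ s.card else 0) = if t ∈ T ⊓ stab s then (-1 : ℤ) ^ s.card else 0 := by
        intro t
        refine if_congr ?_ rfl rfl
        rw [mem_inf]
        exact ⟨fun h => h.2.2, fun h => ⟨hs.1, hs.2, h⟩⟩
      rw [Finset.sum_congr rfl fun t _ => h3 t, ← Finset.sum_filter, Finset.sum_const,
        nsmul_eq_mul, mul_comm]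
      congr 2
      rw [Nat.card_eq_fintype_card, Fintype.card_subtype]
    · rw [if_neg hs]
      refine Finset.sum_eq_zero fun t _ => ?_
      rw [if_neg fun h => hs ⟨h.1, h.2.1⟩]
  rw [h1]
  have h4 := orbit_dvd (R := T) (Q := Finset (Subgroup G))
    (fun s => if IsPChain p s ∧ H ≤ stab s then
        (-1 : ℤ) ^ s.card * (Nat.card (T ⊓ stab s : Subgroup G) : ℤ) else 0) ?_ 1 ?_
  · rwa [one_mul] at h4
  · rintro ⟨r, hr⟩ s
    change (if IsPChain p (r • s) ∧ H ≤ stab (r • s) then
        (-1 : ℤ) ^ (r • s).card * (Nat.card (T ⊓ stab (r • s) : Subgroup G) : ℤ)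
        else 0) = _
    have hH : cj r H = H := mem_normalizer_iff_cj.1 (hTn hr)
    have hT : cj r T = T :=
      cj_eq_of_le (cj_le_of_mem hr le_rfl)
    have hiff : H ≤ stab (r • s) ↔ H ≤ stab s := by
      conv_lhs => rw [← hH]
      exact cj_le_stab_smul
    have hcard : Nat.card (T ⊓ stab (r • s) : Subgroup G) =
        Nat.card (T ⊓ stab s : Subgroup G) := by
      have h5 : T ⊓ stab (r • s) = cj r (T ⊓ stab s) := by
        conv_lhs => rw [← hT, stab_smul_eq]
        ext x
        rw [mem_inf, mem_cj, mem_cj, mem_cj, mem_inf]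
      rw [h5, card_cj]
    rw [isPChain_smul, card_smul, hcard]
    exact if_congr (and_congr Iff.rfl hiff) rfl rfl
  · intro s
    rw [one_mul]
    by_cases hs : IsPChain p s ∧ H ≤ stab s
    · rw [if_pos hs]
      have h6 : stabilizer T s = (stab s).subgroupOf T := by
        ext τ
        rw [mem_stabilizer_iff, mem_subgroupOf, ← smul_eq_iff_mem_stab hs.1]
        rfl
      have h7 : Nat.card (stabilizer T s) = Nat.card (T ⊓ stab s : Subgroup G) := by
        rw [h6]
        have h8 : (stab s).subgroupOf T = (T ⊓ stab s).subgroupOf T := by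
          ext x
          rw [mem_subgroupOf, mem_subgroupOf, mem_inf]
          exact ⟨fun h => ⟨x.2, h⟩, fun h => h.2⟩
        rw [h8, card_subgroupOf' inf_le_left]
      rw [h7]
      exact Dvd.intro_left _ rfl
    · rw [if_neg hs]
      exact dvd_zero _

theorem WW_closure [Finite G] (x y : G) : WW p (closure {x, y}) = W p x y := by
  unfold WW W
  refine Finset.sum_congr ?_ fun _ _ => rfl
  ext s
  rw [Finset.mem_filter, Finset.mem_filter, closure_le]
  refine and_congr Iff.rfl ?_
  constructor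
  · intro h
    exact ⟨h (by simp), h (by simp)⟩
  · rintro ⟨h1, h2⟩ z (rfl | rfl)
    · exact h1
    · exact h2

theorem NN_WW [Finite G] [Fintype G] (g : G) : NN (WW p : Subgroup G → ℤ) g = P179C.SS p g := by
  unfold NN P179C.SS
  rw [Finset.sum_filter]
  refine Finset.sum_congr rfl fun t _ => ?_
  rw [WW_closure]

theorem opTrivial_of {A : Subgroup G} (h : ¬ HasOp p A) : P179H524.OpTrivial p A := by
  intro R hR hRp
  by_contra hR1
  refine h (hasOp_top_of ⟨R, le_top, hR1, hRp, ?_⟩)
  rw [normalizer_eq_top_iff.2 hR]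

theorem opTrivial_iff_top : P179H524.OpTrivial p G ↔ ¬ HasOp p (⊤ : Subgroup G) := by
  constructor
  · rintro h ⟨R, -, hR1, hRp, hRn⟩
    rw [top_le_iff] at hRn
    exact hR1 (h R (normalizer_eq_top_iff.1 hRn) hRp)
  · intro h R hR hRp
    by_contra hR1
    refine h ⟨R, le_top, hR1, hRp, ?_⟩
    rw [normalizer_eq_top_iff.2 hR]

end

end P179S
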