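import Vale.Agent.P179.H5.Ga3

/-!
# The pairs with a given commutator, ordered by the class of the first member
-/

namespace P179S

open Subgroup MulAction Function

open scoped Classical

section

variable {K : Type*} [Group K] [Fintype K]

/-- the number of `z` with `z x z⁻¹ = w` -/
noncomputable def cjc (x w : K) : ℤ := ∑ z : K, if z * x * z⁻¹ = w then 1 else 0

theorem isCF_cjc (x : K) : P179C.IsCF (cjc x) := by
  intro c w
  unfold cjc
  refine Fintype.sum_equiv (Equiv.mulLeft c⁻¹) _ _ fun z => ?_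
  refine if_congr ?_ rfl rfl
  rw [Equiv.coe_mulLeft]
  constructor
  · intro h
    calc c⁻¹ * z * x * (c⁻¹ * z)⁻¹ = c⁻¹ * (z * x * z⁻¹) * c := by group
      _ = w := by rw [h]; group
  · intro h
    calc z * x * z⁻¹ = c * (c⁻¹ * z * x * (c⁻¹ * z)⁻¹) * c⁻¹ := by group
      _ = c * w * c⁻¹ := by rw [h]

theorem cjc_pow {e : ℕ} (he : e.Coprime (Nat.card K)) (x w : K) :
    cjc (x ^ e) (w ^ e) = cjc x w := by
  unfold cjc
  refine Finset.sum_congr rfl fun z _ => if_congr ?_ rfl rfl
  rw [← conj_pow]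
  exact ⟨fun h => pow_coprime_inj he h, fun h => by rw [h]⟩

/-- the pairs with a given commutator and first member in `S` -/
noncomputable def cK (S : K → Prop) (k : K) : ℤ :=
  ∑ x : K, ∑ y : K, if S x ∧ x * y * x⁻¹ * y⁻¹ = k then 1 else 0

theorem conv_cjc (x k : K) : P179C.conv (cjc x) (cjc x⁻¹) k =
    ∑ z : K, ∑ w : K, if z * x * z⁻¹ * (w * x⁻¹ * w⁻¹) = k then (1 : ℤ) else 0 := by
  unfold P179C.conv
  have h1 : ∀ s : K, cjc x s * cjc x⁻¹ (s⁻¹ * k) =
      ∑ z : K, if z * x * z⁻¹ = s then cjc x⁻¹ (s⁻¹ * k) else 0 := by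
    intro s
    conv_lhs => unfold cjc
    rw [Finset.sum_mul]
    refine Finset.sum_congr rfl fun z _ => ?_
    rw [ite_mul, one_mul, zero_mul]
    rfl
  rw [Finset.sum_congr rfl fun s _ => h1 s, Finset.sum_comm]
  refine Finset.sum_congr rfl fun z _ => ?_
  rw [Finset.sum_ite_eq Finset.univ (z * x * z⁻¹), if_pos (Finset.mem_univ _)]
  unfold cjc
  refine Finset.sum_congr rfl fun w _ => if_congr ?_ rfl rfl
  rw [eq_inv_mul_iff_mul_eq]

theorem card_mul_cK {S : K → Prop} (hS : ∀ c x, S x → S (c * x * c⁻¹)) (k : K) :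
    (Fintype.card K : ℤ) * cK S k =
      ∑ x : K, if S x then P179C.conv (cjc x) (cjc x⁻¹) k else 0 := by
  have h2 : ∀ z : K, (∑ x : K, if S x then
      ∑ w : K, (if z * x * z⁻¹ * (w * x⁻¹ * w⁻¹) = k then (1 : ℤ) else 0) else 0) = cK S k := by
    intro z
    unfold cK
    refine Fintype.sum_equiv (MulAut.conj z).toEquiv _ _ fun x => ?_
    have e1 : (MulAut.conj z).toEquiv x = z * x * z⁻¹ := rfl
    rw [e1]
    by_cases hx : S x
    · rw [if_pos hx]
      refine Fintype.sum_equiv (Equiv.mulRight z⁻¹) _ _ fun w => ?_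
      have e2 : (Equiv.mulRight z⁻¹) w = w * z⁻¹ := rfl
      rw [e2]
      refine if_congr ?_ rfl rfl
      have e3 : z * x * z⁻¹ * (w * z⁻¹) * (z * x * z⁻¹)⁻¹ * (w * z⁻¹)⁻¹ =
          z * x * z⁻¹ * (w * x⁻¹ * w⁻¹) := by group
      rw [e3]
      exact ⟨fun h => ⟨hS z x hx, h⟩, fun h => h.2⟩
    · rw [if_neg hx]
      have hx' : ¬ S (z * x * z⁻¹) := by
        intro h
        apply hx
        have h3 := hS z⁻¹ _ h
        have e4 : z⁻¹ * (z * x * z⁻¹) * z⁻¹⁻¹ = x := by group
        rwa [e4] at h3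
      symm
      exact Finset.sum_eq_zero fun y _ => if_neg fun h => hx' h.1
  have h3 : (Fintype.card K : ℤ) * cK S k = ∑ z : K, ∑ x : K, if S x then
      ∑ w : K, (if z * x * z⁻¹ * (w * x⁻¹ * w⁻¹) = k then (1 : ℤ) else 0) else 0 := by
    rw [Finset.sum_congr rfl fun z _ => h2 z, Finset.sum_const, Finset.card_univ, nsmul_eq_mul]
  rw [h3, Finset.sum_comm]
  refine Finset.sum_congr rfl fun x _ => ?_
  by_cases hx : S x
  · simp only [if_pos hx]
    rw [conv_cjc]
  · simp only [if_neg hx]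
    exact Finset.sum_const_zero

theorem cK_pow {S S' : K → Prop} (hS : ∀ c x, S x → S (c * x * c⁻¹))
    (hS' : ∀ c x, S' x → S' (c * x * c⁻¹)) {e : ℕ} (he : e.Coprime (Nat.card K))
    (h : ∀ x, S' (x ^ e) ↔ S x) (k : K) : cK S' (k ^ e) = cK S k := by
  have hne : (Fintype.card K : ℤ) ≠ 0 := by exact_mod_cast Fintype.card_ne_zero
  apply mul_left_cancel₀ hne
  rw [card_mul_cK hS', card_mul_cK hS]
  symm
  refine Fintype.sum_equiv (powCoprime he.symm) _ _ fun x => ?_
  have e1 : (powCoprime he.symm) x = x ^ e := rfl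
  rw [e1, ← P179C.conv_adams (isCF_cjc _) (isCF_cjc _) he k]
  have e2 : (fun g => cjc (x ^ e) (g ^ e)) = cjc x := funext fun g => cjc_pow he x g
  have e3 : (fun g => cjc (x ^ e)⁻¹ (g ^ e)) = cjc x⁻¹ := funext fun g => by
    rw [← inv_pow]
    exact cjc_pow he x⁻¹ g
  rw [e2, e3]
  exact if_congr (h x).symm rfl rfl

theorem cK_card (S : K → Prop) (k : K) :
    cK S k = Nat.card {t : K × K // S t.1 ∧ t.1 * t.2 * t.1⁻¹ * t.2⁻¹ = k} := by
  unfold cK
  rw [Nat.card_eq_fintype_card, Fintype.card_subtype, Finset.card_eq_sum_ones,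
    Finset.sum_filter, Fintype.sum_prod_type]
  push_cast
  rfl

end

section

variable {G : Type*} [Group G] [Finite G]

/-- the pairs with commutator `g` generating a group with a property, with first member in a
class -/
noncomputable def CX (g : G) (Q : Subgroup G → Prop) (ω : ConjClasses G) : ℕ :=
  Nat.card {t : G × G // t.1 * t.2 * t.1⁻¹ * t.2⁻¹ = g ∧ Q (closure {t.1, t.2}) ∧
    ConjClasses.mk t.1 = ω}

theorem CX_le {e : ℕ} (he : e.Coprime (Nat.card G)) {g : G} (hge : g ^ e = g) (H : Subgroup G)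
    (ω : ConjClasses G) : CX g (fun K => K ≤ H) (pw e ω) = CX g (fun K => K ≤ H) ω := by
  by_cases hg : g ∈ H
  · have := Fintype.ofFinite H
    have h1 : ∀ ω : ConjClasses G, (CX g (fun K => K ≤ H) ω : ℤ) =
        cK (fun x : H => ConjClasses.mk (x : G) = ω) ⟨g, hg⟩ := by
      intro ω
      rw [cK_card]
      unfold CX
      congr 1
      refine Nat.card_congr ⟨fun t => ⟨(⟨t.1.1, ?_⟩, ⟨t.1.2, ?_⟩), ?_, ?_⟩,
        fun t => ⟨((t.1.1 : G), (t.1.2 : G)), ?_, ?_, ?_⟩, ?_, ?_⟩
      · exact t.2.2.1 (subset_closure (by simp))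
      · exact t.2.2.1 (subset_closure (by simp))
      · exact t.2.2.2
      · exact Subtype.ext t.2.1
      · exact congrArg Subtype.val t.2.2
      · change closure {((t.1.1 : H) : G), ((t.1.2 : H) : G)} ≤ H
        rw [closure_le]
        rintro w (rfl | rfl)
        · exact t.1.1.2
        · exact t.1.2.2
      · exact t.2.1
      · intro t; rfl
      · intro t; rfl
    have hcl : ∀ (ω : ConjClasses G) (c x : H), ConjClasses.mk (x : G) = ω →
        ConjClasses.mk ((c * x * c⁻¹ : H) : G) = ω := by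
      intro ω c x hx
      rw [← hx, ConjClasses.mk_eq_mk_iff_isConj, isConj_comm]
      exact isConj_iff.2 ⟨(c : G), rfl⟩
    have h2 : e.Coprime (Nat.card H) := Nat.Coprime.coprime_dvd_right (card_subgroup_dvd_card H) he
    have h3 := cK_pow (S := fun x : H => ConjClasses.mk (x : G) = ω)
      (S' := fun x : H => ConjClasses.mk (x : G) = pw e ω) (hcl _) (hcl _) h2 (fun x => by
        rw [SubmonoidClass.coe_pow, ← pw_mk, pw_inj he]) ⟨g, hg⟩
    have h4 : (⟨g, hg⟩ : H) ^ e = ⟨g, hg⟩ := Subtype.ext hge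
    rw [h4, ← h1, ← h1] at h3
    exact_mod_cast h3
  · have h1 : ∀ ω : ConjClasses G, CX g (fun K => K ≤ H) ω = 0 := by
      intro ω
      unfold CX
      rw [Nat.card_eq_zero]
      left
      refine ⟨fun t => hg ?_⟩
      have hx : t.1.1 ∈ H := t.2.2.1 (subset_closure (by simp))
      have hy : t.1.2 ∈ H := t.2.2.1 (subset_closure (by simp))
      rw [← t.2.1]
      exact H.mul_mem (H.mul_mem (H.mul_mem hx hy) (H.inv_mem hx)) (H.inv_mem hy)
    rw [h1, h1]

theorem CX_eq_sum (g : G) (Q : Subgroup G → Prop) (ω : ConjClasses G) [Fintype (Subgroup G)] :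
    CX g Q ω = ∑ H : Subgroup G, if Q H then CX g (fun K => K = H) ω else 0 := by
  have := Fintype.ofFinite G
  unfold CX
  simp only [Nat.card_eq_fintype_card, Fintype.card_subtype]
  rw [Finset.card_eq_sum_card_fiberwise (f := fun t : G × G => closure {t.1, t.2})
    (t := Finset.univ) (fun _ _ => Finset.mem_coe.2 (Finset.mem_univ _))]
  refine Finset.sum_congr rfl fun H _ => ?_
  rw [Finset.filter_filter]
  split_ifs with h
  · congr 1
    refine Finset.filter_congr fun t _ => ?_
    constructor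
    · rintro ⟨⟨h1, h2, h3⟩, h5⟩
      exact ⟨h1, h5, h3⟩
    · rintro ⟨h1, h5, h3⟩
      exact ⟨⟨h1, by rw [h5]; exact h, h3⟩, h5⟩
  · rw [Finset.card_eq_zero, Finset.filter_eq_empty_iff]
    rintro t _ ⟨⟨h1, h2, h3⟩, h5⟩
    rw [h5] at h2
    exact h h2

theorem CX_eq_pow {e : ℕ} (he : e.Coprime (Nat.card G)) {g : G} (hge : g ^ e = g)
    (ω : ConjClasses G) (H : Subgroup G) :
    CX g (fun K => K = H) (pw e ω) = CX g (fun K => K = H) ω := by
  have : Fintype (Subgroup G) := Fintype.ofFinite _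
  induction H using WellFoundedLT.induction with
  | ind H ih =>
    have h1 := CX_le he hge H ω
    have h2 : ∀ ω : ConjClasses G, CX g (fun K => K ≤ H) ω = CX g (fun K => K = H) ω +
        ∑ K : Subgroup G, if K < H then CX g (fun K' => K' = K) ω else 0 := by
      intro ω
      have e1 : CX g (fun K => K = H) ω = ∑ K : Subgroup G,
          if K = H then CX g (fun K' => K' = K) ω else 0 := by
        rw [Finset.sum_ite_eq' Finset.univ H, if_pos (Finset.mem_univ H)]
      rw [CX_eq_sum g (fun K => K ≤ H) ω, e1, ← Finset.sum_add_distrib]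
      refine Finset.sum_congr rfl fun K _ => ?_
      by_cases h3 : K = H
      · subst h3
        simp
      · by_cases h4 : K < H
        · simp [h3, h4, h4.le]
        · have h5 : ¬ K ≤ H := fun h => h4 (lt_of_le_of_ne h h3)
          simp [h3, h4, h5]
    rw [h2, h2 ω] at h1
    have h3 : (∑ K : Subgroup G, if K < H then CX g (fun K' => K' = K) (pw e ω) else 0) =
        ∑ K : Subgroup G, if K < H then CX g (fun K' => K' = K) ω else 0 := by
      refine Finset.sum_congr rfl fun K _ => ?_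
      split_ifs with hK
      · exact ih K hK
      · rfl
    rw [h3] at h1
    exact Nat.add_right_cancel h1

theorem CX_pow {e : ℕ} (he : e.Coprime (Nat.card G)) {g : G} (hge : g ^ e = g)
    (Q : Subgroup G → Prop) (ω : ConjClasses G) : CX g Q (pw e ω) = CX g Q ω := by
  have : Fintype (Subgroup G) := Fintype.ofFinite _
  rw [CX_eq_sum, CX_eq_sum]
  refine Finset.sum_congr rfl fun H _ => ?_
  split_ifs
  · exact CX_eq_pow he hge ω H
  · rfl

end

end P179S
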