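import Vale.Agent.P179.H5.Tri4

/-!
# The subgroups containing all elements of order prime to `p`
-/

namespace P179S

open Subgroup MulAction

open scoped Classical

section

variable {G : Type*} [Group G]

/-- `K` contains all elements of order prime to `p`. -/
def Big (p : ℕ) (K : Subgroup G) : Prop := ∀ x : G, ¬ p ∣ orderOf x → x ∈ K

theorem orderOf_cj (c x : G) : orderOf (c * x * c⁻¹) = orderOf x := by
  have := MulEquiv.orderOf_eq (MulAut.conj c) x
  simpa using this

theorem big_cj {p : ℕ} {c : G} {K : Subgroup G} (h : Big p K) : Big p (cj c K) := by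
  intro x hx
  rw [mem_cj]
  refine h _ ?_
  have h1 := orderOf_cj c⁻¹ x
  rw [inv_inv] at h1
  rwa [h1]

theorem big_cj_iff {p : ℕ} {c : G} {K : Subgroup G} : Big p (cj c K) ↔ Big p K := by
  refine ⟨fun h => ?_, big_cj⟩
  have := big_cj (c := c⁻¹) h
  rwa [cj_cj, inv_mul_cancel, cj_one] at this

/-- the indicator function -/
noncomputable def ee (p : ℕ) (K : Subgroup G) : ℤ := if Big p K then 1 else 0

theorem inv_ee {p : ℕ} : Inv (ee p : Subgroup G → ℤ) := by
  intro c K
  unfold ee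
  exact if_congr big_cj_iff rfl rfl

theorem ee_top {p : ℕ} : ee p (⊤ : Subgroup G) = 1 := by
  unfold ee
  rw [if_pos]
  intro x _
  exact mem_top x

/-- an element of order prime to `p` lies in every normal subgroup of index a power of `p` -/
theorem mem_of_index {p : ℕ} [hp : Fact p.Prime] {H T : Subgroup G} [Finite G] (hHT : H ≤ T)
    (hT : T ≤ normalizer (H : Set G)) {n : ℕ} (hn : Nat.card T = p ^ n * Nat.card H) {x : G}
    (hxT : x ∈ T) (hx : ¬ p ∣ orderOf x) : x ∈ H := by
  have hnorm : (H.subgroupOf T).Normal := by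
    refine ⟨fun a ha t => ?_⟩
    rw [mem_subgroupOf] at ha ⊢
    exact (mem_normalizer_iff.1 (hT t.2) (a : G)).1 ha
  have h1 := Subgroup.pow_index_mem (H.subgroupOf T) ⟨x, hxT⟩
  have h2 : (H.subgroupOf T).index = p ^ n := by
    have h3 := (H.subgroupOf T).card_mul_index
    rw [card_subgroupOf' hHT, hn, mul_comm (p ^ n)] at h3
    exact Nat.eq_of_mul_eq_mul_left Nat.card_pos h3
  rw [h2, mem_subgroupOf] at h1
  have h4 : x ^ p ^ n ∈ H := h1
  obtain ⟨m, hm⟩ := exists_pow_eq_self_of_coprime (x := x) (n := p ^ n)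
    (Nat.Coprime.pow_left _ ((Nat.Prime.coprime_iff_not_dvd hp.out).2 hx))
  rw [← hm]
  exact H.pow_mem h4 m

theorem dress_ee {p : ℕ} [hp : Fact p.Prime] [Fintype G] : Dress p (ee p : Subgroup G → ℤ) := by
  rintro H T hHT hTn ⟨n, hn⟩
  have h1 : ∀ t ∈ T, ee p (H ⊔ zpowers t) = ee p H := by
    intro t ht
    unfold ee
    refine if_congr ?_ rfl rfl
    constructor
    · intro h x hx
      refine mem_of_index hHT hTn hn ?_ hx
      have h2 : H ⊔ zpowers t ≤ T := sup_le hHT (by rw [zpowers_le]; exact ht)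
      exact h2 (h x hx)
    · intro h x hx
      exact (le_sup_left : H ≤ H ⊔ zpowers t) (h x hx)
  have h2 : (∑ t : G, if t ∈ T then ee p (H ⊔ zpowers t) else 0) =
      ∑ t : G, if t ∈ T then ee p H else 0 := by
    refine Finset.sum_congr rfl fun t _ => ?_
    by_cases ht : t ∈ T
    · rw [if_pos ht, if_pos ht, h1 t ht]
    · rw [if_neg ht, if_neg ht]
  rw [h2, ← Finset.sum_filter, Finset.sum_const, nsmul_eq_mul]
  have h3 : Nat.card T = (Finset.univ.filter (fun t : G => t ∈ T)).card := by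
    rw [Nat.card_eq_fintype_card, Fintype.card_subtype]
  rw [h3]
  exact Dvd.intro _ rfl

theorem big_sup {p : ℕ} [hp : Fact p.Prime] [Finite G] (P : Sylow p G) {L : Subgroup G}
    (hL : Big p L) : (P : Subgroup G) ⊔ L = ⊤ := by
  rw [← Subgroup.index_eq_one]
  by_contra h
  obtain ⟨q, hq, hqd⟩ := Nat.exists_prime_and_dvd h
  by_cases hqp : q = p
  · subst hqp
    exact P.not_dvd_index (hqd.trans (index_dvd_of_le le_sup_left))
  · have := Fact.mk hq
    let Q : Sylow q G := default
    refine Q.not_dvd_index (hqd.trans (index_dvd_of_le ?_))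
    refine le_trans ?_ le_sup_right
    intro x hx
    refine hL x ?_
    intro hpx
    obtain ⟨n, hn⟩ := Q.isPGroup' ⟨x, hx⟩
    have h1 : x ^ q ^ n = 1 := congrArg Subtype.val hn
    have h2 : p ∣ q ^ n := hpx.trans (orderOf_dvd_of_pow_eq_one h1)
    exact hqp ((Nat.prime_dvd_prime_iff_eq hp.out hq).1 (hp.out.dvd_of_dvd_pow h2)).symm

theorem van_ee {p : ℕ} [hp : Fact p.Prime] [Finite G]
    (hG : ∀ R : Subgroup G, R.Normal → IsPGroup p R → R = ⊥) :
    Van p (ee p : Subgroup G → ℤ) := by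
  rintro K ⟨R, hR, hR1, hRp, hRn⟩
  unfold ee
  rw [if_neg]
  intro hK
  -- the normal subgroup generated by the elements of order prime to `p`
  set S : Set G := {x : G | ¬ p ∣ orderOf x} with hS
  have hLK : normalClosure S ≤ K := by
    refine (closure_le K).2 ?_
    intro x hx
    obtain ⟨a, ha, hax⟩ := Group.mem_conjugatesOfSet_iff.1 hx
    obtain ⟨c, rfl⟩ := isConj_iff.1 hax
    refine hK _ ?_
    rw [orderOf_cj]
    exact ha
  have hLbig : Big p (normalClosure S) := fun x hx => subset_normalClosure hx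
  obtain ⟨P, hP⟩ := hRp.exists_le_sylow
  have htop := big_sup P hLbig
  have hle : normalClosure (R : Set G) ≤ (P : Subgroup G) := by
    refine (closure_le _).2 ?_
    intro x hx
    obtain ⟨a, ha, hax⟩ := Group.mem_conjugatesOfSet_iff.1 hx
    obtain ⟨c, rfl⟩ := isConj_iff.1 hax
    have hc : c ∈ (P : Subgroup G) ⊔ normalClosure S := by rw [htop]; exact mem_top c
    obtain ⟨u, hu, l, hl, rfl⟩ := Subgroup.mem_sup_of_normal_right.1 hc
    have h1 : l * a * l⁻¹ ∈ R := (mem_normalizer_iff.1 (hRn (hLK hl)) a).1 ha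
    have h2 : u * l * a * (u * l)⁻¹ = u * (l * a * l⁻¹) * u⁻¹ := by group
    rw [SetLike.mem_coe, h2]
    exact mul_mem (mul_mem hu (hP h1)) (inv_mem hu)
  have h3 := hG (normalClosure (R : Set G)) normalClosure_normal (P.isPGroup'.to_le hle)
  apply hR1
  rw [eq_bot_iff, ← h3]
  exact subset_normalClosure

theorem NN_ee {p : ℕ} [Fintype G] (g : G) : NN (ee p : Subgroup G → ℤ) g =
    (Nat.card {t : G × G // t.1 * t.2 * t.1⁻¹ * t.2⁻¹ = g ∧
      ∀ x : G, ¬ p ∣ orderOf x → x ∈ closure {t.1, t.2}} : ℤ) := by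
  unfold NN ee
  rw [Nat.card_eq_fintype_card, Fintype.card_subtype, Finset.card_eq_sum_ones, Finset.sum_filter]
  push_cast
  refine Finset.sum_congr rfl fun t _ => ?_
  by_cases h1 : t.1 * t.2 * t.1⁻¹ * t.2⁻¹ = g
  · rw [if_pos h1]
    refine if_congr ?_ rfl rfl
    exact ⟨fun h => ⟨h1, h⟩, fun h => h.2⟩
  · rw [if_neg h1, if_neg fun h => h1 h.1]

end

end P179S
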