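import Vale.Agent.P179.H5.Fr1
import Vale.Agent.P179.H5.Cnt1

/-!
# Twists of the pairs with a given commutator
-/

namespace P179S

open Subgroup MulAction Function

open scoped Classical

section

variable {G : Type*} [Group G]

/-- the commutator -/
def cm (ξ : G × G) : G := ξ.1 * ξ.2 * ξ.1⁻¹ * ξ.2⁻¹

/-- conjugation of pairs -/
def cn (c : G) (ξ : G × G) : G × G := (c * ξ.1 * c⁻¹, c * ξ.2 * c⁻¹)

@[simp] theorem cn_one (ξ : G × G) : cn 1 ξ = ξ := by
  unfold cn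
  simp

theorem cn_mul (a b : G) (ξ : G × G) : cn (a * b) ξ = cn a (cn b ξ) := by
  unfold cn
  refine Prod.ext ?_ ?_
  · change a * b * ξ.1 * (a * b)⁻¹ = a * (b * ξ.1 * b⁻¹) * a⁻¹
    group
  · change a * b * ξ.2 * (a * b)⁻¹ = a * (b * ξ.2 * b⁻¹) * a⁻¹
    group

theorem cm_cn (c : G) (ξ : G × G) : cm (cn c ξ) = c * cm ξ * c⁻¹ := by
  unfold cm cn
  group

/-- the generated subgroup -/
def gn (ξ : G × G) : Subgroup G := closure {ξ.1, ξ.2}

theorem gn_cn (c : G) (ξ : G × G) : gn (cn c ξ) = cj c (gn ξ) := (cj_closure_pair c ξ.1 ξ.2).symm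

theorem fst_mem_gn (ξ : G × G) : ξ.1 ∈ gn ξ := subset_closure (by simp)

theorem snd_mem_gn (ξ : G × G) : ξ.2 ∈ gn ξ := subset_closure (by simp)

theorem cm_mem_gn (ξ : G × G) : cm ξ ∈ gn ξ :=
  (gn ξ).mul_mem ((gn ξ).mul_mem ((gn ξ).mul_mem (fst_mem_gn ξ) (snd_mem_gn ξ))
    ((gn ξ).inv_mem (fst_mem_gn ξ))) ((gn ξ).inv_mem (snd_mem_gn ξ))

theorem gn_le {ξ : G × G} {H : Subgroup G} (h1 : ξ.1 ∈ H) (h2 : ξ.2 ∈ H) : gn ξ ≤ H := by
  unfold gn
  rw [closure_le]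
  rintro x (rfl | rfl)
  · exact h1
  · exact h2

theorem commute_of_cn {c : G} {ξ : G × G} (h : cn c ξ = ξ) {w : G} (hw : w ∈ gn ξ) :
    c * w = w * c := by
  have h1 : gn ξ ≤ centralizer {c} := by
    refine gn_le ?_ ?_
    · rw [mem_centralizer_singleton_iff]
      have : c * ξ.1 * c⁻¹ = ξ.1 := congrArg Prod.fst h
      exact (mul_inv_eq_iff_eq_mul.1 this).symm
    · rw [mem_centralizer_singleton_iff]
      have : c * ξ.2 * c⁻¹ = ξ.2 := congrArg Prod.snd h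
      exact (mul_inv_eq_iff_eq_mul.1 this).symm
  exact (mem_centralizer_singleton_iff.1 (h1 hw)).symm

/-- A twist. -/
structure Twist (q : ℕ) (τ : G × G → G × G) : Prop where
  comm : ∀ ξ, cm (τ ξ) = cm ξ
  conj : ∀ c ξ, τ (cn c ξ) = cn c (τ ξ)
  gen : ∀ ξ, gn (τ ξ) = gn ξ
  full : ∀ ξ, τ^[q] ξ = cn (cm ξ) ξ

variable {q : ℕ} {τ : G × G → G × G} (hτ : Twist q τ)

include hτ

theorem Twist.comm_iter (m : ℕ) (ξ : G × G) : cm (τ^[m] ξ) = cm ξ := by
  induction m generalizing ξ with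
  | zero => rfl
  | succ m ih => rw [iterate_succ, comp_apply, ih, hτ.comm]

theorem Twist.gen_iter (m : ℕ) (ξ : G × G) : gn (τ^[m] ξ) = gn ξ := by
  induction m generalizing ξ with
  | zero => rfl
  | succ m ih => rw [iterate_succ, comp_apply, ih, hτ.gen]

theorem Twist.conj_iter (m : ℕ) (c : G) (ξ : G × G) : τ^[m] (cn c ξ) = cn c (τ^[m] ξ) := by
  induction m generalizing ξ with
  | zero => rfl
  | succ m ih => rw [iterate_succ, comp_apply, comp_apply, hτ.conj, ih]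

theorem Twist.full_iter (m : ℕ) (ξ : G × G) : τ^[q * m] ξ = cn (cm ξ ^ m) ξ := by
  induction m with
  | zero => simp
  | succ m ih =>
    rw [mul_add, mul_one, iterate_add, comp_apply, hτ.full, hτ.conj_iter, ih, ← cn_mul,
      ← pow_succ']

theorem Twist.pow_of_eq {j : ℕ} {c : G} {ξ : G × G} (h : τ^[j] ξ = cn c ξ) (m : ℕ) :
    τ^[j * m] ξ = cn (c ^ m) ξ := by
  induction m with
  | zero => simp
  | succ m ih =>
    rw [mul_add, mul_one, iterate_add, comp_apply, h, hτ.conj_iter, ih, ← cn_mul, ← pow_succ']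

end

end P179S
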