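import Vale.Agent.P179.H5.Ga2
import Vale.Agent.P179.H5.Tw1

/-!
# Pairs whose product is conjugate to its powers
-/

namespace P179S

open Subgroup MulAction Function

open scoped Classical

section

variable {G : Type*} [Group G]

theorem isConj_pw {x y : G} (h : IsConj x y) (e : ℕ) : IsConj (x ^ e) (y ^ e) := by
  obtain ⟨c, rfl⟩ := isConj_iff.1 h
  exact isConj_iff.2 ⟨c, (conj_pow).symm⟩

/-- the power map on the classes -/
def pw (e : ℕ) : ConjClasses G → ConjClasses G :=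
  Quotient.map (fun k => k ^ e) (fun _ _ h => isConj_pw h e)

theorem pw_mk (e : ℕ) (k : G) : pw e (ConjClasses.mk k) = ConjClasses.mk (k ^ e) := rfl

theorem pw_comm (e f : ℕ) (ω : ConjClasses G) : pw e (pw f ω) = pw f (pw e ω) := by
  obtain ⟨k, rfl⟩ := ConjClasses.mk_surjective ω
  rw [pw_mk, pw_mk, pw_mk, pw_mk, ← pow_mul, ← pow_mul, mul_comm]

theorem pw_inj [Finite G] {e : ℕ} (he : e.Coprime (Nat.card G)) {ω ω' : ConjClasses G} :
    pw e ω = pw e ω' ↔ ω = ω' := by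
  refine ⟨fun h => ?_, fun h => by rw [h]⟩
  obtain ⟨k, rfl⟩ := ConjClasses.mk_surjective ω
  obtain ⟨k', rfl⟩ := ConjClasses.mk_surjective ω'
  rw [pw_mk, pw_mk, ConjClasses.mk_eq_mk_iff_isConj, isConj_iff] at h
  obtain ⟨c, hc⟩ := h
  rw [ConjClasses.mk_eq_mk_iff_isConj, isConj_iff]
  refine ⟨c, pow_coprime_inj he ?_⟩
  rw [conj_pow]
  exact hc

theorem pw_iter (e i : ℕ) (k : G) :
    (pw e)^[i] (ConjClasses.mk k) = ConjClasses.mk (k ^ e ^ i) := by
  induction i generalizing k with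
  | zero => simp
  | succ i ih =>
    rw [iterate_succ, comp_apply, pw_mk, ih, ← pow_mul, pow_succ']

/-- the pairs -/
def InX (a b : ℕ) (Q : Subgroup G → Prop) (g : G) (t : G × G) : Prop :=
  t.1 ^ a = 1 ∧ t.2 ^ b = 1 ∧ (t.1 * t.2) ^ a = g ∧ Q (closure {t.1, t.2})

theorem D_eq_sum [Finite G] [Fintype G] {a b : ℕ} {Q : Subgroup G → Prop} {g : G}
    (ω : ConjClasses G) :
    Nat.card {t : G × G // InX a b Q g t ∧ ConjClasses.mk (t.1 * t.2) = ω} =
      ∑ k : G, if k ^ a = g ∧ ConjClasses.mk k = ω then NQ a b Q k else 0 := by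
  unfold NQ
  simp only [Nat.card_eq_fintype_card, Fintype.card_subtype]
  rw [Finset.card_eq_sum_card_fiberwise (f := fun t : G × G => t.1 * t.2)
    (t := Finset.univ) (fun _ _ => Finset.mem_coe.2 (Finset.mem_univ _))]
  refine Finset.sum_congr rfl fun k _ => ?_
  rw [Finset.filter_filter]
  split_ifs with h
  · congr 1
    refine Finset.filter_congr fun t _ => ?_
    constructor
    · rintro ⟨⟨⟨h1, h2, h3, h4⟩, h5⟩, h6⟩
      exact ⟨h1, h2, h6, h4⟩
    · rintro ⟨h1, h2, h6, h4⟩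
      refine ⟨⟨⟨h1, h2, ?_, h4⟩, ?_⟩, h6⟩
      · rw [h6]; exact h.1
      · rw [h6]; exact h.2
  · rw [Finset.card_eq_zero, Finset.filter_eq_empty_iff]
    rintro t _ ⟨⟨⟨h1, h2, h3, h4⟩, h5⟩, h6⟩
    rw [h6] at h3 h5
    exact h ⟨h3, h5⟩

theorem D_pw [Finite G] {a b e : ℕ} {Q : Subgroup G → Prop} {g : G}
    (he : e.Coprime (Nat.card G)) (hge : g ^ e = g) (ω : ConjClasses G) :
    Nat.card {t : G × G // InX a b Q g t ∧ ConjClasses.mk (t.1 * t.2) = pw e ω} =
      Nat.card {t : G × G // InX a b Q g t ∧ ConjClasses.mk (t.1 * t.2) = ω} := by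
  have := Fintype.ofFinite G
  rw [D_eq_sum, D_eq_sum]
  symm
  refine Fintype.sum_equiv (powCoprime he.symm) _ _ fun k => ?_
  have h1 : (powCoprime he.symm) k = k ^ e := rfl
  rw [h1, NQ_pow he]
  refine if_congr ?_ rfl rfl
  refine and_congr ?_ ?_
  · rw [← pow_mul, mul_comm, pow_mul]
    constructor
    · intro h
      rw [h, hge]
    · intro h
      refine pow_coprime_inj he ?_
      rw [h, hge]
  · rw [← pw_mk, pw_inj he]

theorem D_dvd [Finite G] {p : ℕ} {a b : ℕ} {Q : Subgroup G → Prop} {g : G}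
    (hQ : ∀ (c : G) (K : Subgroup G), Q K → Q (cj c K))
    {P : Subgroup G} (hP : IsPGroup p P) (hPg : ∀ c ∈ P, c * g = g * c)
    (hfree : ∀ t, InX a b Q g t → ∀ z : G, (∃ m : ℕ, z ^ p ^ m = 1) → cn z t = t → z = 1)
    (ω : ConjClasses G) :
    Nat.card P ∣ Nat.card {t : G × G // InX a b Q g t ∧ ConjClasses.mk (t.1 * t.2) = ω} := by
  have hst : ∀ (c : P) (t : G × G), InX a b Q g t ∧ ConjClasses.mk (t.1 * t.2) = ω →
      InX a b Q g (cn (c : G) t) ∧ ConjClasses.mk ((cn (c : G) t).1 * (cn (c : G) t).2) = ω := by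
    rintro c ⟨s, t⟩ ⟨⟨h1, h2, h3, h4⟩, h5⟩
    have h1' : s ^ a = 1 := h1
    have h2' : t ^ b = 1 := h2
    have h3' : (s * t) ^ a = g := h3
    have e1 : (c : G) * s * (c : G)⁻¹ * ((c : G) * t * (c : G)⁻¹) = (c : G) * (s * t) * (c : G)⁻¹ := by
      group
    refine ⟨⟨?_, ?_, ?_, ?_⟩, ?_⟩
    · change ((c : G) * s * (c : G)⁻¹) ^ a = 1
      rw [conj_pow, h1', mul_one, mul_inv_cancel]
    · change ((c : G) * t * (c : G)⁻¹) ^ b = 1
      rw [conj_pow, h2', mul_one, mul_inv_cancel]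
    · change ((c : G) * s * (c : G)⁻¹ * ((c : G) * t * (c : G)⁻¹)) ^ a = g
      rw [e1, conj_pow, h3', hPg c c.2, mul_inv_cancel_right]
    · have h6 := hQ (c : G) _ h4
      rw [cj_closure_pair] at h6
      exact h6
    · change ConjClasses.mk ((c : G) * s * (c : G)⁻¹ * ((c : G) * t * (c : G)⁻¹)) = ω
      rw [e1, ← h5, ConjClasses.mk_eq_mk_iff_isConj, isConj_comm]
      exact isConj_iff.2 ⟨c, rfl⟩
  let act : MulAction P {t : G × G // InX a b Q g t ∧ ConjClasses.mk (t.1 * t.2) = ω} :=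
    { smul := fun c t => ⟨cn (c : G) t.1, hst c t.1 t.2⟩
      one_smul := fun t => Subtype.ext (by
        change cn ((1 : P) : G) t.1 = t.1
        rw [Subgroup.coe_one, cn_one])
      mul_smul := fun c d t => Subtype.ext (by
        change cn ((c * d : P) : G) t.1 = cn (c : G) (cn (d : G) t.1)
        rw [Subgroup.coe_mul, cn_mul]) }
  have h1 := card_pred (R := P)
    (X := {t : G × G // InX a b Q g t ∧ ConjClasses.mk (t.1 * t.2) = ω}) (fun t c hc => by
      have h2 : cn (c : G) t.1 = t.1 := congrArg Subtype.val hc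
      obtain ⟨m, hm⟩ := hP c
      exact Subtype.ext (hfree t.1 t.2.1 c ⟨m, congrArg Subtype.val hm⟩ h2)) (fun _ => True)
  rw [Nat.card_congr (Equiv.subtypeUnivEquiv fun _ => trivial)] at h1
  rw [h1]
  exact Nat.dvd_mul_left _ _

/-- the induction step -/
theorem rat_step [Finite G] {p n b : ℕ} [hp : Fact p.Prime] {Q : Subgroup G → Prop} {g : G}
    (hg : p ∣ orderOf g)
    (hQ : ∀ (c : G) (K : Subgroup G), Q K → Q (cj c K))
    {P : Subgroup G} (hP : IsPGroup p P) (hPg : ∀ c ∈ P, c * g = g * c)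
    (hfree : ∀ t, InX (p ^ n) b Q g t → ∀ z : G, (∃ m : ℕ, z ^ p ^ m = 1) → cn z t = t → z = 1)
    (J : Set ℕ) {e : ℕ} (he : e.Coprime (Nat.card G)) (hge : g ^ e = g) :
    ((p * Nat.card P : ℕ) : ℤ) ∣
      (Nat.card {t : G × G // InX (p ^ n) b Q g t ∧
        ∀ f ∈ J, pw f (ConjClasses.mk (t.1 * t.2)) = ConjClasses.mk (t.1 * t.2)} : ℤ) -
      Nat.card {t : G × G // InX (p ^ n) b Q g t ∧
        ∀ f ∈ insert e J, pw f (ConjClasses.mk (t.1 * t.2)) = ConjClasses.mk (t.1 * t.2)} := by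
  let X := {t : G × G // InX (p ^ n) b Q g t ∧
        ∀ f ∈ J, pw f (ConjClasses.mk (t.1 * t.2)) = ConjClasses.mk (t.1 * t.2)}
  let Ω := {ω : ConjClasses G // (∃ k : G, ConjClasses.mk k = ω ∧ k ^ p ^ n = g) ∧
    ∀ f ∈ J, pw f ω = ω}
  let κ : X → Ω := fun x => ⟨ConjClasses.mk (x.1.1 * x.1.2), ⟨_, rfl, x.2.1.2.2.1⟩, x.2.2⟩
  have hΩ : Finite Ω := Subtype.finite
  let φ : Ω → Ω := fun ω => ⟨pw e ω.1, by
    obtain ⟨k, hk1, hk2⟩ := ω.2.1
    refine ⟨k ^ e, by rw [← hk1, pw_mk], ?_⟩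
    rw [← pow_mul, mul_comm, pow_mul, hk2, hge], fun f hf => by
    rw [pw_comm, ω.2.2 f hf]⟩
  have hφi : ∀ (i : ℕ) (ω : Ω), (φ^[i] ω).1 = (pw e)^[i] ω.1 := by
    intro i
    induction i with
    | zero => intro ω; rfl
    | succ i ih =>
      intro ω
      rw [iterate_succ, comp_apply, ih, iterate_succ, comp_apply]
  have hfib : ∀ ω : Ω, Nat.card {x : X // κ x = ω} =
      Nat.card {t : G × G // InX (p ^ n) b Q g t ∧ ConjClasses.mk (t.1 * t.2) = ω.1} := by
    intro ω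
    refine Nat.card_congr ⟨fun x => ⟨x.1.1, x.1.2.1, congrArg Subtype.val x.2⟩,
      fun t => ⟨⟨t.1, t.2.1, ?_⟩, ?_⟩, ?_, ?_⟩
    · rw [t.2.2]; exact ω.2.2
    · exact Subtype.ext t.2.2
    · intro x; rfl
    · intro t; rfl
  have h1 := perm_fib (p := p) (n := n) (m := Nat.card P) κ φ ?_ ?_ ?_
  · have e1 : Nat.card {x : X // φ (κ x) = κ x} =
        Nat.card {t : G × G // InX (p ^ n) b Q g t ∧
        ∀ f ∈ insert e J, pw f (ConjClasses.mk (t.1 * t.2)) = ConjClasses.mk (t.1 * t.2)} := by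
      refine Nat.card_congr ⟨fun x => ⟨x.1.1, x.1.2.1, ?_⟩,
        fun t => ⟨⟨t.1, t.2.1, ?_⟩, ?_⟩, ?_, ?_⟩
      · intro f hf
        rcases Set.mem_insert_iff.1 hf with rfl | hf
        · exact congrArg Subtype.val x.2
        · exact x.1.2.2 f hf
      · intro f hf
        exact t.2.2 f (Set.mem_insert_of_mem _ hf)
      · exact Subtype.ext (t.2.2 e (Set.mem_insert _ _))
      · intro x; rfl
      · intro t; rfl
    rw [e1] at h1
    exact h1
  · intro ω
    apply Subtype.ext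
    rw [hφi]
    obtain ⟨ω, ⟨k, hk1, hk2⟩, hω⟩ := ω
    subst hk1
    change (pw e)^[p ^ n] (ConjClasses.mk k) = ConjClasses.mk k
    rw [pw_iter, pow_iter hg hge hk2]
  · intro ω
    rw [hfib]
    exact D_dvd hQ hP hPg hfree ω.1
  · intro ω
    rw [hfib, hfib]
    exact D_pw he hge ω.1

theorem rat_fin [Finite G] {p n b : ℕ} [hp : Fact p.Prime] {Q : Subgroup G → Prop} {g : G}
    (hg : p ∣ orderOf g)
    (hQ : ∀ (c : G) (K : Subgroup G), Q K → Q (cj c K))
    {P : Subgroup G} (hP : IsPGroup p P) (hPg : ∀ c ∈ P, c * g = g * c)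
    (hfree : ∀ t, InX (p ^ n) b Q g t → ∀ z : G, (∃ m : ℕ, z ^ p ^ m = 1) → cn z t = t → z = 1)
    (J : Finset ℕ) (hJ : ∀ e ∈ J, e.Coprime (Nat.card G) ∧ g ^ e = g) :
    ((p * Nat.card P : ℕ) : ℤ) ∣
      (Nat.card {t : G × G // InX (p ^ n) b Q g t} : ℤ) -
      Nat.card {t : G × G // InX (p ^ n) b Q g t ∧
        ∀ f ∈ J, pw f (ConjClasses.mk (t.1 * t.2)) = ConjClasses.mk (t.1 * t.2)} := by
  induction J using Finset.induction_on with
  | empty =>
    have : Nat.card {t : G × G // InX (p ^ n) b Q g t ∧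
        ∀ f ∈ (∅ : Finset ℕ), pw f (ConjClasses.mk (t.1 * t.2)) = ConjClasses.mk (t.1 * t.2)} =
        Nat.card {t : G × G // InX (p ^ n) b Q g t} :=
      Nat.card_congr (Equiv.subtypeEquivRight fun t => by simp)
    rw [this, sub_self]
    exact dvd_zero _
  | insert e J _ ih =>
    have h1 := ih fun f hf => hJ f (Finset.mem_insert_of_mem hf)
    have h2 := rat_step hg hQ hP hPg hfree (J : Set ℕ) (hJ e (Finset.mem_insert_self _ _)).1
      (hJ e (Finset.mem_insert_self _ _)).2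
    rw [← Finset.coe_insert] at h2
    simp only [Finset.mem_coe] at h2
    have h3 := dvd_add h1 h2
    rw [sub_add_sub_cancel] at h3
    exact h3

/-- `k` is conjugate to `k z` for all `z ∈ ⟨k⟩` with `z ^ a = 1`. -/
def Rat (a : ℕ) (k : G) : Prop := ∀ z ∈ zpowers k, z ^ a = 1 → IsConj k (k * z)

theorem rat_iff [Finite G] {p n : ℕ} [hp : Fact p.Prime] {g k : G} (hg : p ∣ orderOf g)
    (hk : k ^ p ^ n = g) :
    Rat (p ^ n) k ↔ ∀ f ∈ (Finset.range (Nat.card G)).filter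
      (fun e => e.Coprime (Nat.card G) ∧ g ^ e = g),
      pw f (ConjClasses.mk k) = ConjClasses.mk k := by
  constructor
  · intro h f hf
    rw [Finset.mem_filter] at hf
    rw [pw_mk, ConjClasses.mk_eq_mk_iff_isConj, isConj_comm]
    have h1 := h (k⁻¹ * k ^ f) ((zpowers k).mul_mem ((zpowers k).inv_mem (mem_zpowers k))
      ((zpowers k).pow_mem (mem_zpowers k) f)) ?_
    · rwa [mul_inv_cancel_left] at h1
    · have h2 : Commute k⁻¹ (k ^ f) := ((Commute.refl k).pow_right f).inv_left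
      rw [h2.mul_pow, inv_pow, hk, ← pow_mul, mul_comm, pow_mul, hk, hf.2.2, inv_mul_cancel]
  · intro h z hz hz1
    obtain ⟨j, hj⟩ := (mem_powers_iff_mem_zpowers (x := k) (y := z)).2 hz
    have hj' : k ^ j = z := hj
    have h1 : orderOf g ∣ j := by
      apply orderOf_dvd_of_pow_eq_one
      rw [← hk, ← pow_mul, mul_comm, pow_mul, hj', hz1]
    have h5 : orderOf k ∣ p ^ n * orderOf g := by
      apply orderOf_dvd_of_pow_eq_one
      rw [pow_mul, hk, pow_orderOf_eq_one]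
    have hcop : Nat.Coprime (1 + j) (orderOf k) := by
      rw [Nat.coprime_iff_gcd_eq_one]
      by_contra hne
      obtain ⟨r, hr, hrd⟩ := Nat.exists_prime_and_dvd hne
      have h6 := (hrd.trans (Nat.gcd_dvd_right _ _)).trans h5
      have h7 : r ∣ orderOf g := by
        rcases (hr.dvd_mul).1 h6 with h8 | h8
        · rw [(Nat.prime_dvd_prime_iff_eq hr hp.out).1 (hr.dvd_of_dvd_pow h8)]
          exact hg
        · exact h8
      have h9 : r ∣ 1 := (Nat.dvd_add_left (h7.trans h1)).1 (hrd.trans (Nat.gcd_dvd_left _ _))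
      exact hr.one_lt.ne' (Nat.dvd_one.1 h9)
    have : NeZero (orderOf k) := ⟨(orderOf_pos k).ne'⟩
    obtain ⟨q, hq1, hq2, hq3⟩ := Nat.forall_exists_prime_gt_and_eq_mod (q := orderOf k)
      (a := ((1 + j : ℕ) : ZMod (orderOf k))) ((ZMod.isUnit_iff_coprime _ _).2 hcop) (Nat.card G)
    rw [ZMod.natCast_eq_natCast_iff] at hq3
    have hqk : k ^ q = k * z := by
      have : k ^ q = k ^ (1 + j) := pow_eq_pow_iff_modEq.2 hq3
      rw [this, pow_add, pow_one, hj']
    have hqG : Nat.Coprime q (Nat.card G) := by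
      rw [Nat.Prime.coprime_iff_not_dvd hq2]
      intro h10
      have := Nat.le_of_dvd Nat.card_pos h10
      omega
    have hqm : ∀ x : G, x ^ (q % Nat.card G) = x ^ q := by
      intro x
      rw [pow_eq_pow_iff_modEq]
      exact (Nat.mod_modEq q (Nat.card G)).of_dvd (orderOf_dvd_natCard x)
    have hgq : g ^ q = g := by
      rw [← hk, ← pow_mul, mul_comm, pow_mul, hqk, (show Commute k z by
        rw [← hj']; exact (Commute.refl k).pow_right j).mul_pow, hz1, mul_one]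
    have h11 := h (q % Nat.card G) (by
      rw [Finset.mem_filter]
      refine ⟨Finset.mem_range.2 (Nat.mod_lt _ Nat.card_pos), ?_, ?_⟩
      · rw [Nat.coprime_iff_gcd_eq_one, ← Nat.gcd_rec, Nat.gcd_comm]
        exact hqG
      · rw [hqm, hgq])
    rw [pw_mk, hqm, hqk, ConjClasses.mk_eq_mk_iff_isConj, isConj_comm] at h11
    exact h11

/-- **The pairs whose product is conjugate to its powers.** -/
theorem rat_count [Finite G] {p n b : ℕ} [hp : Fact p.Prime] {Q : Subgroup G → Prop} {g : G}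
    (hg : p ∣ orderOf g)
    (hQ : ∀ (c : G) (K : Subgroup G), Q K → Q (cj c K))
    {P : Subgroup G} (hP : IsPGroup p P) (hPg : ∀ c ∈ P, c * g = g * c)
    (hfree : ∀ t, InX (p ^ n) b Q g t → ∀ z : G, (∃ m : ℕ, z ^ p ^ m = 1) → cn z t = t → z = 1) :
    ((p * Nat.card P : ℕ) : ℤ) ∣
      (Nat.card {t : G × G // InX (p ^ n) b Q g t} : ℤ) -
      Nat.card {t : G × G // InX (p ^ n) b Q g t ∧ Rat (p ^ n) (t.1 * t.2)} := by
  have h1 := rat_fin hg hQ hP hPg hfree ((Finset.range (Nat.card G)).filter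
      (fun e => e.Coprime (Nat.card G) ∧ g ^ e = g)) (fun e he => (Finset.mem_filter.1 he).2)
  have h2 : Nat.card {t : G × G // InX (p ^ n) b Q g t ∧ Rat (p ^ n) (t.1 * t.2)} =
      Nat.card {t : G × G // InX (p ^ n) b Q g t ∧
        ∀ f ∈ (Finset.range (Nat.card G)).filter (fun e => e.Coprime (Nat.card G) ∧ g ^ e = g),
        pw f (ConjClasses.mk (t.1 * t.2)) = ConjClasses.mk (t.1 * t.2)} :=
    Nat.card_congr (Equiv.subtypeEquivRight fun t =>
      and_congr_right fun h => rat_iff hg h.2.2.1)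
  rw [h2]
  exact h1

end

end P179S
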