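import Vale.Agent.P179.H5.Gl1
import Vale.Agent.P179.H143.RFinal2
import Vale.Agent.P179.H166.WG

/-!
# The commutator counting form of the blockwise Alperin weight conjecture
-/

namespace P179S

open Subgroup P179B

open scoped Classical

universe u

section

variable {p : ℕ} [hp : Fact p.Prime] {𝒞 : ∀ (G : Type) [Group G], Prop}

theorem genDivisible_of_comm (h𝒞 : SectionClosed p 𝒞) (h : CommDivisible p 𝒞) :
    GenDivisible p 𝒞 := by
  intro G _ _ hG hO g hg
  have := Fintype.ofFinite G
  rw [genDiv_iff]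
  refine ev_ee_of hO fun A _ _ g' hg' => ?_
  have h1 := h A (h𝒞.1 G A hG) g' (by rw [orderOf_of_conj hg']; exact hg)
  rw [commSum_eq] at h1
  intro R hR hRg
  rw [NN_WW]
  refine dvd_trans ?_ h1
  have hle : R ≤ centralizer {g'} := fun a ha => mem_centralizer_singleton_iff.2 (hRg a ha)
  have h2 : Nat.card R ∣ Nat.card (centralizer ({g'} : Set A)) := Subgroup.card_dvd_of_le hle
  exact_mod_cast Nat.mul_dvd_mul_left p h2

theorem keyS_of_exc (h𝒞 : SectionClosed p 𝒞) (h : GenDivisibleExc p 𝒞) : P179C.KeyS p 𝒞 := by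
  intro G _ _ _ R hG hO hR hR1
  have : Nontrivial R := (Subgroup.nontrivial_iff_ne_bot R).2 hR1
  have hc : Nontrivial (center R) := hR.center_nontrivial
  have hcp : IsPGroup p (center R) := hR.to_subgroup _
  have hdvd : p ∣ Nat.card (center R) := by
    obtain ⟨n, hn⟩ := (IsPGroup.iff_card).1 hcp
    have h3 : 1 < Nat.card (center R) := Finite.one_lt_card
    rw [hn] at h3 ⊢
    refine dvd_pow_self p ?_
    rintro rfl
    rw [pow_zero] at h3
    exact lt_irrefl _ h3
  obtain ⟨v, hv⟩ := exists_prime_orderOf_dvd_card' p hdvd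
  have hvo : orderOf ((v : R) : G) = p := by
    rw [Subgroup.orderOf_coe, Subgroup.orderOf_coe, hv]
  refine ⟨((v : R) : G), (v : R).2, ?_, ?_, ?_⟩
  · intro h2
    rw [h2, orderOf_one] at hvo
    exact hp.out.one_lt.ne hvo
  · intro a ha
    exact congrArg Subtype.val (Subgroup.mem_center_iff.1 v.2 ⟨a, ha⟩)
  · intro g q hq hq' hgv hRg _
    have hpg : p ∣ orderOf g := by
      have h1 : orderOf (g ^ q) ∣ orderOf g := orderOf_pow_dvd q
      rwa [hgv, hvo] at h1
    have hpg2 : ¬ p ^ 2 ∣ orderOf g := by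
      intro h2
      have h3 := P179C.pow_eq_sing (p := p) hq hq' g
      have hcomm := P179C.pr_commute (p := p) g
      have hreg := P179C.pr_regular (p := p) g
      have h4 : g = ((v : R) : G) * P179C.pr p g := by
        rw [← hgv, h3, inv_mul_cancel_right]
      have h5 : Commute ((v : R) : G) (P179C.pr p g) := by
        rw [← hgv]
        exact hcomm.pow_left q
      have h7 : ((v : R) : G) ^ p = 1 := by
        have := pow_orderOf_eq_one ((v : R) : G)
        rwa [hvo] at this
      have h6 : g ^ (p * orderOf (P179C.pr p g)) = 1 := by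
        have h10 : ∀ m : ℕ, g ^ m = ((v : R) : G) ^ m * (P179C.pr p g) ^ m := by
          intro m
          rw [← h5.mul_pow, ← h4]
        rw [h10, pow_mul, h7, one_pow, one_mul, mul_comm p, pow_mul, pow_orderOf_eq_one, one_pow]
      have h8 := h2.trans (orderOf_dvd_of_pow_eq_one h6)
      rw [pow_two] at h8
      exact hreg (Nat.dvd_of_mul_dvd_mul_left hp.out.pos h8)
    have hev : Ev p (WW p) g := by
      refine ev_WW_of fun A _ hA g' hg' => ?_
      have ho := orderOf_of_conj hg'
      rw [← genDiv_iff]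
      by_cases hexc : Exc p g'
      · exact h A (h𝒞.1 G A hG) hA g' (by rw [ho]; exact hpg) (by rw [ho]; exact hpg2) hexc
      · exact genDiv_of_not_exc hA (by rw [ho]; exact hpg) hexc
    have h9 := hev R hR hRg
    rw [NN_WW, mul_comm] at h9
    exact_mod_cast h9

end

section

variable {p : ℕ} [hp : Fact p.Prime] {k : Type u} [Field k] [IsAlgClosed k] [CharP k p]

theorem commDivisible_of_mod {red : integralClosure ℤ ℂ →+* k}
    {𝒞 : ∀ (G : Type) [Group G], Prop} (h𝒞 : SectionClosed p 𝒞) (h : WeightConjMod p red 𝒞) :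
    CommDivisible p 𝒞 := by
  intro G _ _ hG g hg
  have := Fintype.ofFinite G
  rw [commSum_eq]
  have h1 := P179R.theoremRB ⟨h𝒞.1, h𝒞.2⟩ red (fun G _ _ hG B hB => by
    have := h G hG B hB
    rwa [numSimpleIn_eq, numWeightsIn_eq] at this) G hG g hg
  rw [mul_comm]
  exact_mod_cast h1

/-- **The commutator counting form of the blockwise Alperin weight conjecture modulo `p`.** -/
theorem tfae_gen (red : integralClosure ℤ ℂ →+* k) (𝒞 : ∀ (G : Type) [Group G], Prop)
    (h𝒞 : SectionClosed p 𝒞) :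
    List.TFAE [WeightConjMod p red 𝒞, GenDivisible p 𝒞, GenDivisibleExc p 𝒞] := by
  tfae_have 1 → 2 := fun h => genDivisible_of_comm h𝒞 (commDivisible_of_mod h𝒞 h)
  tfae_have 2 → 3 := fun h G _ _ hG hO g hg _ _ => h G hG hO g hg
  tfae_have 3 → 1 := by
    intro h G _ _ hG B hB
    rw [numSimpleIn_eq, numWeightsIn_eq]
    exact P179C.class_blocks ⟨h𝒞.1, h𝒞.2⟩ (keyS_of_exc h𝒞 h) hG B hB
  tfae_finish

/-- **The commutator counting form of the blockwise Alperin weight conjecture.** -/
theorem weightConj_iff_gen (red : integralClosure ℤ ℂ →+* k)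
    (𝒞 : ∀ (G : Type) [Group G], Prop) (h𝒞 : SectionClosed p 𝒞) (hW : WreathClosed p 𝒞) :
    WeightConj p red 𝒞 ↔ GenDivisibleExc p 𝒞 := by
  have h1 := (theoremR_final p (P179R.wrStmt (p := p) (k := k))).2 red 𝒞 hW h𝒞
  exact (h1.out 0 1).trans ((tfae_gen red 𝒞 h𝒞).out 0 2)

end

end P179S
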