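import Vale.Agent.P179.H5.GDefs

/-!
# Pairs of elements of small order whose product is a root of a given element
-/

namespace P179S

open Subgroup

section

variable {G : Type*} [Group G]

/-- The number of pairs `(s, t)` with `s ^ a = 1`, `t ^ b = 1` and `(s t) ^ a = g` such that the
group generated by `s` and `t` contains all elements of `G` of order prime to `p`, and such that
`s t` is conjugate to `s t z` for all powers `z` of `s t` with `z ^ a = 1`. -/
noncomputable def triCount (p a b : ℕ) (g : G) : ℕ :=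
  Nat.card {t : G × G // t.1 ^ a = 1 ∧ t.2 ^ b = 1 ∧ (t.1 * t.2) ^ a = g ∧
    (∀ x : G, ¬ p ∣ orderOf x → x ∈ closure {t.1, t.2}) ∧
    ∀ z ∈ zpowers (t.1 * t.2), z ^ a = 1 → IsConj (t.1 * t.2) (t.1 * t.2 * z)}

/-- `p |C_G(g)|_p` divides `triCount p a b g`. -/
def TriDiv (p a b : ℕ) (g : G) : Prop :=
  p * p ^ (Nat.card (centralizer ({g} : Set G))).factorization p ∣ triCount p a b g

end

/-- For all finite groups `G` in `𝒞` with `O_p(G) = 1` and all `g ∈ G` of order divisible by `p`
but not by `p ^ 2`, the number `p |C_G(g)|_p` divides `triCount p a b g`. -/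
def TriDivisible (p a b : ℕ) (𝒞 : ∀ (G : Type) [Group G], Prop) : Prop :=
  ∀ (G : Type) [Group G] [Finite G], 𝒞 G → (∀ R : Subgroup G, R.Normal → IsPGroup p R → R = ⊥) →
    ∀ g : G, p ∣ orderOf g → ¬ p ^ 2 ∣ orderOf g → TriDiv p a b g

end P179S
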