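import Vale.Agent.P179.H5.Tw3
import Vale.Agent.P179.H5.Ga3
import Vale.Agent.P179.H5.TDefs
import Vale.Agent.P179.H5.Gl2

/-!
# The counts of pairs of elements of small order
-/

namespace P179S

open Subgroup MulAction Function P179B

open scoped Classical

universe u

section

variable {G : Type} [Group G] [Finite G] {p : ℕ} [hp : Fact p.Prime]

omit [Finite G] hp in
theorem isPGroup_zpowers {u : G} (hu : ∃ n : ℕ, u ^ p ^ n = 1) : IsPGroup p (zpowers u) := by
  obtain ⟨n, hn⟩ := hu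
  intro x
  refine ⟨n, ?_⟩
  obtain ⟨m, hm⟩ := x.2
  apply Subtype.ext
  have h1 : ((x : zpowers u) : G) = u ^ m := hm.symm
  rw [SubmonoidClass.coe_pow, h1, ← zpow_natCast, zpow_comm, zpow_natCast, hn, one_zpow]
  rfl

theorem free_of_big (hO : ∀ R : Subgroup G, R.Normal → IsPGroup p R → R = ⊥) {ξ : G × G}
    (hB : Big p (gn ξ)) {z : G} (hz : ∃ m : ℕ, z ^ p ^ m = 1) (hzξ : cn z ξ = ξ) : z = 1 := by
  by_contra hz1
  have h1 : Big p (centralizer {z}) := by
    intro x hx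
    rw [mem_centralizer_singleton_iff]
    exact (commute_of_cn hzξ (hB x hx)).symm
  have h2 := van_ee hO (centralizer {z}) ⟨zpowers z, ?_, ?_, isPGroup_zpowers hz, ?_⟩
  · unfold ee at h2
    rw [if_pos h1] at h2
    exact one_ne_zero h2
  · rw [zpowers_le, mem_centralizer_singleton_iff]
  · intro h3
    exact hz1 (zpowers_eq_bot.1 h3)
  · intro x hx
    rw [mem_centralizer_singleton_iff] at hx
    rw [mem_normalizer_iff_cj, cj_zpowers, hx, mul_inv_cancel_right]

theorem freeAt_of (hO : ∀ R : Subgroup G, R.Normal → IsPGroup p R → R = ⊥) (g : G) :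
    FreeAt p g := fun _ _ hB _ hz hzξ => free_of_big hO hB hz hzξ

/-- a Sylow subgroup of the centralizer containing the `p`-part -/
theorem exists_sylow_cent {g : G} (hg : p ∣ orderOf g) :
    ∃ P : Subgroup G, IsPGroup p P ∧ (∀ c ∈ P, c * g = g * c) ∧
      Nat.card P = p ^ (Nat.card (centralizer ({g} : Set G))).factorization p ∧
      ∃ j : ℕ, g ^ j ∈ P ∧ Nat.Coprime j p := by
  have := Fintype.ofFinite G
  obtain ⟨q, hq, hq'⟩ := P179K.exists_exponent p G
  have hpart := P179C.pow_eq_sing (p := p) hq hq' g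
  set u := g ^ q with hu
  have hreg : ¬ p ∣ orderOf (g * u⁻¹) := by
    have h1 : g * u⁻¹ = P179C.pr p g := by
      rw [hpart, mul_inv_rev, inv_inv, ← mul_assoc, (P179C.pr_commute g).eq,
        mul_inv_cancel_right]
    rw [h1]
    exact P179C.pr_regular g
  have hu1 : u ≠ 1 := by
    intro h1
    rw [h1, inv_one, mul_one] at hreg
    exact hreg hg
  have hup : ∃ n : ℕ, u ^ p ^ n = 1 := hq g
  -- `q` is prime to `p`
  have hqp : Nat.Coprime q p := by
    rw [Nat.coprime_comm, Nat.Prime.coprime_iff_not_dvd hp.out]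
    intro hpq
    -- an element of order `p`
    obtain ⟨s, hs⟩ := hup
    have hne : zpowers u ≠ ⊥ := fun h => hu1 (zpowers_eq_bot.1 h)
    have hdvd : p ∣ Nat.card (zpowers u) := by
      obtain ⟨m, hm⟩ := (IsPGroup.iff_card).1 (isPGroup_zpowers (p := p) ⟨s, hs⟩)
      rw [hm]
      refine dvd_pow_self p ?_
      rintro rfl
      rw [pow_zero] at hm
      exact hne (Subgroup.eq_bot_of_card_eq _ hm)
    obtain ⟨v, hv⟩ := exists_prime_orderOf_dvd_card' p hdvd
    have hvo : orderOf (v : G) = p := by rw [Subgroup.orderOf_coe, hv]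
    have h1 : (v : G) ^ p = 1 := by
      have := pow_orderOf_eq_one (v : G)
      rwa [hvo] at this
    have h2 := hq' (v : G) ⟨1, by rw [pow_one]; exact h1⟩
    obtain ⟨m, rfl⟩ := hpq
    rw [pow_mul, h1, one_pow] at h2
    rw [← h2, orderOf_one] at hvo
    exact hp.out.one_lt.ne hvo
  -- a Sylow subgroup of the centralizer containing `u`
  have huC : u ∈ centralizer ({g} : Set G) := by
    rw [mem_centralizer_singleton_iff, hu, ← pow_succ, ← pow_succ']
  have hup' : ∃ n : ℕ, (⟨u, huC⟩ : centralizer ({g} : Set G)) ^ p ^ n = 1 := by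
    obtain ⟨n, hn⟩ := hup
    exact ⟨n, Subtype.ext hn⟩
  obtain ⟨Q, hQ⟩ := (isPGroup_zpowers (p := p) hup').exists_le_sylow
  have huQ : (⟨u, huC⟩ : centralizer ({g} : Set G)) ∈ (Q : Subgroup (centralizer ({g} : Set G))) :=
    hQ (mem_zpowers _)
  refine ⟨(Q : Subgroup (centralizer ({g} : Set G))).map (centralizer ({g} : Set G)).subtype,
    Q.isPGroup'.map _, ?_, ?_, q, ⟨⟨u, huC⟩, huQ, rfl⟩, hqp⟩
  · rintro a ⟨b, -, rfl⟩
    exact mem_centralizer_singleton_iff.1 b.2
  · have h2 : Nat.card ((Q : Subgroup (centralizer ({g} : Set G))).map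
        (centralizer ({g} : Set G)).subtype) = Nat.card Q :=
      (Nat.card_congr ((Q : Subgroup (centralizer ({g} : Set G))).equivMapOfInjective _
        (subtype_injective _)).toEquiv).symm
    rw [h2, Sylow.card_eq_multiplicity]

theorem twist_dvd {n b : ℕ} {τ : G × G → G × G} (hτ : Twist (p ^ n) τ)
    (hO : ∀ R : Subgroup G, R.Normal → IsPGroup p R → R = ⊥) {g : G} (hg : p ∣ orderOf g)
    (hcard : Nat.card {t : (G × G) × G // (cm t.1 = g ∧ Big p (gn t.1)) ∧ τ t.1 = cn t.2 t.1 ∧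
        t.2 ^ p ^ n = g} = Nat.card {t : G × G // t.1 ^ p ^ n = 1 ∧ t.2 ^ b = 1 ∧
          (t.1 * t.2) ^ p ^ n = g ∧ ∀ x : G, ¬ p ∣ orderOf x → x ∈ closure {t.1, t.2}}) :
    ((p * p ^ (Nat.card (centralizer ({g} : Set G))).factorization p : ℕ) : ℤ) ∣
      (genCount p g : ℤ) - triCount p (p ^ n) b g := by
  obtain ⟨P, hP, hPg, hPc, j, hj, hjp⟩ := exists_sylow_cent hg
  have h1 := stepB hτ hP hPg hj hjp (freeAt_of hO g)
  have h2 := rat_count (n := n) (b := b) (Q := Big p) hg (fun c K hK => big_cj hK) hP hPg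
    (fun t ht z hz hzt => free_of_big hO (ξ := t) ht.2.2.2 hz hzt)
  rw [hcard] at h1
  have h3 := dvd_add h1 h2
  have e1 : Nat.card {t : G × G // InX (p ^ n) b (Big p) g t} =
      Nat.card {t : G × G // t.1 ^ p ^ n = 1 ∧ t.2 ^ b = 1 ∧
          (t.1 * t.2) ^ p ^ n = g ∧ ∀ x : G, ¬ p ∣ orderOf x → x ∈ closure {t.1, t.2}} := rfl
  have e2 : Nat.card {t : G × G // InX (p ^ n) b (Big p) g t ∧ Rat (p ^ n) (t.1 * t.2)} =
      triCount p (p ^ n) b g := by
    refine Nat.card_congr (Equiv.subtypeEquivRight fun t => ?_)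
    constructor
    · rintro ⟨⟨h4, h5, h6, h7⟩, h8⟩
      exact ⟨h4, h5, h6, h7, h8⟩
    · rintro ⟨h4, h5, h6, h7, h8⟩
      exact ⟨⟨h4, h5, h6, h7⟩, h8⟩
  have e3 : Nat.card {ξ : G × G // cm ξ = g ∧ Big p (gn ξ)} = genCount p g := rfl
  rw [e1, e2, e3, sub_add_sub_cancel, hPc] at h3
  exact h3

end

section

variable {G : Type} [Group G] [Finite G]

theorem gen_sub_tri2 (hO : ∀ R : Subgroup G, R.Normal → IsPGroup 2 R → R = ⊥) {g : G}
    (hg : 2 ∣ orderOf g) :
    ((2 * 2 ^ (Nat.card (centralizer ({g} : Set G))).factorization 2 : ℕ) : ℤ) ∣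
      (genCount 2 g : ℤ) - triCount 2 4 2 g := by
  have := Fact.mk Nat.prime_two
  exact twist_dvd (p := 2) (n := 2) twist4 hO hg (card_tri2 g)

theorem gen_sub_tri3 (hO : ∀ R : Subgroup G, R.Normal → IsPGroup 3 R → R = ⊥) {g : G}
    (hg : 3 ∣ orderOf g) :
    ((3 * 3 ^ (Nat.card (centralizer ({g} : Set G))).factorization 3 : ℕ) : ℤ) ∣
      (genCount 3 g : ℤ) - triCount 3 3 3 g := by
  have := Fact.mk Nat.prime_three
  exact twist_dvd (p := 3) (n := 1) twist3 hO hg (card_tri3 g)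

end

section

variable {p : ℕ} [hp : Fact p.Prime] {k : Type u} [Field k] [IsAlgClosed k] [CharP k p]

theorem tfae_tri_aux {a b : ℕ}
    (hab : ∀ (G : Type) [Group G] [Finite G], (∀ R : Subgroup G, R.Normal → IsPGroup p R → R = ⊥) →
      ∀ g : G, p ∣ orderOf g →
      ((p * p ^ (Nat.card (centralizer ({g} : Set G))).factorization p : ℕ) : ℤ) ∣
      (genCount p g : ℤ) - triCount p a b g)
    (red : integralClosure ℤ ℂ →+* k) (𝒞 : ∀ (G : Type) [Group G], Prop)
    (h𝒞 : SectionClosed p 𝒞) :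
    (WeightConjMod p red 𝒞 ↔ TriDivisible p a b 𝒞) ∧
      (WreathClosed p 𝒞 → (WeightConj p red 𝒞 ↔ TriDivisible p a b 𝒞)) := by
  have h1 : ∀ (G : Type) [Group G] [Finite G],
      (∀ R : Subgroup G, R.Normal → IsPGroup p R → R = ⊥) →
      ∀ g : G, p ∣ orderOf g → (GenDiv p g ↔ TriDiv p a b g) := by
    intro G _ _ hO g hg
    unfold GenDiv TriDiv
    rw [← Int.natCast_dvd_natCast, ← Int.natCast_dvd_natCast]
    exact dvd_iff_dvd_of_dvd_sub (hab G hO g hg)
  have h4 : WeightConjMod p red 𝒞 ↔ GenDivisible p 𝒞 := (tfae_gen red 𝒞 h𝒞).out 0 1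
  have h5 : WeightConjMod p red 𝒞 ↔ GenDivisibleExc p 𝒞 := (tfae_gen red 𝒞 h𝒞).out 0 2
  have h2 : WeightConjMod p red 𝒞 ↔ TriDivisible p a b 𝒞 := by
    constructor
    · intro h G _ _ hG hO g hg _
      exact (h1 G hO g hg).1 (h4.1 h G hG hO g hg)
    · intro h
      refine h5.2 ?_
      intro G _ _ hG hO g hg hg2 _
      exact (h1 G hO g hg).2 (h G hG hO g hg hg2)
  exact ⟨h2, fun hW => (weightConj_iff_gen red 𝒞 h𝒞 hW).trans (h5.symm.trans h2)⟩

end

end P179S
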