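import Vale.Agent.P179.H5.Cm1
import Vale.Agent.P179.H5.Tw4

/-!
# The pairs with a given commutator whose first member is conjugate to its powers
-/

namespace P179S

open Subgroup MulAction Function

open scoped Classical

section

variable {G : Type} [Group G] [Finite G]

omit [Finite G] in
theorem CX_dvd {p : ℕ} {Q : Subgroup G → Prop} {g : G}
    {P : Subgroup G} (hQ : ∀ c ∈ P, ∀ K : Subgroup G, Q K → Q (cj c K))
    (hP : IsPGroup p P) (hPg : ∀ c ∈ P, c * g = g * c)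
    (hfree : ∀ t : G × G, Q (closure {t.1, t.2}) → ∀ z : G, (∃ m : ℕ, z ^ p ^ m = 1) →
      cn z t = t → z = 1) (ω : ConjClasses G) : Nat.card P ∣ CX g Q ω := by
  unfold CX
  have hst : ∀ (c : P) (t : G × G), (t.1 * t.2 * t.1⁻¹ * t.2⁻¹ = g ∧ Q (closure {t.1, t.2}) ∧
      ConjClasses.mk t.1 = ω) → ((cn (c : G) t).1 * (cn (c : G) t).2 * (cn (c : G) t).1⁻¹ *
      (cn (c : G) t).2⁻¹ = g ∧ Q (closure {(cn (c : G) t).1, (cn (c : G) t).2}) ∧
      ConjClasses.mk (cn (c : G) t).1 = ω) := by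
    rintro c ⟨s, t⟩ ⟨h1, h2, h3⟩
    have h1' : s * t * s⁻¹ * t⁻¹ = g := h1
    refine ⟨?_, ?_, ?_⟩
    · change (c : G) * s * (c : G)⁻¹ * ((c : G) * t * (c : G)⁻¹) * ((c : G) * s * (c : G)⁻¹)⁻¹ *
        ((c : G) * t * (c : G)⁻¹)⁻¹ = g
      have e1 : (c : G) * s * (c : G)⁻¹ * ((c : G) * t * (c : G)⁻¹) *
          ((c : G) * s * (c : G)⁻¹)⁻¹ * ((c : G) * t * (c : G)⁻¹)⁻¹ =
          (c : G) * (s * t * s⁻¹ * t⁻¹) * (c : G)⁻¹ := by group
      rw [e1, h1', hPg c c.2, mul_inv_cancel_right]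
    · have h6 := hQ (c : G) c.2 _ h2
      rw [cj_closure_pair] at h6
      exact h6
    · change ConjClasses.mk ((c : G) * s * (c : G)⁻¹) = ω
      rw [← h3, ConjClasses.mk_eq_mk_iff_isConj, isConj_comm]
      exact isConj_iff.2 ⟨c, rfl⟩
  let act : MulAction P {t : G × G // t.1 * t.2 * t.1⁻¹ * t.2⁻¹ = g ∧ Q (closure {t.1, t.2}) ∧
      ConjClasses.mk t.1 = ω} :=
    { smul := fun c t => ⟨cn (c : G) t.1, hst c t.1 t.2⟩
      one_smul := fun t => Subtype.ext (by
        change cn ((1 : P) : G) t.1 = t.1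
        rw [Subgroup.coe_one, cn_one])
      mul_smul := fun c d t => Subtype.ext (by
        change cn ((c * d : P) : G) t.1 = cn (c : G) (cn (d : G) t.1)
        rw [Subgroup.coe_mul, cn_mul]) }
  have h1 := card_pred (R := P)
    (X := {t : G × G // t.1 * t.2 * t.1⁻¹ * t.2⁻¹ = g ∧ Q (closure {t.1, t.2}) ∧
      ConjClasses.mk t.1 = ω}) (fun t c hc => by
      have h2 : cn (c : G) t.1 = t.1 := congrArg Subtype.val hc
      obtain ⟨m, hm⟩ := hP c
      exact Subtype.ext (hfree t.1 t.2.2.1 c ⟨m, congrArg Subtype.val hm⟩ h2)) (fun _ => True)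
  rw [Nat.card_congr (Equiv.subtypeUnivEquiv fun _ => trivial)] at h1
  rw [h1]
  exact Nat.dvd_mul_left _ _

/-- the pairs with a first member of order prime to `p` -/
def InC (p : ℕ) (Q : Subgroup G → Prop) (g : G) (t : G × G) : Prop :=
  t.1 * t.2 * t.1⁻¹ * t.2⁻¹ = g ∧ ¬ p ∣ orderOf t.1 ∧ Q (closure {t.1, t.2})

/-- the exponents -/
def GoodExp (p : ℕ) (g : G) (e : ℕ) : Prop :=
  e.Coprime (Nat.card G) ∧ g ^ e = g ∧ ∃ n, e ^ p ^ n ≡ 1 [MOD Nat.card G]

/-- the induction step -/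
theorem ratC_step {p : ℕ} [hp : Fact p.Prime] {Q : Subgroup G → Prop} {g : G}
    {P : Subgroup G} (hQ : ∀ c ∈ P, ∀ K : Subgroup G, Q K → Q (cj c K))
    (hP : IsPGroup p P) (hPg : ∀ c ∈ P, c * g = g * c)
    (hfree : ∀ t : G × G, Q (closure {t.1, t.2}) → ∀ z : G, (∃ m : ℕ, z ^ p ^ m = 1) →
      cn z t = t → z = 1)
    (J : Set ℕ) {e : ℕ} (he : GoodExp p g e) :
    ((p * Nat.card P : ℕ) : ℤ) ∣
      (Nat.card {t : G × G // InC p Q g t ∧
        ∀ f ∈ J, pw f (ConjClasses.mk t.1) = ConjClasses.mk t.1} : ℤ) -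
      Nat.card {t : G × G // InC p Q g t ∧
        ∀ f ∈ insert e J, pw f (ConjClasses.mk t.1) = ConjClasses.mk t.1} := by
  obtain ⟨he, hge, n, hn⟩ := he
  let X := {t : G × G // InC p Q g t ∧
        ∀ f ∈ J, pw f (ConjClasses.mk t.1) = ConjClasses.mk t.1}
  let Ω := {ω : ConjClasses G // (∃ k : G, ConjClasses.mk k = ω ∧ ¬ p ∣ orderOf k) ∧
    ∀ f ∈ J, pw f ω = ω}
  let κ : X → Ω := fun x => ⟨ConjClasses.mk x.1.1, ⟨_, rfl, x.2.1.2.1⟩, x.2.2⟩
  have hΩ : Finite Ω := Subtype.finite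
  let φ : Ω → Ω := fun ω => ⟨pw e ω.1, by
    obtain ⟨k, hk1, hk2⟩ := ω.2.1
    refine ⟨k ^ e, by rw [← hk1, pw_mk], ?_⟩
    exact fun h => hk2 (h.trans (orderOf_pow_dvd e)), fun f hf => by
    rw [pw_comm, ω.2.2 f hf]⟩
  have hφi : ∀ (i : ℕ) (ω : Ω), (φ^[i] ω).1 = (pw e)^[i] ω.1 := by
    intro i
    induction i with
    | zero => intro ω; rfl
    | succ i ih =>
      intro ω
      rw [iterate_succ, comp_apply, ih, iterate_succ, comp_apply]
  have hreg : ∀ (ω : Ω) (x : G), ConjClasses.mk x = ω.1 → ¬ p ∣ orderOf x := by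
    intro ω x hx
    obtain ⟨k, hk1, hk2⟩ := ω.2.1
    rw [← hk1, ConjClasses.mk_eq_mk_iff_isConj, isConj_iff] at hx
    obtain ⟨c, hc⟩ := hx
    have h1 : orderOf (c * x * c⁻¹) = orderOf x := by
      have := MulEquiv.orderOf_eq (MulAut.conj c) x
      simpa using this
    rw [← h1, hc]
    exact hk2
  have hfib : ∀ ω : Ω, Nat.card {x : X // κ x = ω} = CX g Q ω.1 := by
    intro ω
    unfold CX
    refine Nat.card_congr ⟨fun x => ⟨x.1.1, x.1.2.1.1, x.1.2.1.2.2, congrArg Subtype.val x.2⟩,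
      fun t => ⟨⟨t.1, ⟨t.2.1, hreg ω _ t.2.2.2, t.2.2.1⟩, ?_⟩, ?_⟩, ?_, ?_⟩
    · rw [t.2.2.2]; exact ω.2.2
    · exact Subtype.ext t.2.2.2
    · intro x; rfl
    · intro t; rfl
  have h1 := perm_fib (p := p) (n := n) (m := Nat.card P) κ φ ?_ ?_ ?_
  · have e1 : Nat.card {x : X // φ (κ x) = κ x} =
        Nat.card {t : G × G // InC p Q g t ∧
        ∀ f ∈ insert e J, pw f (ConjClasses.mk t.1) = ConjClasses.mk t.1} := by
      refine Nat.card_congr ⟨fun x => ⟨x.1.1, x.1.2.1, ?_⟩,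
        fun t => ⟨⟨t.1, t.2.1, ?_⟩, ?_⟩, ?_, ?_⟩
      · intro f hf
        rcases Set.mem_insert_iff.1 hf with rfl | hf
        · exact congrArg Subtype.val x.2
        · exact x.1.2.2 f hf
      · intro f hf
        exact t.2.2 f (Set.mem_insert_of_mem _ hf)
      · exact Subtype.ext (t.2.2 e (Set.mem_insert _ _))
      · intro x; rfl
      · intro t; rfl
    rw [e1] at h1
    exact h1
  · intro ω
    apply Subtype.ext
    rw [hφi]
    obtain ⟨ω, ⟨k, hk1, hk2⟩, hω⟩ := ω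
    subst hk1
    change (pw e)^[p ^ n] (ConjClasses.mk k) = ConjClasses.mk k
    rw [pw_iter]
    have h2 : k ^ e ^ p ^ n = k ^ 1 := by
      rw [pow_eq_pow_iff_modEq]
      exact hn.of_dvd (orderOf_dvd_natCard k)
    rw [h2, pow_one]
  · intro ω
    rw [hfib]
    exact CX_dvd hQ hP hPg hfree ω.1
  · intro ω
    rw [hfib, hfib]
    exact CX_pow he hge Q ω.1

theorem ratC_fin {p : ℕ} [hp : Fact p.Prime] {Q : Subgroup G → Prop} {g : G}
    {P : Subgroup G} (hQ : ∀ c ∈ P, ∀ K : Subgroup G, Q K → Q (cj c K))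
    (hP : IsPGroup p P) (hPg : ∀ c ∈ P, c * g = g * c)
    (hfree : ∀ t : G × G, Q (closure {t.1, t.2}) → ∀ z : G, (∃ m : ℕ, z ^ p ^ m = 1) →
      cn z t = t → z = 1)
    (J : Finset ℕ) (hJ : ∀ e ∈ J, GoodExp p g e) :
    ((p * Nat.card P : ℕ) : ℤ) ∣
      (Nat.card {t : G × G // InC p Q g t} : ℤ) -
      Nat.card {t : G × G // InC p Q g t ∧
        ∀ f ∈ J, pw f (ConjClasses.mk t.1) = ConjClasses.mk t.1} := by
  induction J using Finset.induction_on with
  | empty =>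
    have : Nat.card {t : G × G // InC p Q g t ∧
        ∀ f ∈ (∅ : Finset ℕ), pw f (ConjClasses.mk t.1) = ConjClasses.mk t.1} =
        Nat.card {t : G × G // InC p Q g t} :=
      Nat.card_congr (Equiv.subtypeEquivRight fun t => by simp)
    rw [this, sub_self]
    exact dvd_zero _
  | insert e J _ ih =>
    have h1 := ih fun f hf => hJ f (Finset.mem_insert_of_mem hf)
    have h2 := ratC_step hQ hP hPg hfree (J : Set ℕ) (hJ e (Finset.mem_insert_self _ _))
    rw [← Finset.coe_insert] at h2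
    simp only [Finset.mem_coe] at h2
    have h3 := dvd_add h1 h2
    rw [sub_add_sub_cancel] at h3
    exact h3

/-- `x` is conjugate to its powers with the exponents. -/
def RatC (p : ℕ) (g x : G) : Prop :=
  ∀ e : ℕ, e.Coprime (Nat.card G) → g ^ e = g → (∃ n, e ^ p ^ n ≡ 1 [MOD Nat.card G]) →
    IsConj x (x ^ e)

theorem ratC_iff {p : ℕ} {g x : G} : RatC p g x ↔ ∀ f ∈ (Finset.range (Nat.card G)).filter
      (fun e => GoodExp p g e), pw f (ConjClasses.mk x) = ConjClasses.mk x := by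
  constructor
  · intro h f hf
    rw [Finset.mem_filter] at hf
    rw [pw_mk, ConjClasses.mk_eq_mk_iff_isConj, isConj_comm]
    exact h f hf.2.1 hf.2.2.1 hf.2.2.2
  · intro h e he hge hn
    have hqm : ∀ x : G, x ^ (e % Nat.card G) = x ^ e := by
      intro x
      rw [pow_eq_pow_iff_modEq]
      exact (Nat.mod_modEq e (Nat.card G)).of_dvd (orderOf_dvd_natCard x)
    have h11 := h (e % Nat.card G) (by
      rw [Finset.mem_filter]
      refine ⟨Finset.mem_range.2 (Nat.mod_lt _ Nat.card_pos), ?_, ?_, ?_⟩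
      · rw [Nat.coprime_iff_gcd_eq_one, ← Nat.gcd_rec, Nat.gcd_comm]
        exact he
      · rw [hqm, hge]
      · obtain ⟨n, hn⟩ := hn
        exact ⟨n, ((Nat.mod_modEq e (Nat.card G)).pow _).trans hn⟩)
    rw [pw_mk, hqm, ConjClasses.mk_eq_mk_iff_isConj, isConj_comm] at h11
    exact h11

/-- **The pairs whose first member is conjugate to its powers.** -/
theorem ratC_count {p : ℕ} [hp : Fact p.Prime] {Q : Subgroup G → Prop} {g : G}
    {P : Subgroup G} (hQ : ∀ c ∈ P, ∀ K : Subgroup G, Q K → Q (cj c K))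
    (hP : IsPGroup p P) (hPg : ∀ c ∈ P, c * g = g * c)
    (hfree : ∀ t : G × G, Q (closure {t.1, t.2}) → ∀ z : G, (∃ m : ℕ, z ^ p ^ m = 1) →
      cn z t = t → z = 1) :
    ((p * Nat.card P : ℕ) : ℤ) ∣
      (Nat.card {t : G × G // InC p Q g t} : ℤ) -
      Nat.card {t : G × G // InC p Q g t ∧ RatC p g t.1} := by
  have h1 := ratC_fin hQ hP hPg hfree ((Finset.range (Nat.card G)).filter
      (fun e => GoodExp p g e)) (fun e he => (Finset.mem_filter.1 he).2)
  have h2 : Nat.card {t : G × G // InC p Q g t ∧ RatC p g t.1} =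
      Nat.card {t : G × G // InC p Q g t ∧
        ∀ f ∈ (Finset.range (Nat.card G)).filter (fun e => GoodExp p g e),
        pw f (ConjClasses.mk t.1) = ConjClasses.mk t.1} :=
    Nat.card_congr (Equiv.subtypeEquivRight fun t => and_congr_right fun h => ratC_iff)
  rw [h2]
  exact h1

end

end P179S
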