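import Mathlib

/-!
# Free actions and fixed orbits
-/

namespace P179S

open Subgroup MulAction Function

open scoped Classical

section Free

variable {R X : Type*} [Group R] [MulAction R X]

theorem card_pred (hfree : ∀ (x : X) (c : R), c • x = x → c = 1)
    (S : orbitRel.Quotient R X → Prop) :
    Nat.card {x : X // S (Quotient.mk'' x)} = Nat.card {y // S y} * Nat.card R := by
  rw [← Nat.card_prod]
  symm
  have hout : ∀ (y : orbitRel.Quotient R X) (c : R),
      (Quotient.mk'' (c • Quotient.out y) : orbitRel.Quotient R X) = y := by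
    intro y c
    have h1 : (Quotient.mk'' (c • Quotient.out y) : orbitRel.Quotient R X) =
        Quotient.mk'' (Quotient.out y) := Quotient.sound (orbitRel_apply.2 ⟨c, rfl⟩)
    rw [h1]
    exact Quotient.out_eq y
  let F : ({y // S y} × R) → {x : X // S (Quotient.mk'' x)} := fun t =>
    ⟨t.2 • Quotient.out t.1.1, by rw [hout]; exact t.1.2⟩
  refine Nat.card_congr (Equiv.ofBijective F ⟨?_, ?_⟩)
  · rintro ⟨⟨y, hy⟩, c⟩ ⟨⟨y', hy'⟩, c'⟩ h
    have h1 : c • Quotient.out y = c' • Quotient.out y' := congrArg Subtype.val h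
    have h2 : y = y' := by
      have := congrArg (fun x : X => (Quotient.mk'' x : orbitRel.Quotient R X)) h1
      simp only [hout] at this
      exact this
    subst h2
    have h3 : c'⁻¹ * c = 1 := by
      refine hfree (Quotient.out y) _ ?_
      rw [mul_smul, h1, inv_smul_smul]
    have h4 : c = c' := (inv_mul_eq_one.1 h3).symm
    rw [h4]
  · rintro ⟨x, hx⟩
    have h1 : (orbitRel R X) x (Quotient.out (Quotient.mk'' x : orbitRel.Quotient R X)) := by
      apply Quotient.exact
      exact (Quotient.out_eq _).symm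
    rw [orbitRel_apply] at h1
    obtain ⟨c, hc⟩ := h1
    exact ⟨⟨⟨_, hx⟩, c⟩, Subtype.ext hc⟩

/-- A map commuting with a free action of `R` whose `p ^ n`-th iterate preserves all orbits: the
number of all points and the number of points in orbits preserved by the map are congruent modulo
`p |R|`. -/
theorem free_fix {p n : ℕ} [Fact p.Prime] [Finite R] [Finite X]
    (hfree : ∀ (x : X) (c : R), c • x = x → c = 1) (f : X → X)
    (hf : ∀ (c : R) (x : X), f (c • x) = c • f x)
    (hn : ∀ x, ∃ c : R, f^[p ^ n] x = c • x) :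
    ((p * Nat.card R : ℕ) : ℤ) ∣ (Nat.card X : ℤ) - Nat.card {x : X // ∃ c : R, f x = c • x} := by
  have hwd : ∀ x x' : X, (orbitRel R X) x x' → (orbitRel R X) (f x) (f x') := by
    intro x x' h
    rw [orbitRel_apply] at h ⊢
    obtain ⟨c, hc⟩ := h
    refine ⟨c, ?_⟩
    have h1 : c • x' = x := hc
    change c • f x' = f x
    rw [← hf, h1]
  let F : Function.End (orbitRel.Quotient R X) := Quotient.map f hwd
  have hF : ∀ x : X, F (Quotient.mk'' x) = Quotient.mk'' (f x) := fun _ => rfl
  have hpow : ∀ (m : ℕ) (x : X), (F ^ m : Function.End (orbitRel.Quotient R X)) (Quotient.mk'' x) =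
      Quotient.mk'' (f^[m] x) := by
    intro m
    induction m with
    | zero => intro x; rfl
    | succ m ih =>
      intro x
      rw [pow_succ, iterate_succ]
      exact ih (f x)
  have hF1 : F ^ p ^ n = 1 := by
    funext y
    obtain ⟨x, rfl⟩ := Quotient.exists_rep y
    obtain ⟨c, hc⟩ := hn x
    have h1 := hpow (p ^ n) x
    rw [hc] at h1
    refine h1.trans ?_
    exact Quotient.sound (orbitRel_apply.2 ⟨c, rfl⟩)
  have := Fintype.ofFinite (orbitRel.Quotient R X)
  have hmod := Equiv.Perm.card_fixedPoints_modEq hF1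
  have hX : Nat.card X = Nat.card (orbitRel.Quotient R X) * Nat.card R := by
    have h1 := card_pred hfree (fun _ => True)
    rw [Nat.card_congr (Equiv.subtypeUnivEquiv fun _ => trivial),
      Nat.card_congr (Equiv.subtypeUnivEquiv fun _ => trivial)] at h1
    exact h1
  have hfix : Nat.card {x : X // ∃ c : R, f x = c • x} =
      Nat.card {y : orbitRel.Quotient R X // F y = y} * Nat.card R := by
    rw [← card_pred hfree]
    refine Nat.card_congr (Equiv.subtypeEquivRight fun x => ?_)
    rw [hF]
    constructor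
    · rintro ⟨c, hc⟩
      rw [hc]
      exact Quotient.sound (orbitRel_apply.2 ⟨c, rfl⟩)
    · intro h
      have h1 : (orbitRel R X) (f x) x := Quotient.exact h
      rw [orbitRel_apply] at h1
      obtain ⟨c, hc⟩ := h1
      exact ⟨c, hc.symm⟩
  rw [← Nat.card_eq_fintype_card, ← Nat.card_eq_fintype_card] at hmod
  have h2 : ((p : ℕ) : ℤ) ∣ (Nat.card (orbitRel.Quotient R X) : ℤ) -
      Nat.card {y : orbitRel.Quotient R X // F y = y} := by
    have h3 := (Nat.modEq_iff_dvd.1 hmod.symm)
    exact h3
  rw [hX, hfix]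
  obtain ⟨t, ht⟩ := h2
  refine ⟨t, ?_⟩
  push_cast
  rw [← sub_mul, ht]
  ring

end Free

end P179S
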