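import Vale.Agent.P179.H143.RDefs

/-!
# Counting the pairs with a given commutator which generate the group up to a `p`-power index
-/

namespace P179S

open Subgroup

section

variable {G : Type*} [Group G]

/-- `u` is the `p`-part of `g`. -/
def IsPPart (p : ℕ) (g u : G) : Prop :=
  u ∈ zpowers g ∧ (∃ n : ℕ, u ^ p ^ n = 1) ∧ ¬ p ∣ orderOf (g * u⁻¹)

/-- The `p`-part `u` of `g` lies in the commutator subgroup of a `p`-subgroup `P` of `C_G(g)`; if
`u` has order `2`, there is `k ∈ P` with `k ^ 4 = u`, conjugate in `P` to all its odd powers; if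
`u` has order `3`, there is `k ∈ P` with `k ^ 3 = u`, conjugate in `P` to `k ^ 4`. -/
def Exc (p : ℕ) (g : G) : Prop :=
  ∃ u : G, IsPPart p g u ∧ ∃ P : Subgroup G, IsPGroup p P ∧ P ≤ centralizer {g} ∧ u ∈ ⁅P, P⁆ ∧
    (orderOf u = 2 → ∃ k ∈ P, k ^ 4 = u ∧ ∀ e, Odd e → ∃ c ∈ P, c * k * c⁻¹ = k ^ e) ∧
    (orderOf u = 3 → ∃ k ∈ P, k ^ 3 = u ∧ ∃ c ∈ P, c * k * c⁻¹ = k ^ 4)

/-- The number of pairs `(x, y)` with `x y x⁻¹ y⁻¹ = g` such that the group generated by `x` and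
`y` contains all elements of `G` of order prime to `p`. -/
noncomputable def genCount (p : ℕ) (g : G) : ℕ :=
  Nat.card {t : G × G // t.1 * t.2 * t.1⁻¹ * t.2⁻¹ = g ∧
    ∀ x : G, ¬ p ∣ orderOf x → x ∈ closure {t.1, t.2}}

/-- `p |C_G(g)|_p` divides `genCount p g`. -/
def GenDiv (p : ℕ) (g : G) : Prop :=
  p * p ^ (Nat.card (centralizer ({g} : Set G))).factorization p ∣ genCount p g

end

/-- For all finite groups `G` in `𝒞` with `O_p(G) = 1` and all `g ∈ G` of order divisible by `p`,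
the number `p |C_G(g)|_p` divides `genCount p g`. -/
def GenDivisible (p : ℕ) (𝒞 : ∀ (G : Type) [Group G], Prop) : Prop :=
  ∀ (G : Type) [Group G] [Finite G], 𝒞 G → (∀ R : Subgroup G, R.Normal → IsPGroup p R → R = ⊥) →
    ∀ g : G, p ∣ orderOf g → GenDiv p g

/-- The same for the `g` with `Exc p g` whose order is not divisible by `p ^ 2`. -/
def GenDivisibleExc (p : ℕ) (𝒞 : ∀ (G : Type) [Group G], Prop) : Prop :=
  ∀ (G : Type) [Group G] [Finite G], 𝒞 G → (∀ R : Subgroup G, R.Normal → IsPGroup p R → R = ⊥) →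
    ∀ g : G, p ∣ orderOf g → ¬ p ^ 2 ∣ orderOf g → Exc p g → GenDiv p g

end P179S
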