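import Vale.Agent.P179.H5.Cnt1
import Vale.Agent.P179.H143.Adams

/-!
# The number of pairs with a given product is invariant under powers
-/

namespace P179S

open Subgroup MulAction Function

open scoped Classical

section

variable {G : Type*} [Group G]

/-- the pairs with product `k` -/
noncomputable def NS (a b : ℕ) (k : G) : ℕ :=
  Nat.card {t : G × G // t.1 ^ a = 1 ∧ t.2 ^ b = 1 ∧ t.1 * t.2 = k}

theorem pow_coprime_inj [Finite G] {e : ℕ} (he : e.Coprime (Nat.card G)) {x y : G}
    (h : x ^ e = y ^ e) : x = y := (powCoprime he.symm).injective h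

theorem pow_coprime_one [Finite G] {e : ℕ} (he : e.Coprime (Nat.card G)) {a : ℕ} {x : G} :
    (x ^ e) ^ a = 1 ↔ x ^ a = 1 := by
  constructor
  · intro h
    refine pow_coprime_inj he ?_
    rw [← pow_mul, mul_comm, pow_mul, h, one_pow]
  · intro h
    rw [← pow_mul, mul_comm, pow_mul, h, one_pow]

theorem NS_pow [Finite G] {a b e : ℕ} (he : e.Coprime (Nat.card G)) (k : G) :
    NS a b (k ^ e) = NS a b k := by
  have := Fintype.ofFinite G
  have hcf : ∀ a : ℕ, P179C.IsCF (fun s : G => if s ^ a = 1 then (1 : ℤ) else 0) := by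
    intro a c s
    have : (c * s * c⁻¹) ^ a = 1 ↔ s ^ a = 1 := by
      rw [conj_pow, mul_inv_eq_one, mul_eq_left]
    simp only [this]
  have hconv : ∀ k : G, (NS a b k : ℤ) =
      P179C.conv (fun s : G => if s ^ a = 1 then (1 : ℤ) else 0)
        (fun s : G => if s ^ b = 1 then (1 : ℤ) else 0) k := by
    intro k
    unfold NS P179C.conv
    have h1 : Nat.card {t : G × G // t.1 ^ a = 1 ∧ t.2 ^ b = 1 ∧ t.1 * t.2 = k} =
        Nat.card {s : G // s ^ a = 1 ∧ (s⁻¹ * k) ^ b = 1} := by
      refine Nat.card_congr ⟨fun t => ⟨t.1.1, t.2.1, ?_⟩, fun s => ⟨(s.1, s.1⁻¹ * k), s.2.1, s.2.2,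
        by simp⟩, ?_, ?_⟩
      · obtain ⟨⟨s, t⟩, h1, h2, h3⟩ := t
        have h3' : s * t = k := h3
        change (s⁻¹ * k) ^ b = 1
        rw [← h3', inv_mul_cancel_left]; exact h2
      · rintro ⟨⟨s, t⟩, h1, h2, h3⟩
        have h3' : s * t = k := h3
        apply Subtype.ext
        refine Prod.ext rfl ?_
        change s⁻¹ * k = t
        rw [← h3', inv_mul_cancel_left]
      · rintro ⟨s, hs⟩
        rfl
    rw [h1, Nat.card_eq_fintype_card, Fintype.card_subtype, Finset.card_eq_sum_ones,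
      Finset.sum_filter]
    push_cast
    refine Finset.sum_congr rfl fun s _ => ?_
    by_cases h2 : s ^ a = 1 <;> by_cases h3 : (s⁻¹ * k) ^ b = 1 <;> simp [h2, h3]
  have h := P179C.conv_adams (hcf a) (hcf b) he k
  simp only [pow_coprime_one he] at h
  have h2 := hconv k
  have h3 := hconv (k ^ e)
  rw [← h] at h3
  rw [← h3] at h2
  exact_mod_cast h2.symm

/-- the pairs with product `k` generating a group with a property -/
noncomputable def NQ (a b : ℕ) (Q : Subgroup G → Prop) (k : G) : ℕ :=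
  Nat.card {t : G × G // t.1 ^ a = 1 ∧ t.2 ^ b = 1 ∧ t.1 * t.2 = k ∧ Q (closure {t.1, t.2})}

theorem NQ_le [Finite G] {a b e : ℕ} (he : e.Coprime (Nat.card G)) (H : Subgroup G) (k : G) :
    NQ a b (fun K => K ≤ H) (k ^ e) = NQ a b (fun K => K ≤ H) k := by
  by_cases hk : k ∈ H
  · have h1 : ∀ (k : G) (hk : k ∈ H), NQ a b (fun K => K ≤ H) k = NS a b (⟨k, hk⟩ : H) := by
      intro k hk
      refine Nat.card_congr ⟨fun t => ⟨(⟨t.1.1, ?_⟩, ⟨t.1.2, ?_⟩), ?_, ?_, ?_⟩,
        fun t => ⟨((t.1.1 : G), (t.1.2 : G)), ?_, ?_, ?_, ?_⟩, ?_, ?_⟩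
      · exact t.2.2.2.2 (subset_closure (by simp))
      · exact t.2.2.2.2 (subset_closure (by simp))
      · exact Subtype.ext t.2.1
      · exact Subtype.ext t.2.2.1
      · exact Subtype.ext t.2.2.2.1
      · exact congrArg Subtype.val t.2.1
      · exact congrArg Subtype.val t.2.2.1
      · exact congrArg Subtype.val t.2.2.2
      · change closure {((t.1.1 : H) : G), ((t.1.2 : H) : G)} ≤ H
        rw [closure_le]
        rintro w (rfl | rfl)
        · exact t.1.1.2
        · exact t.1.2.2
      · intro t; rfl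
      · intro t; rfl
    rw [h1 k hk, h1 (k ^ e) (H.pow_mem hk e)]
    have h2 : e.Coprime (Nat.card H) := Nat.Coprime.coprime_dvd_right (card_subgroup_dvd_card H) he
    exact NS_pow h2 (⟨k, hk⟩ : H)
  · have h1 : ∀ k : G, k ∉ H → NQ a b (fun K => K ≤ H) k = 0 := by
      intro k hk
      unfold NQ
      rw [Nat.card_eq_zero]
      left
      refine ⟨fun t => hk ?_⟩
      rw [← t.2.2.2.1]
      exact H.mul_mem (t.2.2.2.2 (subset_closure (by simp))) (t.2.2.2.2 (subset_closure (by simp)))
    rw [h1 k hk, h1 (k ^ e)]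
    intro h2
    apply hk
    obtain ⟨m, hm⟩ := exists_pow_eq_self_of_coprime (x := k) (n := e)
      (Nat.Coprime.coprime_dvd_right (orderOf_dvd_natCard k) he)
    rw [← hm]
    exact H.pow_mem h2 m

theorem NQ_eq_sum [Finite G] {a b : ℕ} (Q : Subgroup G → Prop) (k : G) [Fintype (Subgroup G)] :
    NQ a b Q k = ∑ H : Subgroup G, if Q H then NQ a b (fun K => K = H) k else 0 := by
  have := Fintype.ofFinite G
  unfold NQ
  simp only [Nat.card_eq_fintype_card, Fintype.card_subtype]
  rw [Finset.card_eq_sum_card_fiberwise (f := fun t : G × G => closure {t.1, t.2})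
    (t := Finset.univ) (fun _ _ => Finset.mem_coe.2 (Finset.mem_univ _))]
  refine Finset.sum_congr rfl fun H _ => ?_
  rw [Finset.filter_filter]
  split_ifs with h
  · congr 1
    refine Finset.filter_congr fun t _ => ?_
    constructor
    · rintro ⟨⟨h1, h2, h3, h4⟩, h5⟩
      exact ⟨h1, h2, h3, h5⟩
    · rintro ⟨h1, h2, h3, h5⟩
      exact ⟨⟨h1, h2, h3, by rw [h5]; exact h⟩, h5⟩
  · rw [Finset.card_eq_zero, Finset.filter_eq_empty_iff]
    rintro t _ ⟨⟨h1, h2, h3, h4⟩, h5⟩
    rw [h5] at h4
    exact h h4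

theorem NQ_eq_pow [Finite G] {a b e : ℕ} (he : e.Coprime (Nat.card G)) (k : G) (H : Subgroup G) :
    NQ a b (fun K => K = H) (k ^ e) = NQ a b (fun K => K = H) k := by
  have : Fintype (Subgroup G) := Fintype.ofFinite _
  induction H using WellFoundedLT.induction with
  | ind H ih =>
    have h1 := NQ_le (a := a) (b := b) he H k
    have h2 : ∀ k : G, NQ a b (fun K => K ≤ H) k = NQ a b (fun K => K = H) k +
        ∑ K : Subgroup G, if K < H then NQ a b (fun K' => K' = K) k else 0 := by
      intro k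
      have e1 : NQ a b (fun K => K = H) k = ∑ K : Subgroup G,
          if K = H then NQ a b (fun K' => K' = K) k else 0 := by
        rw [Finset.sum_ite_eq' Finset.univ H, if_pos (Finset.mem_univ H)]
      rw [NQ_eq_sum (fun K => K ≤ H) k, e1, ← Finset.sum_add_distrib]
      refine Finset.sum_congr rfl fun K _ => ?_
      by_cases h3 : K = H
      · subst h3
        simp
      · by_cases h4 : K < H
        · simp [h3, h4, h4.le]
        · have h5 : ¬ K ≤ H := fun h => h4 (lt_of_le_of_ne h h3)
          simp [h3, h4, h5]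
    rw [h2, h2 k] at h1
    have h3 : (∑ K : Subgroup G, if K < H then NQ a b (fun K' => K' = K) (k ^ e) else 0) =
        ∑ K : Subgroup G, if K < H then NQ a b (fun K' => K' = K) k else 0 := by
      refine Finset.sum_congr rfl fun K _ => ?_
      split_ifs with hK
      · exact ih K hK
      · rfl
    rw [h3] at h1
    exact Nat.add_right_cancel h1

theorem NQ_pow [Finite G] {a b e : ℕ} (he : e.Coprime (Nat.card G)) (Q : Subgroup G → Prop)
    (k : G) : NQ a b Q (k ^ e) = NQ a b Q k := by
  have : Fintype (Subgroup G) := Fintype.ofFinite _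
  rw [NQ_eq_sum, NQ_eq_sum]
  refine Finset.sum_congr rfl fun H _ => ?_
  split_ifs
  · exact NQ_eq_pow he k H
  · rfl

end

end P179S
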