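import Vale.Agent.P179.H5.Fr1
import Vale.Agent.P179.H5.Ga1

/-!
# Fibres over a set with a permutation of prime power order
-/

namespace P179S

open Subgroup MulAction Function

open scoped Classical

section

theorem fib_card {X Ω : Type*} [Finite X] [Finite Ω] (κ : X → Ω) {m : ℕ}
    (hm : ∀ ω, m ∣ Nat.card {x // κ x = ω}) (S : Ω → Prop) :
    Nat.card {x // S (κ x)} =
      Nat.card {y : Ω × ℕ // y.2 < Nat.card {x // κ x = y.1} / m ∧ S y.1} * m := by
  have := Fintype.ofFinite X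
  have := Fintype.ofFinite Ω
  have e1 : {x // S (κ x)} ≃ Σ ω : {ω // S ω}, {x // κ x = ω.1} :=
    { toFun := fun x => ⟨⟨κ x.1, x.2⟩, ⟨x.1, rfl⟩⟩
      invFun := fun y => ⟨y.2.1, by rw [y.2.2]; exact y.1.2⟩
      left_inv := fun x => rfl
      right_inv := by
        rintro ⟨⟨ω, hω⟩, ⟨x, hx⟩⟩
        have hx' : κ x = ω := hx
        subst hx'
        rfl }
  have e2 : {y : Ω × ℕ // y.2 < Nat.card {x // κ x = y.1} / m ∧ S y.1} ≃
      Σ ω : {ω // S ω}, Fin (Nat.card {x // κ x = ω.1} / m) :=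
    { toFun := fun y => ⟨⟨y.1.1, y.2.2⟩, ⟨y.1.2, y.2.1⟩⟩
      invFun := fun z => ⟨(z.1.1, z.2.1), z.2.2, z.1.2⟩
      left_inv := fun y => rfl
      right_inv := fun z => rfl }
  rw [Nat.card_congr e1, Nat.card_congr e2, Nat.card_sigma, Nat.card_sigma, Finset.sum_mul]
  refine Finset.sum_congr rfl fun ω _ => ?_
  rw [Nat.card_fin, Nat.div_mul_cancel (hm ω.1)]

/-- the fibres over the points fixed by a permutation of order a power of `p` -/
theorem perm_fib {X Ω : Type*} [Finite X] [Finite Ω] {p n m : ℕ} [Fact p.Prime] (κ : X → Ω)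
    (φ : Ω → Ω) (hφ : ∀ ω, φ^[p ^ n] ω = ω) (hm : ∀ ω, m ∣ Nat.card {x // κ x = ω})
    (hF : ∀ ω, Nat.card {x // κ x = φ ω} = Nat.card {x // κ x = ω}) :
    ((p * m : ℕ) : ℤ) ∣ (Nat.card X : ℤ) - Nat.card {x // φ (κ x) = κ x} := by
  have h1 := fib_card κ hm (fun _ => True)
  have h2 := fib_card κ hm (fun ω => φ ω = ω)
  rw [Nat.card_congr (Equiv.subtypeUnivEquiv fun _ => trivial)] at h1
  let Y := {y : Ω × ℕ // y.2 < Nat.card {x // κ x = y.1} / m}
  have hfin : Finite Y := by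
    have hle : ∀ ω, Nat.card {x // κ x = ω} / m ≤ Nat.card X := fun ω =>
      (Nat.div_le_self _ _).trans (Nat.card_le_card_of_injective _ Subtype.val_injective)
    refine Finite.of_injective (fun y : Y => ((y.1.1, ⟨y.1.2, y.2.trans_le (hle _)⟩) :
      Ω × Fin (Nat.card X))) ?_
    rintro ⟨⟨ω, i⟩, hy⟩ ⟨⟨ω', i'⟩, hy'⟩ h
    have h3 : ω = ω' := congrArg Prod.fst h
    have h4 : i = i' := congrArg (fun z : Ω × Fin (Nat.card X) => (z.2 : ℕ)) h
    subst h3
    subst h4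
    rfl
  let f : Function.End Y := fun y => ⟨(φ y.1.1, y.1.2), by
    have := y.2
    rw [← hF] at this
    exact this⟩
  have hit : ∀ (i : ℕ) (y : Y), (f^[i] y).1 = (φ^[i] y.1.1, y.1.2) := by
    intro i
    induction i with
    | zero => intro y; rfl
    | succ i ih =>
      intro y
      rw [iterate_succ, comp_apply, ih]
      rfl
  have hpow : ∀ (i : ℕ) (y : Y), (f ^ i : Function.End Y) y = f^[i] y := by
    intro i
    induction i with
    | zero => intro y; rfl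
    | succ i ih =>
      intro y
      rw [pow_succ, iterate_succ]
      exact ih (f y)
  have hf1 : f ^ p ^ n = 1 := by
    funext y
    rw [hpow]
    apply Subtype.ext
    rw [hit, hφ]
    rfl
  have := Fintype.ofFinite Y
  have hmod := Equiv.Perm.card_fixedPoints_modEq hf1
  rw [← Nat.card_eq_fintype_card, ← Nat.card_eq_fintype_card] at hmod
  have e1 : Nat.card {y : Ω × ℕ // y.2 < Nat.card {x // κ x = y.1} / m ∧ True} = Nat.card Y :=
    Nat.card_congr (Equiv.subtypeEquivRight fun y => by simp)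
  have e2 : Nat.card {y : Ω × ℕ // y.2 < Nat.card {x // κ x = y.1} / m ∧ φ y.1 = y.1} =
      Nat.card (Function.fixedPoints f) := by
    refine Nat.card_congr ⟨fun y => ⟨⟨y.1, y.2.1⟩, ?_⟩, fun y => ⟨y.1.1, y.1.2, ?_⟩, ?_, ?_⟩
    · apply Subtype.ext
      exact Prod.ext y.2.2 rfl
    · exact congrArg (fun z : Y => z.1.1) y.2
    · intro y; rfl
    · intro y; rfl
  rw [e1] at h1
  rw [e2] at h2
  rw [h1, h2]
  obtain ⟨t, ht⟩ := Nat.modEq_iff_dvd.1 hmod.symm
  refine ⟨t, ?_⟩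
  push_cast
  rw [← sub_mul, ht]
  ring

end

section

theorem pow_lift {p : ℕ} {M : ℕ} [hp : Fact p.Prime] (hpM : p ∣ M) {e : ℤ} (he : (M : ℤ) ∣ e - 1)
    (i : ℕ) : ((p ^ i * M : ℕ) : ℤ) ∣ e ^ p ^ i - 1 := by
  induction i with
  | zero => simpa using he
  | succ i ih =>
    set y := e ^ p ^ i with hy
    have h1 : e ^ p ^ (i + 1) = y ^ p := by rw [hy, ← pow_mul, pow_succ]
    have h2 : (y - 1) * ∑ j ∈ Finset.range p, y ^ j = y ^ p - 1 := mul_geom_sum y p
    have h3 : (p : ℤ) ∣ ∑ j ∈ Finset.range p, y ^ j := by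
      have h4 : (p : ℤ) ∣ y - 1 := by
        refine dvd_trans ?_ ih
        exact_mod_cast hpM.trans (dvd_mul_left M (p ^ i))
      rw [← ZMod.intCast_zmod_eq_zero_iff_dvd] at h4 ⊢
      push_cast at h4 ⊢
      rw [sub_eq_zero] at h4
      rw [h4]
      simp
    rw [h1, ← h2]
    have h5 : ((p ^ (i + 1) * M : ℕ) : ℤ) = ((p ^ i * M : ℕ) : ℤ) * p := by
      push_cast
      ring
    rw [h5]
    exact mul_dvd_mul ih h3

theorem pow_iter {G : Type*} [Group G] {p n e : ℕ} [hp : Fact p.Prime] {g k : G}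
    (hg : p ∣ orderOf g) (hge : g ^ e = g) (hk : k ^ p ^ n = g) : k ^ e ^ p ^ n = k := by
  have h1 : ((orderOf g : ℕ) : ℤ) ∣ (e : ℤ) - 1 := by
    have h2 : e ≡ 1 [MOD orderOf g] := by
      rw [← pow_eq_pow_iff_modEq, pow_one]; exact hge
    exact (Nat.modEq_iff_dvd.1 h2.symm)
  have h3 := pow_lift hg h1 n
  have h4 : e ^ p ^ n ≡ 1 [MOD p ^ n * orderOf g] := by
    refine (Nat.modEq_iff_dvd.2 ?_).symm
    push_cast at h3 ⊢
    exact h3
  have h5 : orderOf k ∣ p ^ n * orderOf g := by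
    apply orderOf_dvd_of_pow_eq_one
    rw [pow_mul, hk, pow_orderOf_eq_one]
  have h6 : k ^ e ^ p ^ n = k ^ 1 := by
    rw [pow_eq_pow_iff_modEq]
    exact h4.of_dvd h5
  rw [h6, pow_one]

end

end P179S
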