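import Vale.Agent.P179.H5.GDefs
import Vale.Agent.P179.H5.Ch1
import Vale.Agent.P179.H5.Cnt1
import Vale.Agent.P179.H166.Final
import Vale.Agent.P179.H166.Z7

/-!
# The unconditional part
-/

namespace P179S

open Subgroup

open scoped Classical

section

variable {p : ℕ} [hp : Fact p.Prime] {G : Type*} [Group G]

theorem ev_iff [Fintype G] {w : Subgroup G → ℤ} {g : G} : Ev p w g ↔
    ((p * p ^ (Nat.card (centralizer ({g} : Set G))).factorization p : ℕ) : ℤ) ∣ NN w g := by
  constructor
  · intro h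
    let Q : Sylow p (centralizer ({g} : Set G)) := default
    have h1 := h ((Q : Subgroup (centralizer ({g} : Set G))).map
      (centralizer ({g} : Set G)).subtype) (Q.isPGroup'.map _) ?_
    · have h2 : Nat.card ((Q : Subgroup (centralizer ({g} : Set G))).map
          (centralizer ({g} : Set G)).subtype) = Nat.card Q :=
        (Nat.card_congr ((Q : Subgroup (centralizer ({g} : Set G))).equivMapOfInjective _
          (subtype_injective _)).toEquiv).symm
      rw [h2, Sylow.card_eq_multiplicity] at h1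
      exact_mod_cast h1
    · rintro a ⟨b, -, rfl⟩
      exact mem_centralizer_singleton_iff.1 b.2
  · intro h R hR hRg
    refine dvd_trans ?_ h
    have hle : R ≤ centralizer {g} := fun a ha => mem_centralizer_singleton_iff.2 (hRg a ha)
    have h1 : Nat.card R ∣ Nat.card (centralizer ({g} : Set G)) := Subgroup.card_dvd_of_le hle
    obtain ⟨j, hj⟩ := (IsPGroup.iff_card).1 hR
    have h2 : Nat.card R ∣ p ^ (Nat.card (centralizer ({g} : Set G))).factorization p := by
      rw [hj] at h1 ⊢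
      exact pow_dvd_pow p ((hp.out.pow_dvd_iff_le_factorization Nat.card_pos.ne').1 h1)
    exact_mod_cast Nat.mul_dvd_mul_left p h2

theorem genDiv_iff [Fintype G] {g : G} : GenDiv p g ↔ Ev p (ee p) g := by
  rw [ev_iff, NN_ee]
  unfold GenDiv genCount
  exact Int.natCast_dvd_natCast.symm

omit hp in
theorem isPPart_map {A : Type*} [Group A] (f : A →* G) (hf : Function.Injective f) {a u : A}
    (h : IsPPart p a u) : IsPPart p (f a) (f u) := by
  obtain ⟨h1, ⟨n, hn⟩, h3⟩ := h
  refine ⟨?_, ⟨n, by rw [← map_pow, hn, map_one]⟩, ?_⟩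
  · obtain ⟨m, rfl⟩ := h1
    exact ⟨m, by simp⟩
  · rw [← map_inv, ← map_mul, orderOf_injective f hf]
    exact h3

omit hp in
theorem exc_map {A : Type*} [Group A] (f : A →* G) (hf : Function.Injective f) {a : A}
    (h : Exc p a) : Exc p (f a) := by
  obtain ⟨u, hu, P, hP, hPa, huP, h2, h3⟩ := h
  refine ⟨f u, isPPart_map f hf hu, P.map f, hP.map f, ?_, ?_, ?_, ?_⟩
  · rintro x ⟨y, hy, rfl⟩
    have := mem_centralizer_singleton_iff.1 (hPa hy)
    rw [mem_centralizer_singleton_iff, ← map_mul, ← map_mul, this]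
  · rw [← map_commutator]
    exact mem_map_of_mem f huP
  · intro hu2
    rw [orderOf_injective f hf] at hu2
    obtain ⟨k, hk, hk4, hke⟩ := h2 hu2
    refine ⟨f k, mem_map_of_mem f hk, by rw [← map_pow, hk4], ?_⟩
    intro e he
    obtain ⟨c, hc, hck⟩ := hke e he
    exact ⟨f c, mem_map_of_mem f hc, by rw [← map_inv, ← map_mul, ← map_mul, hck, map_pow]⟩
  · intro hu3
    rw [orderOf_injective f hf] at hu3
    obtain ⟨k, hk, hk3, c, hc, hck⟩ := h3 hu3
    exact ⟨f k, mem_map_of_mem f hk, by rw [← map_pow, hk3], f c, mem_map_of_mem f hc,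
      by rw [← map_inv, ← map_mul, ← map_mul, hck, map_pow]⟩

omit hp in
/-- `Exc` passes from subgroups to the group, up to conjugacy -/
theorem exc_of_sub {A : Subgroup G} {a : A} {g : G} (h : Exc p a) (hc : IsConj (a : G) g) :
    Exc p g := by
  obtain ⟨c, hc⟩ := isConj_iff.1 hc
  have := exc_map ((MulAut.conj c).toMonoidHom.comp A.subtype)
    ((MulAut.conj c).injective.comp A.subtype_injective) h
  have h2 : ((MulAut.conj c).toMonoidHom.comp A.subtype) a = g := hc
  rwa [h2] at this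

omit hp in
theorem orderOf_of_conj {A : Subgroup G} {a : A} {g : G} (hc : IsConj (a : G) g) :
    orderOf a = orderOf g := by
  obtain ⟨c, rfl⟩ := isConj_iff.1 hc
  rw [orderOf_cj, Subgroup.orderOf_coe]

end

section

variable {p : ℕ} [hp : Fact p.Prime] {G : Type} [Group G] [Finite G]

/-- **The divisibility of the sums over the chains**, if `g` is not exceptional -/
theorem dvd_SS_of_not_exc [Fintype G] {g : G} (hpg : p ∣ orderOf g) (h : ¬ Exc p g)
    {R : Subgroup G} (hR : IsPGroup p R) (hRg : ∀ a ∈ R, a * g = g * a) :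
    ((Nat.card R * p : ℕ) : ℤ) ∣ P179C.SS p g := by
  obtain ⟨q, hq, hq'⟩ := P179K.exists_exponent p G
  have hpart := P179C.pow_eq_sing (p := p) hq hq' g
  set u := g ^ q with hu
  have huz : u ∈ zpowers g := npow_mem_zpowers g q
  have hreg : ¬ p ∣ orderOf (g * u⁻¹) := by
    have h1 : g * u⁻¹ = P179C.pr p g := by
      rw [hpart, mul_inv_rev, inv_inv, ← mul_assoc, (P179C.pr_commute g).eq,
        mul_inv_cancel_right]
    rw [h1]
    exact P179C.pr_regular g
  have hu1 : u ≠ 1 := by
    intro h1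
    rw [h1, inv_one, mul_one] at hreg
    exact hreg hpg
  have hup : ∃ n : ℕ, u ^ p ^ n = 1 := hq g
  have hgu : g * u = u * g := by
    rw [hu, ← pow_succ, ← pow_succ']
  have hau : ∀ a ∈ R, a * u = u * a := fun a ha => (Commute.pow_right (hRg a ha) q).eq
  set P : Subgroup G := R ⊔ zpowers u with hPdef
  have huP : u ∈ P := (le_sup_right : zpowers u ≤ P) (mem_zpowers u)
  have hzp : IsPGroup p (zpowers u) := by
    obtain ⟨n, hn⟩ := hup
    intro x
    refine ⟨n, ?_⟩
    obtain ⟨m, hm⟩ := x.2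
    apply Subtype.ext
    have h1 : ((x : zpowers u) : G) = u ^ m := hm.symm
    rw [SubmonoidClass.coe_pow, h1, ← zpow_natCast, zpow_comm, zpow_natCast, hn, one_zpow]
    rfl
  have hP : IsPGroup p P := by
    refine IsPGroup.to_sup_of_normal_right' hR hzp ?_
    intro a ha
    rw [mem_normalizer_iff_cj, cj_zpowers, hau a ha, mul_inv_cancel_right]
  have hPle : P ≤ centralizer {g} := by
    refine sup_le (fun a ha => mem_centralizer_singleton_iff.2 (hRg a ha)) ?_
    rw [zpowers_le, mem_centralizer_singleton_iff]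
    exact hgu.symm
  have hPg : ∀ a ∈ P, a * g = g * a := fun a ha => mem_centralizer_singleton_iff.1 (hPle ha)
  have hRP : Nat.card R ∣ Nat.card P := Subgroup.card_dvd_of_le le_sup_left
  have hRP' : ((Nat.card R * p : ℕ) : ℤ) ∣ ((Nat.card P * p : ℕ) : ℤ) :=
    Int.natCast_dvd_natCast.2 (Nat.mul_dvd_mul_right hRP p)
  refine hRP'.trans ?_
  by_cases hcomm : u ∈ ⁅P, P⁆
  · have hpr : ∀ r : ℕ, r.Prime → orderOf u = r → p = r := by
      intro r hr hor
      obtain ⟨n, hn⟩ := hup
      have h1 : r ∣ p ^ n := by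
        rw [← hor]
        exact orderOf_dvd_of_pow_eq_one hn
      exact ((Nat.prime_dvd_prime_iff_eq hr hp.out).1 (hr.dvd_of_dvd_pow h1)).symm
    by_cases h2 : orderOf u = 2 → ∃ k ∈ P, k ^ 4 = u ∧ ∀ e, Odd e → ∃ c ∈ P, c * k * c⁻¹ = k ^ e
    · by_cases h3 : orderOf u = 3 → ∃ k ∈ P, k ^ 3 = u ∧ ∃ c ∈ P, c * k * c⁻¹ = k ^ 4
      · exact absurd ⟨u, ⟨huz, hup, hreg⟩, P, hP, hPle, hcomm, h2, h3⟩ h
      · rw [Classical.not_imp] at h3
        obtain ⟨h3o, h3k⟩ := h3
        have hp3 : p = 3 := hpr 3 Nat.prime_three h3o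
        refine P179A.main_pp p g q P hP hPg huP hu1 (by rw [← hu, hp3, ← h3o, pow_orderOf_eq_one])
          hq' (Or.inr ⟨hp3, fun k hk hk3 => ⟨4, ?_, fun c hc hck => ?_⟩⟩)
        · rw [hp3]; decide
        · exact h3k ⟨k, hk, hk3, c, hc, hck⟩
    · rw [Classical.not_imp] at h2
      obtain ⟨h2o, h2k⟩ := h2
      have hp2 : p = 2 := hpr 2 Nat.prime_two h2o
      refine P179A.main_pp p g q P hP hPg huP hu1 (by rw [← hu, hp2, ← h2o, pow_orderOf_eq_one])
        hq' (Or.inl ⟨hp2, fun k hk hk4 => ?_⟩)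
      by_contra hcon
      apply h2k
      refine ⟨k, hk, hk4, fun e he => ?_⟩
      by_contra hce
      apply hcon
      refine ⟨e, ?_, fun c hc hck => hce ⟨c, hc, hck⟩⟩
      rw [hp2]
      obtain ⟨r, rfl⟩ := he
      unfold Nat.ModEq
      omega
  · refine P179C.dvd_SS_of_not_mem hq hP hPg huP ?_
    intro h1
    apply hcomm
    rw [← Subgroup.map_subtype_commutator]
    exact ⟨_, h1, rfl⟩

theorem ev_WW_of_not_exc [Fintype G] {g : G} (hpg : p ∣ orderOf g) (h : ¬ Exc p g) :
    Ev p (WW p) g := by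
  intro R hR hRg
  rw [NN_WW]
  have := dvd_SS_of_not_exc hpg h hR hRg
  rw [mul_comm]
  exact_mod_cast this

/-- from the chains to the pairs -/
theorem ev_ee_of [Fintype G] (hO : P179H524.OpTrivial p G) {g : G}
    (h : ∀ (A : Subgroup G) [Fintype A], P179H524.OpTrivial p A →
      ∀ g' : A, IsConj (g' : G) g → Ev p (WW p) g') : Ev p (ee p) g := by
  refine transfer (fun A _ hA => ?_) inv_ee dress_ee (van_ee hO)
  exact ⟨WW p, inv_WW, dress_WW, van_WW, WW_top (opTrivial_of hA),
    fun g' hg' => h A (opTrivial_of hA) g' hg'⟩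

/-- from the pairs to the chains -/
theorem ev_WW_of [Fintype G] {g : G}
    (h : ∀ (A : Subgroup G) [Fintype A], P179H524.OpTrivial p A →
      ∀ g' : A, IsConj (g' : G) g → Ev p (ee p) g') : Ev p (WW p) g := by
  refine transfer (fun A _ hA => ?_) inv_WW dress_WW van_WW
  exact ⟨ee p, inv_ee, dress_ee, van_ee (opTrivial_of hA), ee_top,
    fun g' hg' => h A (opTrivial_of hA) g' hg'⟩

/-- **The unconditional divisibility.** -/
theorem genDiv_of_not_exc (hO : ∀ R : Subgroup G, R.Normal → IsPGroup p R → R = ⊥) {g : G}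
    (hpg : p ∣ orderOf g) (h : ¬ Exc p g) : GenDiv p g := by
  have := Fintype.ofFinite G
  rw [genDiv_iff]
  refine ev_ee_of hO fun A _ _ g' hg' => ?_
  exact ev_WW_of_not_exc (by rw [orderOf_of_conj hg']; exact hpg) fun h' => h (exc_of_sub h' hg')

end

end P179S
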