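import Vale.Agent.P179.H5.Tri2

/-!
# Normaliser towers
-/

namespace P179S

open Subgroup MulAction Function

open scoped Classical

section

variable {G : Type*} [Group G]

/-- one step of the tower -/
def step (D H : Subgroup G) : Subgroup G := H ⊔ (D ⊓ normalizer (H : Set G))

theorem le_step (D H : Subgroup G) : H ≤ step D H := le_sup_left

theorem cj_inf (c : G) (A B : Subgroup G) : cj c (A ⊓ B) = cj c A ⊓ cj c B := by
  ext x
  rw [mem_inf, mem_cj, mem_cj, mem_cj, mem_inf]

theorem cj_normalizer_eq (c : G) (H : Subgroup G) :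
    cj c (normalizer (H : Set G)) = normalizer ((cj c H : Subgroup G) : Set G) := by
  refine le_antisymm (cj_normalizer le_rfl) ?_
  have h1 : cj c⁻¹ (normalizer ((cj c H : Subgroup G) : Set G)) ≤
      normalizer ((cj c⁻¹ (cj c H) : Subgroup G) : Set G) := cj_normalizer le_rfl
  rw [cj_cj, inv_mul_cancel, cj_one] at h1
  have h2 := cj_mono (c := c) h1
  rwa [cj_cj, mul_inv_cancel, cj_one] at h2

theorem step_cj [Finite G] {D : Subgroup G} {d : G} (hd : d ∈ D) (H : Subgroup G) :
    step D (cj d H) = cj d (step D H) := by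
  unfold step
  have h3 : cj d D = D := by
    refine cj_eq_of_le fun x hx => ?_
    rw [mem_cj] at hx
    have h4 := D.mul_mem (D.mul_mem hd hx) (D.inv_mem hd)
    have h5 : d * (d⁻¹ * x * d) * d⁻¹ = x := by group
    rwa [h5] at h4
  rw [cj_sup, cj_inf, h3, cj_normalizer_eq]

/-- the step below `L` -/
noncomputable def stepL (D L H : Subgroup G) : Subgroup G :=
  if step D H ≤ L then step D H else H

/-- the last member of the tower below `L` -/
noncomputable def last (D L H : Subgroup G) : Subgroup G := (stepL D L)^[Nat.card G] H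

theorem le_stepL (D L H : Subgroup G) : H ≤ stepL D L H := by
  unfold stepL
  split_ifs
  · exact le_step D H
  · exact le_rfl

theorem stepL_le {D L H : Subgroup G} (h : H ≤ L) : stepL D L H ≤ L := by
  unfold stepL
  split_ifs with h1
  · exact h1
  · exact h

theorem stepL_iter_le {D L H : Subgroup G} (h : H ≤ L) (i : ℕ) : (stepL D L)^[i] H ≤ L := by
  induction i with
  | zero => exact h
  | succ i ih =>
    rw [iterate_succ_apply']
    exact stepL_le ih

theorem stepL_stable [Finite G] (D L H : Subgroup G) : stepL D L (last D L H) = last D L H := by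
  by_contra hne
  -- the orders grow
  have key : ∀ i : ℕ, i ≤ Nat.card G →
      i + 1 ≤ Nat.card ((stepL D L)^[i] H : Subgroup G) := by
    intro i
    induction i with
    | zero => intro _; exact Nat.card_pos
    | succ i ih =>
      intro hi
      have h1 := ih (by omega)
      rw [iterate_succ_apply']
      have h2 : (stepL D L)^[i] H < stepL D L ((stepL D L)^[i] H) := by
        refine lt_of_le_of_ne (le_stepL _ _ _) fun h => hne ?_
        have h3 : ∀ m, (stepL D L)^[m] ((stepL D L)^[i] H) = (stepL D L)^[i] H := by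
          intro m
          induction m with
          | zero => rfl
          | succ m ihm => rw [iterate_succ_apply, ← h, ihm]
        have h4 : last D L H = (stepL D L)^[i] H := by
          unfold last
          have e : Nat.card G = (Nat.card G - i) + i := by omega
          rw [e, iterate_add_apply, h3]
        rw [h4, ← h]
      have h3 : Nat.card ((stepL D L)^[i] H : Subgroup G) <
          Nat.card (stepL D L ((stepL D L)^[i] H) : Subgroup G) := by
        refine lt_of_le_of_ne (Subgroup.card_le_of_le h2.le) fun h => h2.ne ?_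
        exact Subgroup.eq_of_le_of_card_ge h2.le h.ge
      omega
  have h1 := key (Nat.card G) le_rfl
  have h2 : Nat.card ((stepL D L)^[Nat.card G] H : Subgroup G) ≤ Nat.card G :=
    Subgroup.card_le_card_group _
  omega

/-- membership in the tower -/
def InTw (D H K : Subgroup G) : Prop := ∃ i : ℕ, (step D)^[i] H = K

theorem InTw.le {D H K : Subgroup G} (h : InTw D H K) : H ≤ K := by
  obtain ⟨i, rfl⟩ := h
  induction i with
  | zero => exact le_rfl
  | succ i ih =>
    rw [iterate_succ_apply']
    exact ih.trans (le_step _ _)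

theorem inTw_last (D L H : Subgroup G) : InTw D H (last D L H) := by
  unfold last
  induction Nat.card G with
  | zero => exact ⟨0, rfl⟩
  | succ n ih =>
    obtain ⟨i, hi⟩ := ih
    rw [iterate_succ_apply']
    by_cases h : step D ((stepL D L)^[n] H) ≤ L
    · refine ⟨i + 1, ?_⟩
      have h1 : stepL D L ((stepL D L)^[n] H) = step D ((stepL D L)^[n] H) := if_pos h
      rw [iterate_succ_apply', hi, h1]
    · refine ⟨i, ?_⟩
      have h1 : stepL D L ((stepL D L)^[n] H) = (stepL D L)^[n] H := if_neg h
      rw [hi, h1]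

/-- the fibres of `last` -/
theorem last_eq_of_inTw [Finite G] {D L H K : Subgroup G} (hK : K ≤ L)
    (hK2 : stepL D L K = K) (h : InTw D H K) : last D L H = K := by
  obtain ⟨i, hi⟩ := h
  -- the two towers agree up to `i`
  have h1 : ∀ j ≤ i, (stepL D L)^[j] H = (step D)^[j] H := by
    intro j
    induction j with
    | zero => intro _; rfl
    | succ j ih =>
      intro hj
      rw [iterate_succ_apply', iterate_succ_apply', ih (by omega)]
      unfold stepL
      rw [if_pos]
      have h2 : InTw D ((step D)^[j + 1] H) K := by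
        refine ⟨i - (j + 1), ?_⟩
        rw [← iterate_add_apply, ← hi]
        congr 1
        omega
      have h3 := h2.le.trans hK
      rwa [iterate_succ_apply'] at h3
  have h2 : (stepL D L)^[i] H = K := by rw [h1 i le_rfl, hi]
  have h3 : ∀ m, (stepL D L)^[m] K = K := by
    intro m
    induction m with
    | zero => rfl
    | succ m ih => rw [iterate_succ_apply, hK2, ih]
  have hst := stepL_stable D L H
  have h4 : ∀ m, (stepL D L)^[m] (last D L H) = last D L H := by
    intro m
    induction m with
    | zero => rfl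
    | succ m ih => rw [iterate_succ_apply, hst, ih]
  have h5 : (stepL D L)^[i] (last D L H) = (stepL D L)^[Nat.card G] K := by
    unfold last
    rw [← h2, ← iterate_add_apply, ← iterate_add_apply, add_comm]
  rw [h4, h3] at h5
  exact h5

theorem inTw_cj [Finite G] {D : Subgroup G} {d : G} (hd : d ∈ D) {H K : Subgroup G}
    (h : InTw D H K) : InTw D (cj d H) (cj d K) := by
  obtain ⟨i, rfl⟩ := h
  refine ⟨i, ?_⟩
  induction i with
  | zero => rfl
  | succ i ih => rw [iterate_succ_apply', iterate_succ_apply', ih, step_cj hd]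

/-- the product of a subgroup and a subgroup of its normaliser -/
theorem mem_sup_normalizer {L M : Subgroup G} (hM : M ≤ normalizer (L : Set G)) {z : G}
    (hz : z ∈ L ⊔ M) : ∃ a ∈ L, ∃ d ∈ M, a * d = z := by
  have hconj : ∀ d ∈ M, ∀ a ∈ L, d * a * d⁻¹ ∈ L := fun d hd a ha =>
    (mem_normalizer_iff.1 (hM hd) a).1 ha
  let S : Subgroup G :=
    { carrier := {z | ∃ a ∈ L, ∃ d ∈ M, a * d = z}
      one_mem' := ⟨1, L.one_mem, 1, M.one_mem, mul_one 1⟩
      mul_mem' := by
        rintro _ _ ⟨a, ha, d, hd, rfl⟩ ⟨a', ha', d', hd', rfl⟩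
        refine ⟨a * (d * a' * d⁻¹), L.mul_mem ha (hconj d hd a' ha'), d * d', M.mul_mem hd hd', ?_⟩
        group
      inv_mem' := by
        rintro _ ⟨a, ha, d, hd, rfl⟩
        refine ⟨d⁻¹ * a⁻¹ * d⁻¹⁻¹, hconj d⁻¹ (M.inv_mem hd) a⁻¹ (L.inv_mem ha), d⁻¹,
          M.inv_mem hd, ?_⟩
        group }
  have h1 : L ⊔ M ≤ S := sup_le (fun a ha => ⟨a, ha, 1, M.one_mem, mul_one a⟩)
    (fun d hd => ⟨1, L.one_mem, d, hd, one_mul d⟩)
  exact h1 hz

/-- the product formula -/
theorem mem_mul_of_inTw {D H K : Subgroup G} (h : InTw D H K) {z : G} (hz : z ∈ K) :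
    ∃ a ∈ H, ∃ d ∈ D, a * d = z := by
  obtain ⟨i, rfl⟩ := h
  induction i generalizing z with
  | zero => exact ⟨z, hz, 1, D.one_mem, mul_one z⟩
  | succ i ih =>
    rw [iterate_succ_apply'] at hz
    obtain ⟨a, ha, d, hd, rfl⟩ := mem_sup_normalizer inf_le_right hz
    obtain ⟨b, hb, c, hc, rfl⟩ := ih ha
    exact ⟨b, hb, c * d, D.mul_mem hc hd.1, by group⟩

end

end P179S
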