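import Vale.Agent.P179.H5.Hu1
import Vale.Agent.P179.H5.Tw1
import Vale.Agent.P179.H5.Fr1

/-!
# Sums over the ends of the normaliser towers
-/

namespace P179S

open Subgroup MulAction Function

open scoped Classical

section

variable {G : Type*} [Group G] [Finite G]

omit [Finite G] in
/-- free actions -/
theorem card_dvd_of_free {E : Subgroup G} (T : Finset (G × G))
    (hT : ∀ d ∈ E, ∀ t ∈ T, cn d t ∈ T) (hfree : ∀ t ∈ T, ∀ d ∈ E, cn d t = t → d = 1) :
    Nat.card E ∣ T.card := by
  let act : MulAction E {t : G × G // t ∈ T} :=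
    { smul := fun c t => ⟨cn (c : G) t.1, hT c c.2 t.1 t.2⟩
      one_smul := fun t => Subtype.ext (by
        change cn ((1 : E) : G) t.1 = t.1
        rw [Subgroup.coe_one, cn_one])
      mul_smul := fun c d t => Subtype.ext (by
        change cn ((c * d : E) : G) t.1 = cn (c : G) (cn (d : G) t.1)
        rw [Subgroup.coe_mul, cn_mul]) }
  have h1 := card_pred (R := E) (X := {t : G × G // t ∈ T}) (fun t c hc => by
      have h2 : cn (c : G) t.1 = t.1 := congrArg Subtype.val hc
      exact Subtype.ext (hfree t.1 t.2 c c.2 h2)) (fun _ => True)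
  rw [Nat.card_congr (Equiv.subtypeUnivEquiv fun _ => trivial)] at h1
  have h2 : Nat.card {t : G × G // t ∈ T} = T.card := by
    rw [Nat.card_eq_fintype_card, Fintype.card_coe]
  rw [← h2, h1]
  exact Nat.dvd_mul_left _ _

/-- sums over the classes of subgroups -/
theorem orbit_sum {E : Subgroup G} {p : ℕ} (w : Subgroup G → ℕ)
    (hw : ∀ d ∈ E, ∀ K : Subgroup G, w (cj d K) = w K) (n : ℕ) :
    ∀ 𝒦 : Finset (Subgroup G), 𝒦.card = n → (∀ d ∈ E, ∀ K ∈ 𝒦, cj d K ∈ 𝒦) →
    (∀ K ∈ 𝒦, p * Nat.card (E ⊓ normalizer (K : Set G) : Subgroup G) ∣ w K) →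
    p * Nat.card E ∣ ∑ K ∈ 𝒦, w K := by
  let act : MulAction E (Subgroup G) :=
    { smul := fun c K => cj (c : G) K
      one_smul := fun K => by
        change cj ((1 : E) : G) K = K
        rw [Subgroup.coe_one, cj_one]
      mul_smul := fun c d K => by
        change cj ((c * d : E) : G) K = cj (c : G) (cj (d : G) K)
        rw [Subgroup.coe_mul, cj_cj] }
  have hsm : ∀ (c : E) (K : Subgroup G), c • K = cj (c : G) K := fun _ _ => rfl
  have horb : ∀ K : Subgroup G, Nat.card (orbit E K) *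
      Nat.card (E ⊓ normalizer (K : Set G) : Subgroup G) = Nat.card E := by
    intro K
    have h1 : Nat.card (stabilizer E K) =
        Nat.card (E ⊓ normalizer (K : Set G) : Subgroup G) := by
      refine Nat.card_congr ⟨fun d => ⟨(d.1 : G), d.1.2, mem_normalizer_iff_cj.2 d.2⟩,
        fun d => ⟨⟨(d : G), d.2.1⟩, mem_normalizer_iff_cj.1 d.2.2⟩, ?_, ?_⟩
      · intro d; rfl
      · intro d; rfl
    rw [← h1, Nat.card_congr (orbitEquivQuotientStabilizer E K)]
    exact (Subgroup.card_eq_card_quotient_mul_card_subgroup _).symm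
  induction n using Nat.strong_induction_on with
  | _ n ih =>
  intro 𝒦 hn h𝒦 h
  rcases 𝒦.eq_empty_or_nonempty with rfl | ⟨K₀, hK₀⟩
  · rw [Finset.sum_empty]
    exact dvd_zero _
  have hfin : (orbit E K₀).Finite := Set.toFinite _
  set O : Finset (Subgroup G) := hfin.toFinset with hO
  have hOm : ∀ K, K ∈ O ↔ ∃ c : E, cj (c : G) K₀ = K := by
    intro K
    rw [hO, Set.Finite.mem_toFinset]
    exact Iff.rfl
  have hsub : O ⊆ 𝒦 := by
    intro K hK
    obtain ⟨c, rfl⟩ := (hOm K).1 hK
    exact h𝒦 c c.2 K₀ hK₀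
  have hcard : O.card = Nat.card (orbit E K₀) := by
    rw [Nat.card_coe_set_eq, Set.ncard_eq_toFinset_card _ hfin]
  rw [← Finset.sum_sdiff hsub]
  refine dvd_add ?_ ?_
  · refine ih (𝒦 \ O).card ?_ _ rfl ?_ ?_
    · rw [← hn]
      refine Finset.card_lt_card (Finset.ssubset_iff_subset_ne.2 ⟨Finset.sdiff_subset, ?_⟩)
      intro h1
      have h2 : K₀ ∈ O := (hOm K₀).2 ⟨1, by rw [Subgroup.coe_one, cj_one]⟩
      have h3 : K₀ ∈ 𝒦 \ O := by rw [h1]; exact hK₀
      exact (Finset.mem_sdiff.1 h3).2 h2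
    · intro d hd K hK
      rw [Finset.mem_sdiff] at hK ⊢
      refine ⟨h𝒦 d hd K hK.1, fun h1 => hK.2 ?_⟩
      obtain ⟨c, hc⟩ := (hOm _).1 h1
      refine (hOm K).2 ⟨⟨d⁻¹, E.inv_mem hd⟩ * c, ?_⟩
      rw [Subgroup.coe_mul, ← cj_cj, hc, cj_cj, inv_mul_cancel, cj_one]
    · intro K hK
      exact h K (Finset.mem_sdiff.1 hK).1
  · have h1 : ∑ K ∈ O, w K = O.card * w K₀ := by
      rw [Finset.sum_const_nat]
      intro K hK
      obtain ⟨c, rfl⟩ := (hOm K).1 hK
      exact hw c c.2 K₀
    obtain ⟨m, hm⟩ := h K₀ hK₀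
    rw [h1, hcard, hm]
    refine ⟨m, ?_⟩
    rw [← horb K₀]
    ring

variable {p : ℕ} [hp : Fact p.Prime]

/-- the subgroups at which the towers below `L` end -/
noncomputable def ends (D L : Subgroup G) [Fintype (Subgroup G)] : Finset (Subgroup G) :=
  Finset.univ.filter fun K => K ≤ L ∧ stepL D L K = K

theorem count_ends (D L : Subgroup G) [Fintype (Subgroup G)] (S : Finset (G × G)) :
    (S.filter fun t => gn t ≤ L).card =
      ∑ K ∈ ends D L, (S.filter fun t => InTw D (gn t) K).card := by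
  rw [Finset.card_eq_sum_card_fiberwise (f := fun t => last D L (gn t)) (t := ends D L)]
  · refine Finset.sum_congr rfl fun K hK => ?_
    rw [ends, Finset.mem_filter] at hK
    congr 1
    ext t
    rw [Finset.mem_filter, Finset.mem_filter, Finset.mem_filter]
    constructor
    · rintro ⟨⟨h1, h2⟩, h3⟩
      exact ⟨h1, h3 ▸ inTw_last D L (gn t)⟩
    · rintro ⟨h1, h2⟩
      exact ⟨⟨h1, h2.le.trans hK.2.1⟩, last_eq_of_inTw hK.2.1 hK.2.2 h2⟩
  · intro t ht
    have h1 := (Finset.mem_filter.1 ht).2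
    change last D L (gn t) ∈ (ends D L : Set (Subgroup G))
    rw [Finset.mem_coe, ends, Finset.mem_filter]
    exact ⟨Finset.mem_univ _, stepL_iter_le h1 _, stepL_stable D L _⟩

theorem stepL_cj {D L : Subgroup G} {d : G} (hd : d ∈ D) (hdL : d ∈ L) (K : Subgroup G) :
    stepL D L (cj d K) = cj d (stepL D L K) := by
  have h1 : cj d (step D K) ≤ L ↔ step D K ≤ L := by
    constructor
    · intro h
      have h2 := cj_mono (c := d⁻¹) h
      rw [cj_cj, inv_mul_cancel, cj_one] at h2
      refine h2.trans ?_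
      intro x hx
      rw [mem_cj, inv_inv] at hx
      have h4 := L.mul_mem (L.mul_mem (L.inv_mem hdL) hx) hdL
      have h5 : d⁻¹ * (d * x * d⁻¹) * d = x := by group
      rwa [h5] at h4
    · intro h x hx
      rw [mem_cj] at hx
      have h4 := L.mul_mem (L.mul_mem hdL (h hx)) (L.inv_mem hdL)
      have h5 : d * (d⁻¹ * x * d) * d⁻¹ = x := by group
      rwa [h5] at h4
  unfold stepL
  rw [step_cj hd]
  by_cases h : step D K ≤ L
  · rw [if_pos h, if_pos (h1.2 h)]
  · rw [if_neg h, if_neg fun h2 => h (h1.1 h2)]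

omit [Finite G] in
theorem cj_le_iff_of_mem {L K : Subgroup G} {d : G} (hdL : d ∈ L) (h : K ≤ L) : cj d K ≤ L := by
  intro x hx
  rw [mem_cj] at hx
  have h4 := L.mul_mem (L.mul_mem hdL (h hx)) (L.inv_mem hdL)
  have h5 : d * (d⁻¹ * x * d) * d⁻¹ = x := by group
  rwa [h5] at h4

/-- the main divisibility -/
theorem ends_dvd {D : Subgroup G} (hD : IsPGroup p D) (S : Finset (G × G))
    (hS : ∀ d ∈ D, ∀ t ∈ S, cn d t ∈ S) (hfree : ∀ t ∈ S, ∀ d ∈ D, cn d t = t → d = 1)
    (L : Subgroup G) [Fintype (Subgroup G)]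
    (hih : ∀ K : Subgroup G, K < L → step D K = K →
      p * Nat.card (D ⊓ K : Subgroup G) ∣ (S.filter fun t => InTw D (gn t) K).card) :
    p * Nat.card (D ⊓ L : Subgroup G) ∣
      ∑ K ∈ (ends D L).erase L, (S.filter fun t => InTw D (gn t) K).card := by
  have hinv : ∀ d ∈ D, ∀ K : Subgroup G, (S.filter fun t => InTw D (gn t) (cj d K)).card =
      (S.filter fun t => InTw D (gn t) K).card := by
    intro d hd K
    symm
    refine Finset.card_bij (fun t _ => cn d t) ?_ ?_ ?_
    · intro t ht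
      rw [Finset.mem_filter] at ht ⊢
      refine ⟨hS d hd t ht.1, ?_⟩
      rw [gn_cn]
      exact inTw_cj hd ht.2
    · intro t _ t' _ h
      have h1 := congrArg (cn d⁻¹) h
      rwa [← cn_mul, ← cn_mul, inv_mul_cancel, cn_one, cn_one] at h1
    · intro t ht
      rw [Finset.mem_filter] at ht
      refine ⟨cn d⁻¹ t, ?_, ?_⟩
      · rw [Finset.mem_filter]
        refine ⟨hS _ (D.inv_mem hd) t ht.1, ?_⟩
        rw [gn_cn]
        have h1 := inTw_cj (D.inv_mem hd) ht.2
        rwa [cj_cj, inv_mul_cancel, cj_one] at h1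
      · rw [← cn_mul, mul_inv_cancel, cn_one]
  refine orbit_sum (E := D ⊓ L) (fun K => (S.filter fun t => InTw D (gn t) K).card)
    (fun d hd K => hinv d hd.1 K) _ ((ends D L).erase L) rfl ?_ ?_
  · intro d hd K hK
    rw [Finset.mem_erase, ends, Finset.mem_filter] at hK ⊢
    refine ⟨fun h => hK.1 ?_, Finset.mem_univ _, cj_le_iff_of_mem hd.2 hK.2.2.1, ?_⟩
    · have h1 := congrArg (cj d⁻¹) h
      rw [cj_cj, inv_mul_cancel, cj_one] at h1
      rw [h1]
      exact cj_eq_of_le (cj_le_iff_of_mem (L.inv_mem hd.2) le_rfl)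
    · rw [stepL_cj hd.1 hd.2, hK.2.2.2]
  · intro K hK
    rw [Finset.mem_erase, ends, Finset.mem_filter] at hK
    obtain ⟨hKL, -, hK1, hK2⟩ := hK
    by_cases h : step D K ≤ L
    · -- the end of a tower
      have h1 : step D K = K := by
        have h2 : stepL D L K = step D K := if_pos h
        rw [← h2, hK2]
      have h2 : (D ⊓ L ⊓ normalizer (K : Set G) : Subgroup G) = D ⊓ K := by
        refine le_antisymm ?_ ?_
        · refine le_inf (inf_le_left.trans inf_le_left) ?_
          have h3 : D ⊓ normalizer (K : Set G) ≤ K := by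
            conv_rhs => rw [← h1]
            exact le_sup_right
          exact (inf_le_inf_right _ inf_le_left).trans h3
        · exact le_inf (inf_le_inf_left _ hK1) (inf_le_right.trans le_normalizer)
      rw [h2]
      exact hih K (lt_of_le_of_ne hK1 hKL) h1
    · -- the tower leaves `L`
      have h1 : ¬ (D ⊓ normalizer (K : Set G)) ≤ L := fun h2 => h (sup_le hK1 h2)
      have h2 : Nat.card (D ⊓ normalizer (K : Set G) : Subgroup G) ∣
          (S.filter fun t => InTw D (gn t) K).card := by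
        refine card_dvd_of_free _ ?_ ?_
        · intro d hd t ht
          rw [Finset.mem_filter] at ht ⊢
          refine ⟨hS d hd.1 t ht.1, ?_⟩
          rw [gn_cn]
          have h3 := inTw_cj hd.1 ht.2
          rwa [mem_normalizer_iff_cj.1 hd.2] at h3
        · intro t ht d hd hdt
          exact hfree t (Finset.mem_filter.1 ht).1 d hd.1 hdt
      refine dvd_trans ?_ h2
      have hle : (D ⊓ L ⊓ normalizer (K : Set G) : Subgroup G) ≤ D ⊓ normalizer (K : Set G) :=
        inf_le_inf_right _ inf_le_left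
      have hmul : Nat.card (D ⊓ L ⊓ normalizer (K : Set G) : Subgroup G) *
          (D ⊓ L ⊓ normalizer (K : Set G)).relIndex (D ⊓ normalizer (K : Set G)) =
          Nat.card (D ⊓ normalizer (K : Set G) : Subgroup G) := by
        have h2 := relIndex_mul_relIndex ⊥ (D ⊓ L ⊓ normalizer (K : Set G))
          (D ⊓ normalizer (K : Set G)) bot_le hle
        rwa [relIndex_bot_left, relIndex_bot_left] at h2
      have hne : (D ⊓ L ⊓ normalizer (K : Set G)).relIndex (D ⊓ normalizer (K : Set G)) ≠ 1 := by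
        intro h3
        rw [relIndex_eq_one] at h3
        exact h1 (h3.trans (inf_le_left.trans inf_le_right))
      have hpg : IsPGroup p (D ⊓ normalizer (K : Set G) : Subgroup G) :=
        hD.to_le inf_le_left
      obtain ⟨m, hm⟩ := (IsPGroup.iff_card).1 hpg
      have hdvd : (D ⊓ L ⊓ normalizer (K : Set G)).relIndex (D ⊓ normalizer (K : Set G)) ∣
          p ^ m := by
        rw [← hm, ← hmul]
        exact Nat.dvd_mul_left _ _
      obtain ⟨l, -, hl⟩ := (Nat.dvd_prime_pow hp.out).1 hdvd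
      have hpd : p ∣ (D ⊓ L ⊓ normalizer (K : Set G)).relIndex (D ⊓ normalizer (K : Set G)) := by
        rw [hl]
        refine dvd_pow_self p ?_
        rintro rfl
        exact hne (by rw [hl, pow_zero])
      rw [← hmul, mul_comm p]
      exact Nat.mul_dvd_mul_left _ hpd

/-- **The pairs whose tower does not reach the group.** -/
theorem tower_dvd {D : Subgroup G} (hD : IsPGroup p D) (S : Finset (G × G))
    (hS : ∀ d ∈ D, ∀ t ∈ S, cn d t ∈ S) (hfree : ∀ t ∈ S, ∀ d ∈ D, cn d t = t → d = 1)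
    (hsub : ∀ K : Subgroup G, K ≠ ⊤ →
      p * Nat.card (D ⊓ K : Subgroup G) ∣ (S.filter fun t => gn t ≤ K).card) :
    p * Nat.card D ∣ (S.filter fun t => ¬ InTw D (gn t) ⊤).card := by
  have : Fintype (Subgroup G) := Fintype.ofFinite _
  have hLmem : ∀ L : Subgroup G, L ∈ ends D L := by
    intro L
    rw [ends, Finset.mem_filter]
    refine ⟨Finset.mem_univ _, le_rfl, ?_⟩
    exact le_antisymm (stepL_le le_rfl) (le_stepL D L L)
  have key : ∀ n, ∀ K : Subgroup G, Nat.card K = n → K ≠ ⊤ → step D K = K →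
      p * Nat.card (D ⊓ K : Subgroup G) ∣ (S.filter fun t => InTw D (gn t) K).card := by
    intro n
    induction n using Nat.strong_induction_on with
    | _ n ih =>
    intro L hn hL _
    have h1 := hsub L hL
    rw [count_ends D L S, ← Finset.add_sum_erase _ _ (hLmem L)] at h1
    have h2 := ends_dvd hD S hS hfree L fun K hK hst => by
      refine ih (Nat.card K) ?_ K rfl (fun h => ?_) hst
      · rw [← hn]
        refine lt_of_le_of_ne (Subgroup.card_le_of_le hK.le) fun h => hK.ne ?_
        exact Subgroup.eq_of_le_of_card_ge hK.le h.ge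
      · rw [h] at hK
        exact not_top_lt hK
    exact (Nat.dvd_add_left h2).1 h1
  have h1 := ends_dvd hD S hS hfree ⊤ fun K hK hst => key _ K rfl hK.ne hst
  have h2 := count_ends D ⊤ S
  rw [← Finset.add_sum_erase _ _ (hLmem ⊤)] at h2
  have h3 : (S.filter fun t => gn t ≤ ⊤).card = S.card := by
    congr 1
    exact Finset.filter_true_of_mem fun t _ => le_top
  rw [h3, ← Finset.card_filter_add_card_filter_not (s := S) (fun t => InTw D (gn t) ⊤)] at h2
  have h4 := Nat.add_left_cancel h2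
  rw [h4]
  rwa [inf_top_eq] at h1

end

end P179S
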