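import Vale.Agent.P179.H5.GDefs

/-!
# Counting the pairs with a given commutator and a first member of order prime to `p`
-/

namespace P179S

open Subgroup

section

variable {G : Type*} [Group G]

/-- The number of pairs `(x, y)` with `x y x⁻¹ y⁻¹ = g` such that the order of `x` is prime to `p`
and the group generated by `x` and `y` contains all elements of `G` of order prime to `p`. -/
noncomputable def regCount (p : ℕ) (g : G) : ℕ :=
  Nat.card {t : G × G // t.1 * t.2 * t.1⁻¹ * t.2⁻¹ = g ∧ ¬ p ∣ orderOf t.1 ∧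
    ∀ x : G, ¬ p ∣ orderOf x → x ∈ closure {t.1, t.2}}

/-- `p |C_G(g)|_p` divides `regCount p g`. -/
def RegDiv (p : ℕ) (g : G) : Prop :=
  p * p ^ (Nat.card (centralizer ({g} : Set G))).factorization p ∣ regCount p g

end

/-- For all finite groups `G` in `𝒞` with `O_p(G) = 1` and all `g ∈ G` of order divisible by `p`,
the number `p |C_G(g)|_p` divides `regCount p g`. -/
def RegDivisible (p : ℕ) (𝒞 : ∀ (G : Type) [Group G], Prop) : Prop :=
  ∀ (G : Type) [Group G] [Finite G], 𝒞 G → (∀ R : Subgroup G, R.Normal → IsPGroup p R → R = ⊥) →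
    ∀ g : G, p ∣ orderOf g → RegDiv p g

/-- The same for the `g` with `Exc p g` whose order is not divisible by `p ^ 2`. -/
def RegDivisibleExc (p : ℕ) (𝒞 : ∀ (G : Type) [Group G], Prop) : Prop :=
  ∀ (G : Type) [Group G] [Finite G], 𝒞 G → (∀ R : Subgroup G, R.Normal → IsPGroup p R → R = ⊥) →
    ∀ g : G, p ∣ orderOf g → ¬ p ^ 2 ∣ orderOf g → Exc p g → RegDiv p g

end P179S
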