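import Vale.Agent.P179.H5.Tw4

/-!
# Towers over a pair
-/

namespace P179S

open Subgroup MulAction Function

open scoped Classical

section

variable {G : Type} [Group G] [Finite G] {p : ℕ} [hp : Fact p.Prime]

omit hp in
theorem mem_normalizer_closure {S : Set G} {c : G} (h : ∀ s ∈ S, c * s * c⁻¹ ∈ closure S) :
    c ∈ normalizer ((closure S : Subgroup G) : Set G) := by
  rw [mem_normalizer_iff_cj]
  refine cj_eq_of_le ?_
  rw [cj_le, closure_le]
  intro s hs
  rw [SetLike.mem_coe, mem_cj, inv_inv]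
  exact h s hs

omit [Finite G] in
theorem big_step {n : ℕ} {H L : Subgroup G} {k : G} (hkN : k ∈ normalizer (H : Set G))
    (hkq : k ^ p ^ n ∈ H) (hL : Big p L) (hLe : L ≤ H ⊔ zpowers k) : Big p H := by
  set N := normalizer (H : Set G) with hN
  have hHN : H ≤ N := le_normalizer
  have : (H.subgroupOf N).Normal := by
    refine ⟨fun a ha t => ?_⟩
    rw [mem_subgroupOf] at ha ⊢
    exact (mem_normalizer_iff.1 t.2 (a : G)).1 ha
  let π : N →* N ⧸ H.subgroupOf N := QuotientGroup.mk' (H.subgroupOf N)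
  let S : Subgroup G := ((zpowers (π ⟨k, hkN⟩)).comap π).map N.subtype
  have hS : H ⊔ zpowers k ≤ S := by
    refine sup_le ?_ ?_
    · intro x hx
      refine ⟨⟨x, hHN hx⟩, ?_, rfl⟩
      change π ⟨x, hHN hx⟩ ∈ zpowers (π ⟨k, hkN⟩)
      have : π ⟨x, hHN hx⟩ = 1 := (QuotientGroup.eq_one_iff _).2 (mem_subgroupOf.2 hx)
      rw [this]
      exact one_mem _
    · rw [zpowers_le]
      exact ⟨⟨k, hkN⟩, mem_zpowers _, rfl⟩
  intro x hx
  obtain ⟨w, hw, hwx⟩ := hS (hLe (hL x hx))
  have hw' : π w ∈ zpowers (π ⟨k, hkN⟩) := hw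
  obtain ⟨i, hi⟩ := hw'
  have h3 : π w ^ p ^ n = 1 := by
    have h4 : π ⟨k, hkN⟩ ^ p ^ n = 1 := by
      rw [← map_pow]
      exact (QuotientGroup.eq_one_iff _).2 (mem_subgroupOf.2 hkq)
    have h5 : π w = π ⟨k, hkN⟩ ^ i := hi.symm
    rw [h5, ← zpow_natCast, zpow_comm, zpow_natCast, h4, one_zpow]
  have h6 : x ^ p ^ n ∈ H := by
    rw [← map_pow] at h3
    have h7 := mem_subgroupOf.1 ((QuotientGroup.eq_one_iff _).1 h3)
    rw [← hwx]
    exact h7
  obtain ⟨m, hm⟩ := exists_pow_eq_self_of_coprime (x := x) (n := p ^ n)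
    (Nat.Coprime.pow_left _ ((Nat.Prime.coprime_iff_not_dvd hp.out).2 hx))
  rw [← hm]
  exact H.pow_mem h6 m

/-- no nontrivial element of `P` commutes with the pair -/
def FreeP (P : Subgroup G) (ξ : G × G) : Prop :=
  ∀ z ∈ P, z * ξ.1 = ξ.1 * z → z * ξ.2 = ξ.2 * z → z = 1

omit [Finite G] hp in
theorem FreeP.eq {P : Subgroup G} {ξ : G × G} (hf : FreeP P ξ) {a b : G} (ha : a ∈ P)
    (hb : b ∈ P) (hax : a * ξ.1 = ξ.1 * a) (hbx : b * ξ.1 = ξ.1 * b)
    (h : a * ξ.2 * a⁻¹ = b * ξ.2 * b⁻¹) : a = b := by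
  have hax' : Commute a ξ.1 := hax
  have hbx' : Commute b ξ.1 := hbx
  refine inv_mul_eq_one.1 (hf (a⁻¹ * b) (P.mul_mem (P.inv_mem ha) hb)
    (hax'.inv_left.mul_left hbx') ?_)
  calc a⁻¹ * b * ξ.2 = a⁻¹ * (b * ξ.2 * b⁻¹) * b := by group
    _ = a⁻¹ * (a * ξ.2 * a⁻¹) * b := by rw [h]
    _ = ξ.2 * (a⁻¹ * b) := by group

/-- a tower over a pair -/
structure Tower (q : ℕ) (P : Subgroup G) (i : ℕ) (ξ : G × G) (c : ℕ → G) : Prop where
  zero : c 0 = ξ.1 ^ q
  mem : ∀ j < i, c (j + 1) ∈ P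
  comm : ∀ j < i, c (j + 1) * ξ.1 = ξ.1 * c (j + 1)
  rel : ∀ j < i, c (j + 1) * ξ.2 * (c (j + 1))⁻¹ = ξ.2 * c j

variable {q : ℕ} {P : Subgroup G} {i : ℕ} {ξ : G × G} {c : ℕ → G}

omit [Finite G] hp in
theorem Tower.comm' (h : Tower q P i ξ c) : ∀ j ≤ i, c j * ξ.1 = ξ.1 * c j := by
  intro j hj
  cases j with
  | zero =>
    rw [h.zero, ← pow_succ, ← pow_succ']
  | succ j => exact h.comm j hj

omit [Finite G] hp in
theorem Tower.unique (hf : FreeP P ξ) {c' : ℕ → G} (h : Tower q P i ξ c)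
    (h' : Tower q P i ξ c') : ∀ j ≤ i, c j = c' j := by
  intro j
  induction j with
  | zero => intro _; rw [h.zero, h'.zero]
  | succ j ih =>
    intro hj
    refine hf.eq (h.mem j hj) (h'.mem j hj) (h.comm j hj) (h'.comm j hj) ?_
    rw [h.rel j hj, h'.rel j hj, ih (by omega)]

omit [Finite G] hp in
theorem Tower.commute (hf : FreeP P ξ) (h : Tower q P i ξ c) :
    ∀ j ≤ i, ∀ k ≤ i, c j * c k = c k * c j := by
  intro j
  induction j with
  | zero =>
    intro _ k hk
    rw [h.zero]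
    have h1 : Commute (c k) ξ.1 := h.comm' k hk
    exact (h1.pow_right q).symm
  | succ j ih =>
    intro hj
    have ih' := ih (by omega)
    have key : ∀ k ≤ i, (c (j + 1))⁻¹ * c k * c (j + 1) = c k := by
      intro k
      induction k with
      | zero =>
        intro _
        rw [h.zero]
        have h1 : Commute (c (j + 1)) ξ.1 := h.comm j hj
        rw [(h1.inv_left.pow_right q).eq, inv_mul_cancel_right]
      | succ k ihk =>
        intro hk
        have hcj : Commute (c (j + 1)) ξ.1 := h.comm j hj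
        have hck : Commute (c (k + 1)) ξ.1 := h.comm k hk
        refine hf.eq (P.mul_mem (P.mul_mem (P.inv_mem (h.mem j hj)) (h.mem k hk)) (h.mem j hj))
          (h.mem k hk) ((hcj.inv_left.mul_left hck).mul_left hcj) hck ?_
        have e1 : c (k + 1) * c j * (c (k + 1))⁻¹ = c j := by
          rw [← ih' (k + 1) hk, mul_inv_cancel_right]
        rw [h.rel k hk]
        calc (c (j + 1))⁻¹ * c (k + 1) * c (j + 1) * ξ.2 *
              ((c (j + 1))⁻¹ * c (k + 1) * c (j + 1))⁻¹ =
              (c (j + 1))⁻¹ * (c (k + 1) * (c (j + 1) * ξ.2 * (c (j + 1))⁻¹) *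
                (c (k + 1))⁻¹) * c (j + 1) := by group
          _ = (c (j + 1))⁻¹ * (c (k + 1) * (ξ.2 * c j) * (c (k + 1))⁻¹) * c (j + 1) := by
              rw [h.rel j hj]
          _ = (c (j + 1))⁻¹ * ((c (k + 1) * ξ.2 * (c (k + 1))⁻¹) *
                (c (k + 1) * c j * (c (k + 1))⁻¹)) * c (j + 1) := by group
          _ = (c (j + 1))⁻¹ * ((ξ.2 * c k) * c j) * c (j + 1) := by rw [h.rel k hk, e1]
          _ = (c (j + 1))⁻¹ * (ξ.2 * c j) * c k * c (j + 1) := by
              rw [mul_assoc ξ.2, ← ih' k (by omega)]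
              group
          _ = (c (j + 1))⁻¹ * (c (j + 1) * ξ.2 * (c (j + 1))⁻¹) * c k * c (j + 1) := by
              rw [h.rel j hj]
          _ = ξ.2 * ((c (j + 1))⁻¹ * c k * c (j + 1)) := by group
          _ = ξ.2 * c k := by rw [ihk (by omega)]
    intro k hk
    have h1 := key k hk
    rw [mul_assoc, inv_mul_eq_iff_eq_mul] at h1
    exact h1.symm

omit [Finite G] hp in
theorem Tower.shift (hf : FreeP P ξ) (h : Tower q P i ξ c) :
    Tower q P i (ξ.1, ξ.2 * c i) c where
  zero := h.zero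
  mem := h.mem
  comm := h.comm
  rel := by
    intro j hj
    have h1 := h.commute hf (j + 1) hj i le_rfl
    have h2 := h.commute hf j (by omega) i le_rfl
    calc c (j + 1) * (ξ.2 * c i) * (c (j + 1))⁻¹ =
          (c (j + 1) * ξ.2 * (c (j + 1))⁻¹) * (c (j + 1) * c i * (c (j + 1))⁻¹) := by group
      _ = ξ.2 * c j * c i := by rw [h.rel j hj, h1, mul_inv_cancel_right]
      _ = ξ.2 * c i * c j := by rw [mul_assoc, h2, mul_assoc]

omit [Finite G] hp in
theorem Tower.conj {d : G} (hd : d ∈ P) (h : Tower q P i ξ c) :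
    Tower q P i (cn d ξ) (fun j => d * c j * d⁻¹) where
  zero := by
    change d * c 0 * d⁻¹ = (d * ξ.1 * d⁻¹) ^ q
    rw [h.zero, conj_pow]
  mem := fun j hj => P.mul_mem (P.mul_mem hd (h.mem j hj)) (P.inv_mem hd)
  comm := by
    intro j hj
    change d * c (j + 1) * d⁻¹ * (d * ξ.1 * d⁻¹) = d * ξ.1 * d⁻¹ * (d * c (j + 1) * d⁻¹)
    have h1 := h.comm j hj
    calc d * c (j + 1) * d⁻¹ * (d * ξ.1 * d⁻¹) = d * (c (j + 1) * ξ.1) * d⁻¹ := by group
      _ = d * (ξ.1 * c (j + 1)) * d⁻¹ := by rw [h1]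
      _ = d * ξ.1 * d⁻¹ * (d * c (j + 1) * d⁻¹) := by group
  rel := by
    intro j hj
    change d * c (j + 1) * d⁻¹ * (d * ξ.2 * d⁻¹) * (d * c (j + 1) * d⁻¹)⁻¹ =
      d * ξ.2 * d⁻¹ * (d * c j * d⁻¹)
    have h1 := h.rel j hj
    calc d * c (j + 1) * d⁻¹ * (d * ξ.2 * d⁻¹) * (d * c (j + 1) * d⁻¹)⁻¹ =
          d * (c (j + 1) * ξ.2 * (c (j + 1))⁻¹) * d⁻¹ := by group
      _ = d * (ξ.2 * c j) * d⁻¹ := by rw [h1]
      _ = d * ξ.2 * d⁻¹ * (d * c j * d⁻¹) := by group

omit [Finite G] hp in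
theorem Tower.extend (h : Tower q P i ξ c) {d : G} (hd : d ∈ P) (hdx : d * ξ.1 = ξ.1 * d)
    (hdy : d * ξ.2 * d⁻¹ = ξ.2 * c i) : Tower q P (i + 1) ξ (update c (i + 1) d) where
  zero := by rw [update_of_ne (by omega)]; exact h.zero
  mem := by
    intro j hj
    rcases eq_or_ne j i with rfl | hne
    · rw [update_self]; exact hd
    · rw [update_of_ne (by omega)]; exact h.mem j (by omega)
  comm := by
    intro j hj
    rcases eq_or_ne j i with rfl | hne
    · rw [update_self]; exact hdx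
    · rw [update_of_ne (by omega)]; exact h.comm j (by omega)
  rel := by
    intro j hj
    rcases eq_or_ne j i with rfl | hne
    · rw [update_self, update_of_ne (by omega)]; exact hdy
    · rw [update_of_ne (by omega), update_of_ne (by omega)]; exact h.rel j (by omega)

omit [Finite G] hp in
theorem Tower.restrict (h : Tower q P (i + 1) ξ c) : Tower q P i ξ c where
  zero := h.zero
  mem := fun j hj => h.mem j (by omega)
  comm := fun j hj => h.comm j (by omega)
  rel := fun j hj => h.rel j (by omega)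

/-- the group generated by the shifted pair -/
theorem Tower.big (hP : IsPGroup p P) (hf : FreeP P ξ) (h : Tower q P i ξ c)
    (hB : Big p (gn ξ)) : Big p (gn (ξ.1, ξ.2 * c i)) := by
  let S : ℕ → Set G := fun j => {w | w = ξ.1 ∨ w = ξ.2 * c i ∨ ∃ l ≤ j, w = c l}
  have hx : ∀ j, ξ.1 ∈ closure (S j) := fun j => Subgroup.subset_closure (Or.inl rfl)
  have hy : ∀ j, ξ.2 * c i ∈ closure (S j) := fun j =>
    Subgroup.subset_closure (Or.inr (Or.inl rfl))
  have hc : ∀ j, ∀ l ≤ j, c l ∈ closure (S j) := fun j l hl =>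
    Subgroup.subset_closure (Or.inr (Or.inr ⟨l, hl, rfl⟩))
  have hmain : ∀ m j : ℕ, j + m = i → Big p (closure (S j)) := by
    intro m
    induction m with
    | zero =>
      intro j hj
      have hj' : j = i := by omega
      subst hj'
      intro w hw
      refine gn_le (hx j) ?_ (hB w hw)
      have h1 := (closure (S j)).mul_mem (hy j) ((closure (S j)).inv_mem (hc j j le_rfl))
      rwa [mul_inv_cancel_right] at h1
    | succ m ih =>
      intro j hj
      have hji : j < i := by omega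
      obtain ⟨n, hn⟩ := hP ⟨c (j + 1), h.mem j hji⟩
      have hn' : c (j + 1) ^ p ^ n = 1 := congrArg Subtype.val hn
      refine big_step (n := n) (k := c (j + 1)) (mem_normalizer_closure ?_) ?_
        (ih (j + 1) (by omega)) ?_
      · rintro s (rfl | rfl | ⟨l, hl, rfl⟩)
        · rw [h.comm j hji, mul_inv_cancel_right]
          exact hx j
        · have h1 := (h.shift hf).rel j hji
          change c (j + 1) * (ξ.2 * c i) * (c (j + 1))⁻¹ = ξ.2 * c i * c j at h1
          rw [h1]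
          exact (closure (S j)).mul_mem (hy j) (hc j j le_rfl)
        · rw [h.commute hf (j + 1) hji l (by omega), mul_inv_cancel_right]
          exact hc j l hl
      · rw [hn']
        exact one_mem _
      · rw [closure_le]
        rintro w (rfl | rfl | ⟨l, hl, rfl⟩)
        · exact (le_sup_left : closure (S j) ≤ _) (hx j)
        · exact (le_sup_left : closure (S j) ≤ _) (hy j)
        · rcases Nat.lt_or_ge j l with hl' | hl'
          · have : l = j + 1 := by omega
            subst this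
            exact (le_sup_right : zpowers (c (j + 1)) ≤ closure (S j) ⊔ _) (mem_zpowers _)
          · exact (le_sup_left : closure (S j) ≤ _) (hc j l hl')
  intro w hw
  have h1 := hmain i 0 (by omega) w hw
  have h2 : closure (S 0) ≤ gn (ξ.1, ξ.2 * c i) := by
    rw [closure_le]
    rintro w (rfl | rfl | ⟨l, hl, rfl⟩)
    · exact fst_mem_gn (ξ.1, ξ.2 * c i)
    · exact snd_mem_gn (ξ.1, ξ.2 * c i)
    · have : l = 0 := by omega
      subst this
      rw [h.zero]
      exact (gn (ξ.1, ξ.2 * c i)).pow_mem (fst_mem_gn (ξ.1, ξ.2 * c i)) q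
  exact h2 h1

/-- there are no long towers -/
theorem Tower.false (hO : ∀ R : Subgroup G, R.Normal → IsPGroup p R → R = ⊥)
    (hP : IsPGroup p P) (h : Tower q P i ξ c) (hi : Nat.card P < i)
    (hB : Big p (gn ξ)) (h0 : ξ.1 ^ q ≠ 1) : False := by
  have := Fintype.ofFinite G
  have := Fintype.ofFinite P
  have hdown : ∀ t a b : ℕ, a + t ≤ i → b + t ≤ i → c (a + t) = c (b + t) → c a = c b := by
    intro t
    induction t with
    | zero => intro a b _ _ h1; exact h1
    | succ t ih =>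
      intro a b ha hb h1
      refine ih a b (by omega) (by omega) ?_
      have h2 := h.rel (a + t) (by omega)
      have h3 := h.rel (b + t) (by omega)
      have h1' : c (a + t + 1) = c (b + t + 1) := h1
      rw [h1', h3] at h2
      exact (mul_left_cancel h2).symm
  obtain ⟨m, hm1, hm2, hm3⟩ : ∃ m, 1 ≤ m ∧ m ≤ i ∧ c 0 = c m := by
    let F : Fin i → P := fun j => ⟨c (j + 1), h.mem j j.2⟩
    have hcard : Fintype.card P < Fintype.card (Fin i) := by
      rw [Fintype.card_fin, ← Nat.card_eq_fintype_card]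
      exact hi
    obtain ⟨a, b, hab, hF⟩ := Fintype.exists_ne_map_eq_of_card_lt F hcard
    have hF' : c (a + 1) = c (b + 1) := congrArg Subtype.val hF
    have hne : (a : ℕ) ≠ b := fun h => hab (Fin.ext h)
    rcases Nat.lt_or_ge (a : ℕ) b with hlt | hge
    · refine ⟨b - a, by omega, by have := b.2; omega, ?_⟩
      refine hdown (a + 1) 0 (b - a) (by have := a.2; omega) (by have := b.2; omega) ?_
      have e1 : 0 + ((a : ℕ) + 1) = a + 1 := by omega
      have e2 : (b : ℕ) - a + (a + 1) = b + 1 := by omega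
      rw [e1, e2]
      exact hF'
    · refine ⟨a - b, by omega, by have := a.2; omega, ?_⟩
      refine hdown (b + 1) 0 (a - b) (by have := b.2; omega) (by have := a.2; omega) ?_
      have e1 : 0 + ((b : ℕ) + 1) = b + 1 := by omega
      have e2 : (a : ℕ) - b + (b + 1) = a + 1 := by omega
      rw [e1, e2]
      exact hF'.symm
  let S : Set G := {w | ∃ l ≤ m, w = c l}
  set V : Subgroup G := closure S with hV
  have hcP : ∀ l ≤ m, c l ∈ P := by
    intro l hl
    cases l with
    | zero =>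
      rw [hm3]
      obtain ⟨m', rfl⟩ : ∃ m', m = m' + 1 := ⟨m - 1, by omega⟩
      exact h.mem m' (by omega)
    | succ l => exact h.mem l (by omega)
  have hVP : V ≤ P := by
    rw [hV, closure_le]
    rintro w ⟨l, hl, rfl⟩
    exact hcP l hl
  have hVp : IsPGroup p V := hP.to_le hVP
  have hcV : ∀ l ≤ m, c l ∈ V := fun l hl => Subgroup.subset_closure ⟨l, hl, rfl⟩
  have hyV : ξ.2⁻¹ ∈ normalizer (V : Set G) := by
    refine mem_normalizer_closure ?_
    have hstep : ∀ l, l + 1 ≤ m → ξ.2⁻¹ * c (l + 1) * ξ.2⁻¹⁻¹ ∈ closure S := by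
      intro l hl
      have h1 := h.rel l (by omega)
      have h2 : ξ.2⁻¹ * c (l + 1) * ξ.2⁻¹⁻¹ = c l * c (l + 1) := by
        have h3 : c (l + 1) * ξ.2 = ξ.2 * c l * c (l + 1) := by
          rw [← h1]; group
        rw [inv_inv, mul_assoc, h3]
        group
      rw [h2]
      exact V.mul_mem (hcV l (by omega)) (hcV (l + 1) hl)
    rintro s ⟨l, hl, rfl⟩
    cases l with
    | zero =>
      rw [hm3]
      obtain ⟨m', rfl⟩ : ∃ m', m = m' + 1 := ⟨m - 1, by omega⟩
      exact hstep m' le_rfl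
    | succ l => exact hstep l hl
  have hxV : ξ.1 ∈ normalizer (V : Set G) := by
    refine mem_normalizer_closure ?_
    rintro s ⟨l, hl, rfl⟩
    rw [← h.comm' l (by omega), mul_inv_cancel_right]
    exact hcV l hl
  have hK : gn ξ ≤ normalizer (V : Set G) := by
    refine gn_le hxV ?_
    have h1 := (normalizer (V : Set G)).inv_mem hyV
    rwa [inv_inv] at h1
  have hBK : Big p (gn ξ ⊔ V) := fun w hw => (le_sup_left : gn ξ ≤ gn ξ ⊔ V) (hB w hw)
  have h2 := van_ee hO (gn ξ ⊔ V) ⟨V, le_sup_right, ?_, hVp, sup_le hK le_normalizer⟩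
  · unfold ee at h2
    rw [if_pos hBK] at h2
    exact one_ne_zero h2
  · intro h3
    apply h0
    rw [← h.zero]
    have h4 := hcV 0 (by omega)
    rw [h3] at h4
    exact mem_bot.1 h4

end

end P179S
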