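import Vale.Agent.P179.H5.Rg1

/-!
# The pairs with a first member of order divisible by `p`
-/

namespace P179S

open Subgroup MulAction Function

open scoped Classical

section

variable {G : Type} [Group G] [Finite G] {p : ℕ} [hp : Fact p.Prime]

/-- the pairs with a nontrivial `q`-th power of the first member -/
def InS (p q : ℕ) (g : G) (ξ : G × G) : Prop := cm ξ = g ∧ Big p (gn ξ) ∧ ξ.1 ^ q ≠ 1

/-- the pairs with a tower of height `i` -/
def InT (p q : ℕ) (g : G) (P : Subgroup G) (i : ℕ) (ξ : G × G) : Prop :=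
  InS p q g ξ ∧ ∃ c : ℕ → G, Tower q P i ξ c

omit [Finite G] hp in
theorem Tower.top_pow {q : ℕ} {P : Subgroup G} {i : ℕ} {ξ : G × G} {c : ℕ → G}
    (h : Tower q P i ξ c) (hP : IsPGroup p P) (hq : ∀ x : G, ∃ n, (x ^ q) ^ p ^ n = 1) :
    ∃ m : ℕ, (c i) ^ p ^ m = 1 := by
  cases i with
  | zero =>
    rw [h.zero]
    exact hq _
  | succ i =>
    obtain ⟨m, hm⟩ := hP ⟨_, h.mem i (by omega)⟩
    exact ⟨m, congrArg Subtype.val hm⟩

omit [Finite G] hp in
theorem inS_cn {q : ℕ} {g d : G} (hd : d * g = g * d) {ξ : G × G} (h : InS p q g ξ) :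
    InS p q g (cn d ξ) := by
  refine ⟨?_, ?_, ?_⟩
  · rw [cm_cn, h.1, hd, mul_inv_cancel_right]
  · rw [gn_cn]
    exact big_cj h.2.1
  · change (d * ξ.1 * d⁻¹) ^ q ≠ 1
    rw [conj_pow, Ne, mul_inv_eq_one, mul_eq_left]
    exact h.2.2

theorem sset_step (hO : ∀ R : Subgroup G, R.Normal → IsPGroup p R → R = ⊥) {g : G}
    {P : Subgroup G} (hP : IsPGroup p P) (hPg : ∀ c ∈ P, c * g = g * c) {q : ℕ}
    (hq : ∀ x : G, ∃ n, (x ^ q) ^ p ^ n = 1) (i : ℕ) :
    ((p * Nat.card P : ℕ) : ℤ) ∣ (Nat.card {ξ // InT p q g P i ξ} : ℤ) -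
      Nat.card {ξ // InT p q g P (i + 1) ξ} := by
  have hfr : ∀ ξ : G × G, InS p q g ξ → FreeP P ξ := by
    intro ξ hξ z hz hzx hzy
    obtain ⟨m, hm⟩ := hP ⟨z, hz⟩
    refine free_of_big hO hξ.2.1 ⟨m, congrArg Subtype.val hm⟩ ?_
    refine Prod.ext ?_ ?_
    · change z * ξ.1 * z⁻¹ = ξ.1
      rw [hzx, mul_inv_cancel_right]
    · change z * ξ.2 * z⁻¹ = ξ.2
      rw [hzy, mul_inv_cancel_right]
  -- a common exponent
  obtain ⟨N, hN⟩ : ∃ N : ℕ, ∀ z : G, (∃ m : ℕ, z ^ p ^ m = 1) → z ^ p ^ N = 1 := by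
    refine ⟨Nat.card G, ?_⟩
    rintro z ⟨m, hm⟩
    obtain ⟨l, -, hl⟩ := (Nat.dvd_prime_pow hp.out).1 (orderOf_dvd_of_pow_eq_one hm)
    have h1 : l ≤ Nat.card G := by
      have h2 : p ^ l ≤ Nat.card G := by
        rw [← hl]
        exact Nat.le_of_dvd Nat.card_pos (orderOf_dvd_natCard z)
      exact (Nat.lt_pow_self hp.out.one_lt).le.trans h2
    rw [← orderOf_dvd_iff_pow_eq_one, hl]
    exact pow_dvd_pow p h1
  let X := {ξ // InT p q g P i ξ}
  have hXfin : Finite X := Subtype.finite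
  let cc : X → ℕ → G := fun x => Classical.choose x.2.2
  have hcc : ∀ x : X, Tower q P i x.1 (cc x) := fun x => Classical.choose_spec x.2.2
  have hccp : ∀ x : X, ∃ m : ℕ, (cc x i) ^ p ^ m = 1 := fun x => (hcc x).top_pow hP hq
  have huq : ∀ (x : X) (c : ℕ → G), Tower q P i x.1 c → c i = cc x i := fun x c h =>
    h.unique (hfr x.1 x.2.1) (hcc x) i le_rfl
  let act : MulAction P X :=
    { smul := fun d x => ⟨cn (d : G) x.1, inS_cn (hPg d d.2) x.2.1, _, (hcc x).conj d.2⟩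
      one_smul := fun x => Subtype.ext (by
        change cn ((1 : P) : G) x.1 = x.1
        rw [Subgroup.coe_one, cn_one])
      mul_smul := fun d e x => Subtype.ext (by
        change cn ((d * e : P) : G) x.1 = cn (d : G) (cn (e : G) x.1)
        rw [Subgroup.coe_mul, cn_mul]) }
  have hsm : ∀ (d : P) (x : X), (d • x).1 = cn (d : G) x.1 := fun _ _ => rfl
  let f : X → X := fun x => ⟨(x.1.1, x.1.2 * cc x i), ⟨by
      have h1 : cc x i * x.1.1 = x.1.1 * cc x i := (hcc x).comm' i le_rfl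
      change x.1.1 * (x.1.2 * cc x i) * x.1.1⁻¹ * (x.1.2 * cc x i)⁻¹ = g
      have h2 : x.1.1 * x.1.2 * x.1.1⁻¹ * x.1.2⁻¹ = g := x.2.1.1
      have h3 : cc x i * x.1.1⁻¹ = x.1.1⁻¹ * cc x i := by
        rw [mul_inv_eq_iff_eq_mul, mul_assoc, h1, inv_mul_cancel_left]
      calc x.1.1 * (x.1.2 * cc x i) * x.1.1⁻¹ * (x.1.2 * cc x i)⁻¹ =
            x.1.1 * x.1.2 * (cc x i * x.1.1⁻¹) * (cc x i)⁻¹ * x.1.2⁻¹ := by group
        _ = x.1.1 * x.1.2 * x.1.1⁻¹ * x.1.2⁻¹ := by rw [h3]; group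
        _ = g := h2,
      (hcc x).big hP (hfr x.1 x.2.1) x.2.1.2.1, x.2.1.2.2⟩, _, (hcc x).shift (hfr x.1 x.2.1)⟩
  have hf : ∀ x, (f x).1 = (x.1.1, x.1.2 * cc x i) := fun _ => rfl
  have hccf : ∀ x, cc (f x) i = cc x i := fun x =>
    (huq (f x) _ ((hcc x).shift (hfr x.1 x.2.1))).symm
  have hccd : ∀ (d : P) (x : X), cc (d • x) i = d * cc x i * (d : G)⁻¹ := fun d x =>
    (huq (d • x) _ ((hcc x).conj d.2)).symm
  have hit : ∀ (m : ℕ) (x : X), (f^[m] x).1 = (x.1.1, x.1.2 * (cc x i) ^ m) := by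
    intro m
    induction m with
    | zero =>
      intro x
      rw [pow_zero, mul_one]
      rfl
    | succ m ih =>
      intro x
      rw [iterate_succ, comp_apply, ih, hccf, hf, mul_assoc, ← pow_succ']
  have h := free_fix (p := p) (n := N) (R := P) (X := X) ?_ f ?_ ?_
  · have e1 : Nat.card {x : X // ∃ d : P, f x = d • x} =
        Nat.card {ξ // InT p q g P (i + 1) ξ} := by
      refine Nat.card_congr ⟨fun x => ⟨x.1.1, x.1.2.1, ?_⟩,
        fun x => ⟨⟨x.1, x.2.1, ?_⟩, ?_⟩, ?_, ?_⟩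
      · obtain ⟨d, hd⟩ := x.2
        have h1 := congrArg Subtype.val hd
        rw [hf, hsm] at h1
        have h2 : x.1.1.1 = d * x.1.1.1 * (d : G)⁻¹ := congrArg Prod.fst h1
        have h3 : x.1.1.2 * cc x.1 i = d * x.1.1.2 * (d : G)⁻¹ := congrArg Prod.snd h1
        exact ⟨_, (hcc x.1).extend d.2 (eq_mul_inv_iff_mul_eq.1 h2).symm h3.symm⟩
      · obtain ⟨c, hc⟩ := x.2.2
        exact ⟨c, hc.restrict⟩
      · obtain ⟨c, hc⟩ := x.2.2
        refine ⟨⟨c (i + 1), hc.mem i (by omega)⟩, ?_⟩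
        apply Subtype.ext
        rw [hf, hsm]
        have h1 := hc.comm i (by omega)
        have h2 := hc.rel i (by omega)
        refine Prod.ext ?_ ?_
        · change x.1.1 = c (i + 1) * x.1.1 * (c (i + 1))⁻¹
          rw [h1, mul_inv_cancel_right]
        · change x.1.2 * cc ⟨x.1, x.2.1, c, hc.restrict⟩ i = c (i + 1) * x.1.2 * (c (i + 1))⁻¹
          rw [h2, ← huq ⟨x.1, x.2.1, c, hc.restrict⟩ c hc.restrict]
      · intro x; rfl
      · intro x; rfl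
    rw [e1] at h
    exact h
  · intro x d hd
    have h1 := congrArg Subtype.val hd
    rw [hsm] at h1
    obtain ⟨m, hm⟩ := hP d
    exact Subtype.ext (free_of_big hO x.2.1.2.1 ⟨m, congrArg Subtype.val hm⟩ h1)
  · intro d x
    apply Subtype.ext
    rw [hf, hsm, hsm, hf, hccd]
    refine Prod.ext rfl ?_
    change d * x.1.2 * (d : G)⁻¹ * (d * cc x i * (d : G)⁻¹) = d * (x.1.2 * cc x i) * (d : G)⁻¹
    group
  · intro x
    refine ⟨1, ?_⟩
    apply Subtype.ext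
    rw [hit, hN _ (hccp x), mul_one, one_smul]

theorem sset_dvd (hO : ∀ R : Subgroup G, R.Normal → IsPGroup p R → R = ⊥) {g : G}
    {P : Subgroup G} (hP : IsPGroup p P) (hPg : ∀ c ∈ P, c * g = g * c) {q : ℕ}
    (hq : ∀ x : G, ∃ n, (x ^ q) ^ p ^ n = 1) :
    ((p * Nat.card P : ℕ) : ℤ) ∣ (Nat.card {ξ : G × G // InS p q g ξ} : ℤ) := by
  have h1 : ∀ i : ℕ, ((p * Nat.card P : ℕ) : ℤ) ∣ (Nat.card {ξ // InT p q g P 0 ξ} : ℤ) -
      Nat.card {ξ // InT p q g P i ξ} := by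
    intro i
    induction i with
    | zero => rw [sub_self]; exact dvd_zero _
    | succ i ih =>
      have h2 := dvd_add ih (sset_step hO hP hPg hq i)
      rwa [sub_add_sub_cancel] at h2
  have h3 : Nat.card {ξ // InT p q g P (Nat.card P + 1) ξ} = 0 := by
    rw [Nat.card_eq_zero]
    left
    refine ⟨fun x => ?_⟩
    obtain ⟨c, hc⟩ := x.2.2
    exact hc.false hO hP (Nat.lt_succ_self _) x.2.1.2.1 x.2.1.2.2
  have h4 : Nat.card {ξ // InT p q g P 0 ξ} = Nat.card {ξ : G × G // InS p q g ξ} := by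
    refine Nat.card_congr (Equiv.subtypeEquivRight fun ξ => ?_)
    refine ⟨fun h => h.1, fun h => ⟨h, fun _ => ξ.1 ^ q, ⟨rfl, ?_, ?_, ?_⟩⟩⟩
    · intro j hj; omega
    · intro j hj; omega
    · intro j hj; omega
  have h5 := h1 (Nat.card P + 1)
  rw [h3, h4, Nat.cast_zero, sub_zero] at h5
  exact h5

end

end P179S
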