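import Vale.Agent.P179.H5.Rg2
import Vale.Agent.P179.H5.RDefs

/-!
# The counting form of the blockwise Alperin weight conjecture, with `p`-regular first members
-/

namespace P179S

open Subgroup MulAction Function P179B

open scoped Classical

universe u

section

variable {G : Type} [Group G] [Finite G] {p : ℕ} [hp : Fact p.Prime]

theorem reg_iff {q : ℕ} (hq : ∀ x : G, ∃ n, (x ^ q) ^ p ^ n = 1)
    (hq' : ∀ x : G, (∃ n, x ^ p ^ n = 1) → x ^ q = x) (x : G) :
    x ^ q = 1 ↔ ¬ p ∣ orderOf x := by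
  have := Fintype.ofFinite G
  constructor
  · intro h
    have hpart := P179C.pow_eq_sing (p := p) hq hq' x
    rw [h] at hpart
    have h1 : x = P179C.pr p x := by
      have h2 := (P179C.pr_commute (p := p) x).eq
      exact mul_inv_eq_one.1 hpart.symm
    rw [h1]
    exact P179C.pr_regular x
  · intro h
    obtain ⟨n, hn⟩ := hq x
    have h1 : orderOf (x ^ q) ∣ p ^ n := orderOf_dvd_of_pow_eq_one hn
    have h2 : orderOf (x ^ q) ∣ orderOf x := orderOf_pow_dvd q
    have h3 : Nat.Coprime (p ^ n) (orderOf x) :=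
      Nat.Coprime.pow_left n ((Nat.Prime.coprime_iff_not_dvd hp.out).2 h)
    exact orderOf_eq_one_iff.1 (Nat.eq_one_of_dvd_coprimes h3 h1 h2)

/-- **The pairs with a `p`-regular first member.** -/
theorem gen_sub_reg (hO : ∀ R : Subgroup G, R.Normal → IsPGroup p R → R = ⊥) {g : G}
    (hg : p ∣ orderOf g) :
    ((p * p ^ (Nat.card (centralizer ({g} : Set G))).factorization p : ℕ) : ℤ) ∣
      (genCount p g : ℤ) - regCount p g := by
  have := Fintype.ofFinite G
  obtain ⟨P, hP, hPg, hPc, -⟩ := exists_sylow_cent hg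
  obtain ⟨q, hq, hq'⟩ := P179K.exists_exponent p G
  have h1 := sset_dvd hO hP hPg hq
  have h2 : genCount p g = regCount p g + Nat.card {ξ : G × G // InS p q g ξ} := by
    unfold genCount regCount
    simp only [Nat.card_eq_fintype_card, Fintype.card_subtype]
    rw [← Finset.card_union_of_disjoint]
    · congr 1
      ext t
      simp only [Finset.mem_filter, Finset.mem_univ, true_and, Finset.mem_union]
      constructor
      · rintro ⟨h3, h4⟩
        by_cases h5 : p ∣ orderOf t.1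
        · exact Or.inr ⟨h3, h4, fun h6 => (reg_iff hq hq' t.1).1 h6 h5⟩
        · exact Or.inl ⟨h3, h5, h4⟩
      · rintro (⟨h3, -, h4⟩ | ⟨h3, h4, -⟩)
        · exact ⟨h3, h4⟩
        · exact ⟨h3, h4⟩
    · rw [Finset.disjoint_left]
      intro t ht ht'
      rw [Finset.mem_filter] at ht ht'
      exact ht'.2.2.2 ((reg_iff hq hq' t.1).2 ht.2.2.1)
  rw [h2, Nat.cast_add, add_sub_cancel_left, ← hPc]
  exact h1

theorem genDiv_iff_regDiv (hO : ∀ R : Subgroup G, R.Normal → IsPGroup p R → R = ⊥) {g : G}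
    (hg : p ∣ orderOf g) : GenDiv p g ↔ RegDiv p g := by
  unfold GenDiv RegDiv
  rw [← Int.natCast_dvd_natCast, ← Int.natCast_dvd_natCast]
  exact dvd_iff_dvd_of_dvd_sub (gen_sub_reg hO hg)

end

section

variable {p : ℕ} [hp : Fact p.Prime] {k : Type u} [Field k] [IsAlgClosed k] [CharP k p]

theorem tfae_reg (red : integralClosure ℤ ℂ →+* k) (𝒞 : ∀ (G : Type) [Group G], Prop)
    (h𝒞 : SectionClosed p 𝒞) :
    List.TFAE [WeightConjMod p red 𝒞, GenDivisible p 𝒞, GenDivisibleExc p 𝒞, RegDivisible p 𝒞,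
      RegDivisibleExc p 𝒞] := by
  have h1 : WeightConjMod p red 𝒞 ↔ GenDivisible p 𝒞 := (tfae_gen red 𝒞 h𝒞).out 0 1
  have h2 : WeightConjMod p red 𝒞 ↔ GenDivisibleExc p 𝒞 := (tfae_gen red 𝒞 h𝒞).out 0 2
  have h3 : GenDivisible p 𝒞 ↔ RegDivisible p 𝒞 := by
    constructor
    · intro h G _ _ hG hO g hg
      exact (genDiv_iff_regDiv hO hg).1 (h G hG hO g hg)
    · intro h G _ _ hG hO g hg
      exact (genDiv_iff_regDiv hO hg).2 (h G hG hO g hg)
  have h4 : GenDivisibleExc p 𝒞 ↔ RegDivisibleExc p 𝒞 := by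
    constructor
    · intro h G _ _ hG hO g hg hg2 he
      exact (genDiv_iff_regDiv hO hg).1 (h G hG hO g hg hg2 he)
    · intro h G _ _ hG hO g hg hg2 he
      exact (genDiv_iff_regDiv hO hg).2 (h G hG hO g hg hg2 he)
  tfae_have 1 ↔ 2 := h1
  tfae_have 1 ↔ 3 := h2
  tfae_have 2 ↔ 4 := h3
  tfae_have 3 ↔ 5 := h4
  tfae_finish

theorem weightConj_iff_reg (red : integralClosure ℤ ℂ →+* k)
    (𝒞 : ∀ (G : Type) [Group G], Prop) (h𝒞 : SectionClosed p 𝒞) (hW : WreathClosed p 𝒞) :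
    WeightConj p red 𝒞 ↔ RegDivisibleExc p 𝒞 := by
  have h1 : GenDivisibleExc p 𝒞 ↔ RegDivisibleExc p 𝒞 := (tfae_reg red 𝒞 h𝒞).out 2 4
  exact (weightConj_iff_gen red 𝒞 h𝒞 hW).trans h1

end

end P179S
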