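import Vale.Agent.P179.H143.RDefs
import Vale.Agent.P179.H166.Z8

/-!
# The blocks to which the blockwise Alperin weight conjecture is reduced
-/

namespace P179S

open Subgroup P179B

section

variable {G : Type} [Group G]

/-- `v` is the `p`-part of `g`, and `D` is a Sylow `p`-subgroup of `C_G(g)`. -/
def IsLocalPair (p : ℕ) (g v : G) (D : Subgroup G) : Prop :=
  v ∈ zpowers g ∧ ¬ p ∣ orderOf (g * v⁻¹) ∧ D ≤ centralizer {g} ∧
    ¬ p ∣ D.relIndex (centralizer {g})

/-- The subgroup generated by `x` and `y` contains all elements of `G` of order prime to `p`. -/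
def BigPair (p : ℕ) (x y : G) : Prop :=
  ∀ z : G, ¬ p ∣ orderOf z → z ∈ closure {x, y}

/-- `g = x y x⁻¹ y⁻¹` for some `x` of order prime to `p` and some `y` such that `⟨x, y⟩` contains
all elements of `G` of order prime to `p`, `G` is the product of `⟨x, y⟩` and `D`, and `x` is
conjugate to `x ^ e` for all `e` prime to `|G|` with `g ^ e = g` whose order modulo `|G|` is a power
of `p`. -/
def IsCommWith (p : ℕ) (g : G) (D : Subgroup G) : Prop :=
  ∃ x y : G, x * y * x⁻¹ * y⁻¹ = g ∧ ¬ p ∣ orderOf x ∧ BigPair p x y ∧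
    (∀ z : G, ∃ h ∈ closure {x, y}, ∃ d ∈ D, h * d = z) ∧
    ∀ e : ℕ, e.Coprime (Nat.card G) → g ^ e = g → (∃ n, e ^ p ^ n ≡ 1 [MOD Nat.card G]) →
      IsConj x (x ^ e)

/-- `g = (s t) ^ a` for some `s`, `t` with `s ^ a = t ^ b = 1` such that `⟨s, t⟩` contains all
elements of `G` of order prime to `p`, `G` is the product of `⟨s, t⟩` and `D`, and `s t` is conjugate
under `D` to `s t z` for all powers `z` of `s t` with `z ^ a = 1`. -/
def IsTriangle (p a b : ℕ) (g : G) (D : Subgroup G) : Prop :=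
  ∃ s t : G, s ^ a = 1 ∧ t ^ b = 1 ∧ (s * t) ^ a = g ∧ BigPair p s t ∧
    (∀ z : G, ∃ h ∈ closure {s, t}, ∃ d ∈ D, h * d = z) ∧
    ∀ z ∈ zpowers (s * t), z ^ a = 1 → ∃ d ∈ D, d * (s * t) * d⁻¹ = s * t * z

/-- `¬ GoodSection p D`, and every element `v` of order `p` of the centre of `D` is the `p`-part of
some `g ∈ G` such that `D` is a Sylow `p`-subgroup of `C_G(g)` and `IsCommWith p g D`; if `p = 2`,
also `IsTriangle 2 4 2 g D`; if `p = 3`, also `IsTriangle 3 3 3 g D`. -/
def Special (p : ℕ) (D : Subgroup G) : Prop :=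
  ¬ GoodSection p D ∧ ∀ v ∈ center D, orderOf v = p → ∃ g : G, IsLocalPair p g (v : G) D ∧
    IsCommWith p g D ∧ (p = 2 → IsTriangle 2 4 2 g D) ∧ (p = 3 → IsTriangle 3 3 3 g D)

end

/-- The blockwise Alperin weight conjecture modulo `p` for the `p`-blocks whose defect groups are
special, of the finite groups in `𝒞` without nontrivial normal `p`-subgroups. -/
def WeightConjModSpecial (p : ℕ) {k : Type*} [Field k] (red : integralClosure ℤ ℂ →+* k)
    (𝒞 : ∀ (G : Type) [Group G], Prop) : Prop :=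
  ∀ (G : Type) [Group G] [Finite G], 𝒞 G → (∀ R : Subgroup G, R.Normal → IsPGroup p R → R = ⊥) →
    ∀ B : MonoidAlgebra k G, IsBlock B → ∀ D : Subgroup G, IsDefectGroup B D → Special p D →
      numSimpleIn B ≡ numWeightsIn p red B [MOD p]

end P179S
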