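import Vale.Agent.P179.H5.SDefs
import Vale.Agent.P179.H5.Rg3
import Vale.Agent.P179.H5.Tw4

/-!
# Invariance under isomorphisms
-/

namespace P179S

open Subgroup P179B

section

variable {p : ℕ} {G H : Type} [Group G] [Group H]

theorem BigPair.of_equiv (e : G ≃* H) {x y : G} (h : BigPair p x y) : BigPair p (e x) (e y) := by
  intro z hz
  have h1 : ¬ p ∣ orderOf (e.symm z) := by rwa [MulEquiv.orderOf_eq]
  have h2 := h _ h1
  have h3 : (closure {x, y}).map e.toMonoidHom = closure {e x, e y} := by
    rw [MonoidHom.map_closure, Set.image_pair]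
    rfl
  rw [← h3]
  exact ⟨e.symm z, h2, e.apply_symm_apply z⟩

theorem map_centralizer (e : G ≃* H) (g : G) :
    (centralizer ({g} : Set G)).map e.toMonoidHom = centralizer {e g} := by
  ext z
  rw [mem_centralizer_singleton_iff]
  constructor
  · rintro ⟨w, hw, rfl⟩
    have h1 : w * g = g * w := mem_centralizer_singleton_iff.1 hw
    change e w * e g = e g * e w
    rw [← map_mul, h1, map_mul]
  · intro hz
    refine ⟨e.symm z, ?_, e.apply_symm_apply z⟩
    apply mem_centralizer_singleton_iff.2
    apply e.injective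
    rw [map_mul, map_mul, e.apply_symm_apply, hz]

theorem genDiv_of_equiv (e : G ≃* H) {g : G} (h : GenDiv p g) : GenDiv p (e g) := by
  have h1 : Nat.card (centralizer ({e g} : Set H)) = Nat.card (centralizer ({g} : Set G)) := by
    rw [← map_centralizer]
    exact (Nat.card_congr ((centralizer ({g} : Set G)).equivMapOfInjective e.toMonoidHom
      e.injective).toEquiv).symm
  have h2 : genCount p (e g) = genCount p g := by
    unfold genCount
    refine (Nat.card_congr (Equiv.subtypeEquiv (Equiv.prodCongr e.toEquiv e.toEquiv) ?_)).symm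
    rintro ⟨x, y⟩
    change (x * y * x⁻¹ * y⁻¹ = g ∧ BigPair p x y) ↔
      (e x * e y * (e x)⁻¹ * (e y)⁻¹ = e g ∧ BigPair p (e x) (e y))
    have h3 : e x * e y * (e x)⁻¹ * (e y)⁻¹ = e (x * y * x⁻¹ * y⁻¹) := by
      rw [map_mul, map_mul, map_mul, map_inv, map_inv]
    rw [h3]
    constructor
    · rintro ⟨h4, h5⟩
      exact ⟨congrArg e h4, h5.of_equiv e⟩
    · rintro ⟨h4, h5⟩
      refine ⟨e.injective h4, ?_⟩
      have h6 := h5.of_equiv e.symm
      rwa [e.symm_apply_apply, e.symm_apply_apply] at h6
  unfold GenDiv at h ⊢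
  rw [h1, h2]
  exact h

end

end P179S
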