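import Vale.Agent.P179.H5.Sm1
import Vale.Agent.P179.H143.RFinal2

/-!
# The reduction, 1: divisibilities
-/

namespace P179S

open Subgroup P179B

section

variable {p : ℕ} [hp : Fact p.Prime] {G : Type} [Group G] [Finite G]

omit hp [Finite G] in
theorem dvd_of_isLocalPair {g v : G} {P : Subgroup G} (hvo : orderOf v = p)
    (h : IsLocalPair p g v P) : p ∣ orderOf g := by
  conv_lhs => rw [← hvo]
  exact orderOf_dvd_of_mem_zpowers h.1

theorem isLocalPair_of {g v : G} {P : Subgroup G} {q : ℕ} [Fintype G]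
    (hq : ∀ x : G, ∃ n : ℕ, (x ^ q) ^ (p ^ n) = 1)
    (hq' : ∀ x : G, (∃ n, x ^ p ^ n = 1) → x ^ q = x) (hgv : g ^ q = v)
    (hRg : ∀ a ∈ P, a * g = g * a)
    (hcard : Nat.card P = p ^ (Nat.card (centralizer ({g} : Set G))).factorization p) :
    IsLocalPair p g v P := by
  have hle : P ≤ centralizer {g} := fun a ha => mem_centralizer_singleton_iff.2 (hRg a ha)
  have hmul : Nat.card P * P.relIndex (centralizer {g}) =
      Nat.card (centralizer ({g} : Set G)) := by
    have h2 := relIndex_mul_relIndex ⊥ P (centralizer {g}) bot_le hle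
    rwa [relIndex_bot_left, relIndex_bot_left] at h2
  refine ⟨by rw [← hgv]; exact npow_mem_zpowers g q, ?_, hle, ?_⟩
  · have h2 : g * v⁻¹ = P179C.pr p g := by
      have h3 := P179C.pow_eq_sing (p := p) hq hq' g
      rw [← hgv, h3, mul_inv_rev, inv_inv, ← mul_assoc, (P179C.pr_commute g).eq,
        mul_inv_cancel_right]
    rw [h2]
    exact P179C.pr_regular g
  · intro h2
    obtain ⟨m, hm⟩ := h2
    have hC : Nat.card (centralizer ({g} : Set G)) ≠ 0 := Nat.card_pos.ne'
    have h3 : p ^ ((Nat.card (centralizer ({g} : Set G))).factorization p + 1) ∣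
        Nat.card (centralizer ({g} : Set G)) := by
      refine ⟨m, ?_⟩
      rw [pow_succ, ← hcard, mul_assoc, ← hm, hmul]
    have h4 := (hp.out.pow_dvd_iff_le_factorization hC).1 h3
    omega

/-- from the pairs to the chains, for a group whose proper subgroups are fine -/
theorem dvd_SS_of [Fintype G] {g : G} {R : Subgroup G} (hR : IsPGroup p R)
    (hRg : ∀ a ∈ R, a * g = g * a) (hg : GenDiv p g)
    (h : ∀ A : Subgroup G, A ≠ ⊤ → P179H524.OpTrivial p A →
      ∀ g' : A, IsConj (g' : G) g → GenDiv p g') :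
    ((Nat.card R * p : ℕ) : ℤ) ∣ P179C.SS p g := by
  have hev : Ev p (WW p) g := by
    refine ev_WW_of fun A _ hA g' hg' => ?_
    rw [← genDiv_iff]
    by_cases hA1 : A = ⊤
    · subst hA1
      obtain ⟨c, hc⟩ := isConj_iff.1 hg'.symm
      have h1 := genDiv_of_equiv ((MulAut.conj c).trans Subgroup.topEquiv.symm) hg
      have h2 : ((MulAut.conj c).trans Subgroup.topEquiv.symm : G ≃* (⊤ : Subgroup G)) g = g' := by
        apply Subtype.ext
        change c * g * c⁻¹ = (g' : G)
        exact hc
      rwa [h2] at h1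
    · exact h A hA1 hA g' hg'
  have h9 := hev R hR hRg
  rw [NN_WW, mul_comm] at h9
  exact_mod_cast h9

end

end P179S
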