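import Vale.Agent.P179.H5.Sm2
import Vale.Agent.P179.H5.Cm2
import Vale.Agent.P179.H5.Hu2

/-!
# The pairs which generate the group together with a Sylow `p`-subgroup of the centralizer
-/

namespace P179S

open Subgroup P179B

open scoped Classical

section

variable {G : Type} [Group G] [Finite G]

variable {p : ℕ} [hp : Fact p.Prime]

theorem opTrivial_of_big (hO : ∀ R : Subgroup G, R.Normal → IsPGroup p R → R = ⊥)
    {K : Subgroup G} (hK : Big p K) : ∀ R : Subgroup K, R.Normal → IsPGroup p R → R = ⊥ := by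
  intro R hR hRp
  by_contra hne
  have hconj : ∀ x ∈ K, ∀ h ∈ R.map K.subtype, x * h * x⁻¹ ∈ R.map K.subtype := by
    rintro x hx _ ⟨r, hr, rfl⟩
    exact ⟨⟨x, hx⟩ * r * ⟨x, hx⟩⁻¹, hR.conj_mem r hr ⟨x, hx⟩, rfl⟩
  have h2 := van_ee hO K ⟨R.map K.subtype, map_subtype_le R, ?_, hRp.map _, ?_⟩
  · unfold ee at h2
    rw [if_pos hK] at h2
    exact one_ne_zero h2
  · intro h
    exact hne ((map_eq_bot_iff_of_injective _ K.subtype_injective).1 h)
  · intro x hx
    rw [mem_normalizer_iff]
    intro h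
    constructor
    · intro hh
      exact hconj x hx h hh
    · intro hh
      have h3 := hconj x⁻¹ (K.inv_mem hx) _ hh
      have h4 : x⁻¹ * (x * h * x⁻¹) * x⁻¹⁻¹ = h := by group
      rwa [h4] at h3

/-- the divisor for the subgroups of a proper subgroup -/
theorem card_inf_dvd {D K : Subgroup G} {g : G} (hDp : IsPGroup p D) (hDg : D ≤ centralizer {g})
    (hgK : g ∈ K) : Nat.card (D ⊓ K : Subgroup G) ∣
      p ^ (Nat.card (centralizer ({⟨g, hgK⟩} : Set K))).factorization p := by
  have hle : (D ⊓ K).subgroupOf K ≤ centralizer {(⟨g, hgK⟩ : K)} := by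
    intro a ha
    apply mem_centralizer_singleton_iff.2
    apply Subtype.ext
    exact mem_centralizer_singleton_iff.1 (hDg (mem_subgroupOf.1 ha).1)
  have h7 : Nat.card ((D ⊓ K).subgroupOf K) = Nat.card (D ⊓ K : Subgroup G) :=
    Nat.card_congr (subgroupOfEquivOfLe inf_le_right).toEquiv
  have h8 := Subgroup.card_dvd_of_le hle
  obtain ⟨m, hm⟩ := (IsPGroup.iff_card).1 (hDp.to_le (inf_le_left : D ⊓ K ≤ D))
  rw [h7, hm] at h8
  rw [hm]
  exact pow_dvd_pow p ((hp.out.pow_dvd_iff_le_factorization Nat.card_pos.ne').1 h8)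

omit hp in
theorem inTw_top_cj {D K : Subgroup G} {c : G} (hc : c ∈ D) (h : InTw D K ⊤) :
    InTw D (cj c K) ⊤ := by
  have h1 := inTw_cj hc h
  have h2 : cj c (⊤ : Subgroup G) = ⊤ := by
    rw [eq_top_iff]
    intro x _
    rw [mem_cj]
    exact mem_top _
  rwa [h2] at h1

/-- `p |D|` divides the number of pairs, if there is no suitable pair -/
theorem genDiv_of_noComm (hO : ∀ R : Subgroup G, R.Normal → IsPGroup p R → R = ⊥) {g : G}
    (hg : p ∣ orderOf g) {D : Subgroup G} (hDp : IsPGroup p D) (hDg : D ≤ centralizer {g})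
    (hcard : Nat.card D = p ^ (Nat.card (centralizer ({g} : Set G))).factorization p)
    (hsub : ∀ K : Subgroup G, K ≠ ⊤ → (∀ R : Subgroup K, R.Normal → IsPGroup p R → R = ⊥) →
      ∀ g' : K, (g' : G) = g → GenDiv p g')
    (h : ¬ IsCommWith p g D) : GenDiv p g := by
  have := Fintype.ofFinite G
  rw [genDiv_iff_regDiv hO hg]
  unfold RegDiv
  rw [← hcard]
  set S : Finset (G × G) := Finset.univ.filter fun t => t.1 * t.2 * t.1⁻¹ * t.2⁻¹ = g ∧
    ¬ p ∣ orderOf t.1 ∧ BigPair p t.1 t.2 with hS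
  have hreg : regCount p g = S.card := by
    unfold regCount
    rw [Nat.card_eq_fintype_card, Fintype.card_subtype]
    congr 1
    ext t
    rw [hS, Finset.mem_filter, Finset.mem_filter]
    rfl
  rw [hreg]
  have hgc : ∀ c ∈ D, c * g = g * c := fun c hc => mem_centralizer_singleton_iff.1 (hDg hc)
  have hfree' : ∀ t : G × G, Big p (gn t) → ∀ d ∈ D, cn d t = t → d = 1 := by
    intro t ht d hd hdt
    obtain ⟨m, hm⟩ := hDp ⟨d, hd⟩
    exact free_of_big hO ht ⟨m, congrArg Subtype.val hm⟩ hdt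
  -- the pairs whose tower does not reach the group
  have hlow : p * Nat.card D ∣ (S.filter fun t => ¬ InTw D (gn t) ⊤).card := by
    refine tower_dvd hDp S ?_ ?_ fun K hK => ?_
    · intro d hd t ht
      rw [hS, Finset.mem_filter] at ht ⊢
      obtain ⟨-, h1, h2, h3⟩ := ht
      refine ⟨Finset.mem_univ _, ?_, ?_, ?_⟩
      · have h4 := cm_cn d t
        have h5 : cm t = g := h1
        rw [h5, hgc d hd, mul_inv_cancel_right] at h4
        exact h4
      · have h4 : orderOf (d * t.1 * d⁻¹) = orderOf t.1 := by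
          have := MulEquiv.orderOf_eq (MulAut.conj d) t.1
          simpa using this
        change ¬ p ∣ orderOf (d * t.1 * d⁻¹)
        rw [h4]
        exact h2
      · have h4 : Big p (gn (cn d t)) := by
          rw [gn_cn]
          exact big_cj h3
        exact h4
    · intro t ht d hd hdt
      rw [hS, Finset.mem_filter] at ht
      exact hfree' t ht.2.2.2 d hd hdt
    by_cases hne : (S.filter fun t => gn t ≤ K) = ∅
    · rw [hne, Finset.card_empty]
      exact dvd_zero _
    obtain ⟨t₀, ht₀⟩ := Finset.nonempty_iff_ne_empty.2 hne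
    rw [Finset.mem_filter, hS, Finset.mem_filter] at ht₀
    obtain ⟨⟨-, h3, h4, h5⟩, h6⟩ := ht₀
    have hx : t₀.1 ∈ K := h6 (fst_mem_gn t₀)
    have hy : t₀.2 ∈ K := h6 (snd_mem_gn t₀)
    have hBK : Big p K := fun z hz => h6 (h5 z hz)
    have hgK : g ∈ K := by
      rw [← h3]
      exact K.mul_mem (K.mul_mem (K.mul_mem hx hy) (K.inv_mem hx)) (K.inv_mem hy)
    have hOK := opTrivial_of_big hO hBK
    have hdiv := hsub K hK hOK ⟨g, hgK⟩ rfl
    have hoK : orderOf (⟨g, hgK⟩ : K) = orderOf g := Subgroup.orderOf_mk g hgK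
    rw [genDiv_iff_regDiv hOK (by rw [hoK]; exact hg)] at hdiv
    unfold RegDiv at hdiv
    have hcount : regCount p (⟨g, hgK⟩ : K) = (S.filter fun t => gn t ≤ K).card := by
      unfold regCount
      rw [Nat.card_eq_fintype_card, Fintype.card_subtype]
      refine Finset.card_bij (fun t _ => ((t.1 : G), (t.2 : G))) ?_ ?_ ?_
      · rintro ⟨x, y⟩ ht
        rw [Finset.mem_filter] at ht
        obtain ⟨-, h7, h8, h9⟩ := ht
        rw [Finset.mem_filter, hS, Finset.mem_filter]
        refine ⟨⟨Finset.mem_univ _, congrArg Subtype.val h7, ?_, ?_⟩, ?_⟩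
        · rwa [Subgroup.orderOf_coe]
        · intro z hz
          have hzK := hBK z hz
          have h10 := h9 ⟨z, hzK⟩ (by rwa [Subgroup.orderOf_mk])
          have h11 : (closure {x, y}).map K.subtype = closure {(x : G), (y : G)} := by
            rw [MonoidHom.map_closure, Set.image_pair]
            rfl
          rw [← h11]
          exact ⟨⟨z, hzK⟩, h10, rfl⟩
        · refine (closure_le K).2 ?_
          rintro w (rfl | rfl)
          · exact x.2
          · exact y.2
      · rintro ⟨x, y⟩ _ ⟨x', y'⟩ _ h7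
        have h8 := Prod.ext_iff.1 h7
        exact Prod.ext (Subtype.ext h8.1) (Subtype.ext h8.2)
      · rintro ⟨x, y⟩ ht
        rw [Finset.mem_filter, hS, Finset.mem_filter] at ht
        obtain ⟨⟨-, h7, h8, h9⟩, h10⟩ := ht
        have hx' : x ∈ K := h10 (fst_mem_gn (x, y))
        have hy' : y ∈ K := h10 (snd_mem_gn (x, y))
        refine ⟨(⟨x, hx'⟩, ⟨y, hy'⟩), ?_, rfl⟩
        rw [Finset.mem_filter]
        refine ⟨Finset.mem_univ _, Subtype.ext h7, ?_, ?_⟩
        · rwa [Subgroup.orderOf_mk]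
        · intro z hz
          have h11 := h9 (z : G) (by rwa [Subgroup.orderOf_coe])
          have h12 : (closure {(⟨x, hx'⟩ : K), ⟨y, hy'⟩}).map K.subtype = closure {x, y} := by
            rw [MonoidHom.map_closure, Set.image_pair]
            rfl
          rw [← h12] at h11
          obtain ⟨w, hw, hwz⟩ := h11
          have h13 : w = z := Subtype.ext hwz
          rwa [← h13]
    rw [← hcount]
    exact dvd_trans (Nat.mul_dvd_mul_left p (card_inf_dvd hDp hDg hgK)) hdiv
  -- the pairs whose tower reaches the group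
  have hQD : ∀ c ∈ D, ∀ K : Subgroup G, (Big p K ∧ InTw D K ⊤) → (Big p (cj c K) ∧
      InTw D (cj c K) ⊤) := fun c hc K h1 => ⟨big_cj h1.1, inTw_top_cj hc h1.2⟩
  have h1 := ratC_count (p := p) (g := g) (Q := fun K => Big p K ∧ InTw D K ⊤) hQD hDp hgc
    (fun t ht z hz hzt => free_of_big hO (ξ := t) ht.1 hz hzt)
  have h2 : Nat.card {t : G × G // InC p (fun K => Big p K ∧ InTw D K ⊤) g t ∧
      RatC p g t.1} = 0 := by
    rw [Nat.card_eq_zero]
    left
    refine ⟨?_⟩
    rintro ⟨⟨x, y⟩, ⟨h3, h4, h6, h7⟩, h8⟩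
    exact h ⟨x, y, h3, h4, h6, fun z => mem_mul_of_inTw h7 (mem_top z), h8⟩
  rw [h2, Nat.cast_zero, sub_zero] at h1
  have h3 : Nat.card {t : G × G // InC p (fun K => Big p K ∧ InTw D K ⊤) g t} =
      (S.filter fun t => InTw D (gn t) ⊤).card := by
    rw [Nat.card_eq_fintype_card, Fintype.card_subtype]
    congr 1
    ext t
    rw [Finset.mem_filter, Finset.mem_filter, hS, Finset.mem_filter]
    constructor
    · rintro ⟨-, h4, h5, h6, h7⟩
      exact ⟨⟨Finset.mem_univ _, h4, h5, h6⟩, h7⟩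
    · rintro ⟨⟨-, h4, h5, h6⟩, h7⟩
      exact ⟨Finset.mem_univ _, h4, h5, h6, h7⟩
  rw [h3] at h1
  have h4 : p * Nat.card D ∣ (S.filter fun t => InTw D (gn t) ⊤).card := by
    exact_mod_cast h1
  have h5 := dvd_add h4 hlow
  rwa [Finset.card_filter_add_card_filter_not] at h5

end

end P179S
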