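import Vale.Agent.P179.H143.RZ1
import Vale.Agent.P179.H166.Z6

/-!
# The sharpened commutator criterion: the double induction with given blocks
-/

namespace P179C

open Subgroup Finset P179H524 P179A P179K P179R P179Y MonoidAlgebra

open scoped Classical

universe u

/-- **The criterion at the defect groups, with given blocks.** For every nontrivial `p`-subgroup
`R` of a group in the class without normal `p`-subgroups there is `v ≠ 1` in the centre of `R` such
that the divisibility holds for all `g` with `p`-part `v` and Sylow `p`-subgroup `R` of `C_G(g)`,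
or the congruence holds for all blocks with defect group `R`. -/
def KeyB (p : ℕ) {k : Type u} [Field k] (red : integralClosure ℤ ℂ →+* k)
    (𝒞 : ∀ (G : Type) [Group G], Prop) : Prop :=
  ∀ (G : Type) [Group G] [Finite G] [Fintype G] (R : Subgroup G), 𝒞 G → OpTrivial p G →
    IsPGroup p R → R ≠ ⊥ → (∃ v ∈ R, v ≠ 1 ∧ (∀ a ∈ R, a * v = v * a) ∧
      ∀ (g : G) (q : ℕ), (∀ x : G, ∃ n : ℕ, (x ^ q) ^ (p ^ n) = 1) →
        (∀ x : G, (∃ n, x ^ p ^ n = 1) → x ^ q = x) → g ^ q = v → (∀ a ∈ R, a * g = g * a) →
        Nat.card R = p ^ (Nat.card (centralizer ({g} : Set G))).factorization p →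
        ((Nat.card R * p : ℕ) : ℤ) ∣ SS p g) ∨
      ∀ B : MonoidAlgebra k G, IsBlock B → IsDefectGroup B R →
        numSimpleIn B ≡ numWeightsIn p red B [MOD p]

variable {p : ℕ} [hp : Fact p.Prime] {k : Type u} [Field k] [IsAlgClosed k] [CharP k p]
  {red : integralClosure ℤ ℂ →+* k} {𝒞 : ∀ (G : Type) [Group G], Prop}

/-- **The double induction.** -/
theorem class_mainB (h𝒞 : SubQuot p 𝒞) (hkey : KeyB p red 𝒞) (O : ValuationSubring ℂ)
    [CharP (IsLocalRing.ResidueField O) p]
    (hred : ∀ (a : ℂ) (ha : a ∈ integralClosure ℤ ℂ), O.valuation a < 1 ↔ red ⟨a, ha⟩ = 0) :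
    ∀ (n : ℕ) (G : Type) [Group G] [Finite G], Nat.card G = n → 𝒞 G → ∀ (z : G → ℤ), IsCF z →
      Cong O (Nat.card G) (nL p z) (nW p z) := by
  intro n
  induction n using Nat.strong_induction_on with
  | _ n ih =>
  intro G _ _ hn hG z hz
  have := Fintype.ofFinite G
  by_cases hO : OpTrivial p G
  · -- the stabilisers of the chains
    have hch : ∀ (z : G → ℤ), IsCF z → ∀ s : Finset (Subgroup G), IsPChain p s → s.Nonempty →
        Cong O (Nat.card (stab s)) (nL p (res (stab s) z)) (nW p (res (stab s) z)) := by
      intro z hz s hs hne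
      exact ih (Nat.card (stab s)) (hn ▸ card_stab_lt p hO hs hne) (stab s) rfl
        (h𝒞.sub G _ hG) (res (stab s) z) (isCF_res _ hz)
    -- the blocks
    have hblk : ∀ (m : ℕ) (B : MonoidAlgebra k G), IsBlock B → ∀ D : Subgroup G,
        IsDefectGroup B D → Nat.card D = m →
        numSimpleIn B ≡ numWeightsIn p red B [MOD p] := by
      intro m
      induction m using Nat.strong_induction_on with
      | _ m ihm =>
      intro B hB D hD hDm
      -- the elements with small centralisers
      have hsmall : ∀ g : G, p ∣ orderOf g →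
          p ^ (Nat.card (centralizer ({g} : Set G))).factorization p < m →
          ((Nat.card (centralizer ({g} : Set G)) * p : ℕ) : ℤ) ∣ SS p g := by
        intro g hg hlt
        refine dvd_SS_of_cong red O hred hg ?_ (fun s hs hne => hch _ (isCF_ind _) s hs hne)
        obtain ⟨Z, hZ⟩ := exists_central k (isCF_ind (ConjClasses.mk g))
        refine cong_of_blocks' p red O hred (isCF_ind _) Z hZ fun B' hB' hBZ => ?_
        obtain ⟨D', hD'⟩ := exists_defectGroup B' hB'.1
        obtain ⟨y, hy, hDy⟩ := exists_of_centralChar_ne p hB' hD' Z.2 hBZ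
        refine ihm (Nat.card D') (lt_of_le_of_lt ?_ hlt) B' hB' D' hD' rfl
        have hgy : IsConj g y := by
          by_contra h
          apply hy
          rw [hZ y]
          have h0 : ind (ConjClasses.mk g) y = 0 := by
            unfold ind
            rw [if_neg]
            intro h2
            exact h (ConjClasses.mk_eq_mk_iff_isConj.1 h2).symm
          rw [h0, Int.cast_zero]
        obtain ⟨c, rfl⟩ := isConj_iff.1 hgy
        rw [← card_centralizer_conj c g]
        have hD'p : IsPGroup p D' := (exists_BP_of_block (p := p) B' hB' D' hD').1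
        obtain ⟨j, hj⟩ := (IsPGroup.iff_card).1 hD'p
        have h1 : Nat.card D' ∣ Nat.card (centralizer ({c * g * c⁻¹} : Set G)) :=
          Subgroup.card_dvd_of_le hDy
        rw [hj] at h1 ⊢
        exact Nat.pow_le_pow_right hp.out.pos
          ((hp.out.pow_dvd_iff_le_factorization Nat.card_pos.ne').1 h1)
      obtain ⟨x, l, hl, hlz, hBx, hlx, hSyl, hxreg⟩ := exists_elt_of_block (p := p) hB hD
      have hDp : IsPGroup p D := hSyl.pgp
      have hb : IsCF (fun g => B.coeff g) := (P179C.mem_center_iff _).1 hB.1
      have hbb : conv (fun g => B.coeff g) (fun g => B.coeff g) = fun g => B.coeff g := by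
        funext g
        rw [← coeff_mul_eq_conv, hB.2.1]
      -- the supports of the multiples of `B`
      have hsupp : ∀ c : MonoidAlgebra k G, c ∈ Subalgebra.center k (MonoidAlgebra k G) →
          ∀ y, (B * c).coeff y ≠ 0 → ∀ P : Subgroup G, IsPGroup p P → P ≤ centralizer {y} →
            ∃ t : G, ∀ a ∈ P, t⁻¹ * a * t ∈ D := by
        intro c hc y hy
        have h1 := SuppIn.conv p (suppIn_of_isDefectGroup (p := p) hD) hb
          ((P179C.mem_center_iff _).1 hc)
        rw [coeff_mul_eq_conv] at hy
        exact h1 y hy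
      by_cases hD1 : D = ⊥
      · have hOld : OldAt p D := by rw [hD1]; exact oldAt_bot
        refine block_modEq_of_supp p red O hred hB hB.1 (by
          rw [centralChar_self B hB]; exact one_ne_zero) fun C hC => ?_
        refine cong_of_FF O (ind C) (isCF_ind C) (hch _ (isCF_ind C)) ?_
        rw [hB.2.1] at hC
        refine step1_local O (ind C) (isCF_ind C) ?_ ?_
        · intro g hg hpg
          exact out_of_ind hB.1 hC hg (osima_g p B hB.1 hB.2.1 g hpg)
        · rintro g hg hgp ⟨e, he⟩
          refine hOld.dvd g hg hgp fun P hP hPg => ?_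
          have h1 := out_of_ind hB.1 hC he
          rw [← hB.2.1] at h1
          refine hsupp B hB.1 _ h1 P hP ?_
          intro a ha
          have h5 := mem_centralizer_singleton_iff.mp (hPg ha)
          rw [mem_centralizer_singleton_iff]
          exact Commute.pow_right (Commute.pow_right h5 _) _
      · rcases hkey G D hG hO hDp hD1 with ⟨v, hv, hv1, hvc, hkey1⟩ | hdirect
        swap
        · exact hdirect B hB hD
        have hnew : NewAtS p D v := by
          intro g q hq hq' hgv P hPD hP hPg hvP hcard
          by_cases hPe : P = D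
          · subst hPe
            exact hkey1 g q hq hq' hgv hPg hcard
          · have hlt : Nat.card P < Nat.card D := by
              refine lt_of_le_of_ne (Subgroup.card_le_of_le hPD) ?_
              intro h
              exact hPe (Subgroup.eq_of_le_of_card_ge hPD h.ge)
            have hpg : p ∣ orderOf g := by
              have h1 : orderOf v ∣ orderOf g := by rw [← hgv]; exact orderOf_pow_dvd q
              refine dvd_trans ?_ h1
              obtain ⟨n', hn'⟩ := hP ⟨v, hvP⟩
              have h2 : v ^ p ^ n' = 1 := congrArg Subtype.val hn'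
              obtain ⟨j, -, hj⟩ := (Nat.dvd_prime_pow hp.out).1 (orderOf_dvd_of_pow_eq_one h2)
              rw [hj]
              refine dvd_pow_self p ?_
              rintro rfl
              rw [pow_zero, orderOf_eq_one_iff] at hj
              exact hv1 hj
            refine dvd_trans ?_ (hsmall g hpg (by rw [← hcard, ← hDm]; exact hlt))
            have h2 : Nat.card P ∣ Nat.card (centralizer ({g} : Set G)) :=
              Subgroup.card_dvd_of_le fun a ha => mem_centralizer_singleton_iff.2 (hPg a ha)
            exact_mod_cast Nat.mul_dvd_mul_right h2 p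
        have hc := mkF_mem (isCF_cls (k := k) (x * v))
        obtain ⟨n', hn', hln⟩ := BP.cls_mul hl hSyl hxreg hv hvc
        refine block_modEq_of_supp p red O hred hB hc (by
          rw [← hlz _ (isCF_cls _), hln]
          refine mul_ne_zero ?_ hlx
          rwa [Ne, CharP.cast_eq_zero_iff k p]) fun C hC => ?_
        refine cong_of_FF O (ind C) (isCF_ind C) (hch _ (isCF_ind C)) ?_
        have hy : ∀ y, ind C y ≠ 0 → conv (fun g => B.coeff g) (cls k (x * v)) y ≠ 0 := by
          intro y hy
          have h1 := out_of_ind (mul_mem hB.1 hc) hC hy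
          rw [coeff_mul_eq_conv] at h1
          simpa only [coeff_mkF] using h1
        have hFF := FF_dvd_local (p := p) (ind C) (isCF_ind C) fun y hy' =>
          NewAtS.dvd hSyl hxreg hv hvc hnew hb hbb (hy y hy')
        have hvp : ∃ n : ℕ, v ^ p ^ n = 1 := by
          obtain ⟨a, ha⟩ := hDp ⟨v, hv⟩
          exact ⟨a, congrArg Subtype.val ha⟩
        have hxv : Commute x v := (mem_centralizer_singleton_iff.1 (hSyl.le hv)).symm
        have hdz := dz_sing p O (ind C) (isCF_ind C) (fun y hy' => by
          by_contra hyreg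
          have hbot : IsPGroup p (⊥ : Subgroup G) := IsPGroup.of_bot
          obtain ⟨s, hs1, -⟩ := supp_mul_cls (p := p) hb hbb hxreg hvp hxv
            (SylCent.mul_central hSyl hv hvc hxreg) (hy y hy') ⊥ hbot bot_le
          rw [pr_of_regular hyreg, mul_inv_cancel, mul_one, inv_mul_cancel] at hs1
          exact hv1 hs1.symm)
        have hG0 : (Nat.card G : ℂ) ≠ 0 := by exact_mod_cast Nat.card_pos.ne'
        have h8 := valuation_of_dvd O Nat.card_pos.ne' hFF
        unfold Cong at hdz ⊢
        rw [Nat.cast_one, div_one, sub_zero] at hdz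
        rw [sub_div, mul_div_cancel_left₀ _ hG0]
        exact O.valuation.map_sub_lt h8 hdz
    obtain ⟨Z, hZ⟩ := exists_central k hz
    refine cong_of_blocks' p red O hred hz Z hZ fun B hB _ => ?_
    obtain ⟨D, hD⟩ := exists_defectGroup B hB.1
    exact hblk (Nat.card D) B hB D hD rfl
  · simp only [OpTrivial, not_forall] at hO
    obtain ⟨R, hR, hRp, hR1⟩ := hO
    have hq1 := nL_quot p R hRp z hz
    have hq2 := nW_quot p R hRp z hz
    have h2 : Nat.card G = Nat.card (G ⧸ R) * Nat.card R :=
      card_eq_card_quotient_mul_card_subgroup R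
    have h3 : 1 < Nat.card R := by
      rw [Subgroup.one_lt_card_iff_ne_bot]; exact hR1
    have h4 : 0 < Nat.card (G ⧸ R) := Nat.card_pos
    have h5 := ih (Nat.card (G ⧸ R)) (by rw [← hn, h2]; nlinarith) (G ⧸ R) rfl
      (h𝒞.quot G R hRp hG)
      (push (QuotientGroup.mk' R) z) (isCF_push _ (QuotientGroup.mk'_surjective R) hz)
    unfold Cong at h5 ⊢
    rw [hq1, hq2, h2]
    have h6 : (Nat.card R : ℂ) ≠ 0 := by exact_mod_cast Nat.card_pos.ne'
    have h7 : (Nat.card (G ⧸ R) : ℂ) ≠ 0 := by exact_mod_cast h4.ne'
    convert h5 using 2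
    push_cast
    field_simp

/-- the congruence for all blocks -/
theorem class_blocksB (h𝒞 : SubQuot p 𝒞) (hkey : KeyB p red 𝒞) {G : Type} [Group G] [Finite G]
    (hG : 𝒞 G) (B : MonoidAlgebra k G) (hB : IsBlock B) :
    numSimpleIn B ≡ numWeightsIn p red B [MOD p] := by
  have := Fintype.ofFinite G
  obtain ⟨O, hO, hred⟩ := exists_O p red
  refine block_modEq_of_supp p red O hred hB hB.1 (by
    rw [centralChar_self B hB]; exact one_ne_zero) fun C _ => ?_
  exact class_mainB h𝒞 hkey O hred (Nat.card G) G rfl hG (ind C) (isCF_ind C)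

end P179C
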