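import Vale.Agent.P179.H5.Sm3
import Vale.Agent.P179.H5.Ga4

/-!
# The pairs of elements of small order which generate the group together with a `p`-subgroup
-/

namespace P179S

open Subgroup P179B

open scoped Classical

section

variable {G : Type} [Group G] [Finite G]

/-- the pairs without conditions on the product -/
noncomputable def uCount (p a b : ℕ) {G : Type} [Group G] (g : G) : ℕ :=
  Nat.card {t : G × G // InX a b (Big p) g t}

/-- the congruence between the two kinds of pairs -/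
def USub (p a b : ℕ) : Prop :=
  ∀ (G : Type) [Group G] [Finite G], (∀ R : Subgroup G, R.Normal → IsPGroup p R → R = ⊥) →
    ∀ g : G, p ∣ orderOf g →
      ((p * p ^ (Nat.card (centralizer ({g} : Set G))).factorization p : ℕ) : ℤ) ∣
        (genCount p g : ℤ) - uCount p a b g

theorem gen_sub_u {p : ℕ} [hp : Fact p.Prime] {n b : ℕ} {τ : G × G → G × G}
    (hτ : Twist (p ^ n) τ)
    (hO : ∀ R : Subgroup G, R.Normal → IsPGroup p R → R = ⊥) {g : G} (hg : p ∣ orderOf g)
    (hcard : Nat.card {t : (G × G) × G // (cm t.1 = g ∧ Big p (gn t.1)) ∧ τ t.1 = cn t.2 t.1 ∧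
        t.2 ^ p ^ n = g} = Nat.card {t : G × G // t.1 ^ p ^ n = 1 ∧ t.2 ^ b = 1 ∧
          (t.1 * t.2) ^ p ^ n = g ∧ ∀ x : G, ¬ p ∣ orderOf x → x ∈ closure {t.1, t.2}}) :
    ((p * p ^ (Nat.card (centralizer ({g} : Set G))).factorization p : ℕ) : ℤ) ∣
      (genCount p g : ℤ) - uCount p (p ^ n) b g := by
  obtain ⟨P, hP, hPg, hPc, j, hj, hjp⟩ := exists_sylow_cent hg
  have h1 := stepB hτ hP hPg hj hjp (freeAt_of hO g)
  rw [hcard, hPc] at h1
  exact h1

theorem uSub2 : USub 2 4 2 := by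
  intro G _ _ hO g hg
  have := Fact.mk Nat.prime_two
  exact gen_sub_u (p := 2) (n := 2) twist4 hO hg (card_tri2 g)

theorem uSub3 : USub 3 3 3 := by
  intro G _ _ hO g hg
  have := Fact.mk Nat.prime_three
  exact gen_sub_u (p := 3) (n := 1) twist3 hO hg (card_tri3 g)

variable {p : ℕ} [hp : Fact p.Prime]

/-- `p |D|` divides the number of pairs, if there is no suitable triangle -/
theorem genDiv_of_noTri {n b : ℕ} (hu : USub p (p ^ n) b)
    (hO : ∀ R : Subgroup G, R.Normal → IsPGroup p R → R = ⊥) {g : G}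
    (hg : p ∣ orderOf g) {D : Subgroup G} (hDp : IsPGroup p D) (hDg : D ≤ centralizer {g})
    (hcard : Nat.card D = p ^ (Nat.card (centralizer ({g} : Set G))).factorization p)
    (hsub : ∀ K : Subgroup G, K ≠ ⊤ → (∀ R : Subgroup K, R.Normal → IsPGroup p R → R = ⊥) →
      ∀ g' : K, (g' : G) = g → GenDiv p g')
    (h : ¬ IsTriangle p (p ^ n) b g D) : GenDiv p g := by
  have := Fintype.ofFinite G
  set S : Finset (G × G) := Finset.univ.filter fun t => InX (p ^ n) b (Big p) g t with hS
  have hreg : uCount p (p ^ n) b g = S.card := by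
    unfold uCount
    rw [Nat.card_eq_fintype_card, Fintype.card_subtype]
  have hgc : ∀ c ∈ D, c * g = g * c := fun c hc => mem_centralizer_singleton_iff.1 (hDg hc)
  have hfree' : ∀ t : G × G, Big p (gn t) → ∀ d ∈ D, cn d t = t → d = 1 := by
    intro t ht d hd hdt
    obtain ⟨m, hm⟩ := hDp ⟨d, hd⟩
    exact free_of_big hO ht ⟨m, congrArg Subtype.val hm⟩ hdt
  -- the pairs whose tower does not reach the group
  have hlow : p * Nat.card D ∣ (S.filter fun t => ¬ InTw D (gn t) ⊤).card := by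
    refine tower_dvd hDp S ?_ ?_ fun K hK => ?_
    · intro d hd t ht
      rw [hS, Finset.mem_filter] at ht ⊢
      obtain ⟨-, h1, h2, h3, h4⟩ := ht
      refine ⟨Finset.mem_univ _, ?_, ?_, ?_, ?_⟩
      · change (d * t.1 * d⁻¹) ^ p ^ n = 1
        rw [conj_pow, h1, mul_one, mul_inv_cancel]
      · change (d * t.2 * d⁻¹) ^ b = 1
        rw [conj_pow, h2, mul_one, mul_inv_cancel]
      · change (d * t.1 * d⁻¹ * (d * t.2 * d⁻¹)) ^ p ^ n = g
        have e1 : d * t.1 * d⁻¹ * (d * t.2 * d⁻¹) = d * (t.1 * t.2) * d⁻¹ := by group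
        rw [e1, conj_pow, h3, hgc d hd, mul_inv_cancel_right]
      · have h5 : Big p (gn (cn d t)) := by
          rw [gn_cn]
          exact big_cj h4
        exact h5
    · intro t ht d hd hdt
      rw [hS, Finset.mem_filter] at ht
      exact hfree' t ht.2.2.2.2 d hd hdt
    by_cases hne : (S.filter fun t => gn t ≤ K) = ∅
    · rw [hne, Finset.card_empty]
      exact dvd_zero _
    obtain ⟨t₀, ht₀⟩ := Finset.nonempty_iff_ne_empty.2 hne
    rw [Finset.mem_filter, hS, Finset.mem_filter] at ht₀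
    obtain ⟨⟨-, -, -, h3, h5⟩, h6⟩ := ht₀
    have hx : t₀.1 ∈ K := h6 (fst_mem_gn t₀)
    have hy : t₀.2 ∈ K := h6 (snd_mem_gn t₀)
    have hBK : Big p K := fun z hz => h6 (h5 z hz)
    have hgK : g ∈ K := by
      rw [← h3]
      exact K.pow_mem (K.mul_mem hx hy) _
    have hOK := opTrivial_of_big hO hBK
    have hdiv := hsub K hK hOK ⟨g, hgK⟩ rfl
    have hoK : orderOf (⟨g, hgK⟩ : K) = orderOf g := Subgroup.orderOf_mk g hgK
    have hu1 := hu K hOK ⟨g, hgK⟩ (by rw [hoK]; exact hg)
    unfold GenDiv at hdiv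
    have hdiv' : ((p * p ^ (Nat.card (centralizer
        ({⟨g, hgK⟩} : Set K))).factorization p : ℕ) : ℤ) ∣ (genCount p (⟨g, hgK⟩ : K) : ℤ) := by
      exact_mod_cast hdiv
    have hdiv2 := (dvd_iff_dvd_of_dvd_sub hu1).1 hdiv'
    have hdiv3 : p * p ^ (Nat.card (centralizer
        ({⟨g, hgK⟩} : Set K))).factorization p ∣ uCount p (p ^ n) b (⟨g, hgK⟩ : K) := by
      exact_mod_cast hdiv2
    have hcount : uCount p (p ^ n) b (⟨g, hgK⟩ : K) = (S.filter fun t => gn t ≤ K).card := by
      unfold uCount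
      rw [Nat.card_eq_fintype_card, Fintype.card_subtype]
      refine Finset.card_bij (fun t _ => ((t.1 : G), (t.2 : G))) ?_ ?_ ?_
      · rintro ⟨x, y⟩ ht
        rw [Finset.mem_filter] at ht
        obtain ⟨-, h7, h8, h9, h10⟩ := ht
        rw [Finset.mem_filter, hS, Finset.mem_filter]
        refine ⟨⟨Finset.mem_univ _, congrArg Subtype.val h7, congrArg Subtype.val h8,
          congrArg Subtype.val h9, ?_⟩, ?_⟩
        · intro z hz
          have hzK := hBK z hz
          have h12 := h10 ⟨z, hzK⟩ (by rwa [Subgroup.orderOf_mk])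
          have h11 : (closure {x, y}).map K.subtype = closure {(x : G), (y : G)} := by
            rw [MonoidHom.map_closure, Set.image_pair]
            rfl
          change z ∈ closure {(x : G), (y : G)}
          rw [← h11]
          exact ⟨⟨z, hzK⟩, h12, rfl⟩
        · refine (closure_le K).2 ?_
          rintro w (rfl | rfl)
          · exact x.2
          · exact y.2
      · rintro ⟨x, y⟩ _ ⟨x', y'⟩ _ h7
        have h8 := Prod.ext_iff.1 h7
        exact Prod.ext (Subtype.ext h8.1) (Subtype.ext h8.2)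
      · rintro ⟨x, y⟩ ht
        rw [Finset.mem_filter, hS, Finset.mem_filter] at ht
        obtain ⟨⟨-, h7, h8, h9, h14⟩, h10⟩ := ht
        have hx' : x ∈ K := h10 (fst_mem_gn (x, y))
        have hy' : y ∈ K := h10 (snd_mem_gn (x, y))
        refine ⟨(⟨x, hx'⟩, ⟨y, hy'⟩), ?_, rfl⟩
        rw [Finset.mem_filter]
        refine ⟨Finset.mem_univ _, Subtype.ext h7, Subtype.ext h8, Subtype.ext h9, ?_⟩
        intro z hz
        have h11 := h14 (z : G) (by rwa [Subgroup.orderOf_coe])
        have h12 : (closure {(⟨x, hx'⟩ : K), ⟨y, hy'⟩}).map K.subtype = closure {x, y} := by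
          rw [MonoidHom.map_closure, Set.image_pair]
          rfl
        change (z : G) ∈ closure {x, y} at h11
        rw [← h12] at h11
        obtain ⟨w, hw, hwz⟩ := h11
        have h13 : w = z := Subtype.ext hwz
        rwa [← h13]
    rw [← hcount]
    exact dvd_trans (Nat.mul_dvd_mul_left p (card_inf_dvd hDp hDg hgK)) hdiv3
  -- the pairs whose tower reaches the group
  have hQD : ∀ c ∈ D, ∀ K : Subgroup G, (Big p K ∧ InTw D K ⊤) → (Big p (cj c K) ∧
      InTw D (cj c K) ⊤) := fun c hc K h1 => ⟨big_cj h1.1, inTw_top_cj hc h1.2⟩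
  have h1 := ratP_count (n := n) (b := b) (Q := fun K => Big p K ∧ InTw D K ⊤) hg hQD hDp hgc
    (fun t ht z hz hzt => free_of_big hO (ξ := t) ht.2.2.2.1 hz hzt)
  have h2 : Nat.card {t : G × G // InX (p ^ n) b (fun K => Big p K ∧ InTw D K ⊤) g t ∧
      RatP D (p ^ n) (t.1 * t.2)} = 0 := by
    rw [Nat.card_eq_zero]
    left
    refine ⟨?_⟩
    rintro ⟨⟨s, t⟩, ⟨h3, h4, h5, h6, h7⟩, h8⟩
    exact h ⟨s, t, h3, h4, h5, h6, fun z => mem_mul_of_inTw h7 (mem_top z), h8⟩
  rw [h2, Nat.cast_zero, sub_zero] at h1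
  have h3 : Nat.card {t : G × G // InX (p ^ n) b (fun K => Big p K ∧ InTw D K ⊤) g t} =
      (S.filter fun t => InTw D (gn t) ⊤).card := by
    rw [Nat.card_eq_fintype_card, Fintype.card_subtype]
    congr 1
    ext t
    rw [Finset.mem_filter, Finset.mem_filter, hS, Finset.mem_filter]
    constructor
    · rintro ⟨-, h4, h5, h6, h7, h8⟩
      exact ⟨⟨Finset.mem_univ _, h4, h5, h6, h7⟩, h8⟩
    · rintro ⟨⟨-, h4, h5, h6, h7⟩, h8⟩
      exact ⟨Finset.mem_univ _, h4, h5, h6, h7, h8⟩
  rw [h3] at h1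
  have h4 : p * Nat.card D ∣ (S.filter fun t => InTw D (gn t) ⊤).card := by
    exact_mod_cast h1
  have h5 := dvd_add h4 hlow
  rw [Finset.card_filter_add_card_filter_not, ← hreg, hcard] at h5
  have h6 : ((p * p ^ (Nat.card (centralizer ({g} : Set G))).factorization p : ℕ) : ℤ) ∣
      (uCount p (p ^ n) b g : ℤ) := by exact_mod_cast h5
  have h7 := (dvd_iff_dvd_of_dvd_sub (hu G hO g hg)).2 h6
  unfold GenDiv
  exact_mod_cast h7

end

end P179S
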