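import Vale.Agent.P179.H5.Sm4
import Vale.Agent.P179.H5.Sm6

/-!
# The reduction, 2: the minimal counterexample
-/

namespace P179S

open Subgroup P179B

universe u

/-- The groups in the class of order at most `n`. -/
def UpTo (𝒞 : ∀ (G : Type) [Group G], Prop) (n : ℕ) : ∀ (G : Type) [Group G], Prop :=
  fun G _ => 𝒞 G ∧ Nat.card G ≤ n

theorem upTo_closed {p : ℕ} {𝒞 : ∀ (G : Type) [Group G], Prop} (h𝒞 : SectionClosed p 𝒞) (n : ℕ) :
    SectionClosed p (UpTo 𝒞 n) := by
  constructor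
  · intro G _ _ H hG
    exact ⟨h𝒞.1 G H hG.1, (Nat.card_le_card_of_injective _ H.subtype_injective).trans hG.2⟩
  · intro G _ _ N _ hN hG
    exact ⟨h𝒞.2 G N hN hG.1,
      (Nat.card_le_card_of_surjective _ (QuotientGroup.mk'_surjective N)).trans hG.2⟩

theorem card_lt_of_ne_top {G : Type} [Group G] [Finite G] {H : Subgroup G} (hH : H ≠ ⊤) :
    Nat.card H < Nat.card G := by
  have h1 : Nat.card H ≤ Nat.card G := Nat.card_le_card_of_injective _ H.subtype_injective
  refine lt_of_le_of_ne h1 fun h2 => hH ?_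
  exact Subgroup.eq_top_of_card_eq H h2

section

variable {p : ℕ} [hp : Fact p.Prime] {k : Type u} [Field k] [IsAlgClosed k] [CharP k p]
  {𝒞 : ∀ (G : Type) [Group G], Prop}

/-- the divisibility, if one of the two kinds of pairs does not exist -/
theorem genDiv_of_not {G : Type} [Group G] [Finite G]
    (hO : ∀ R : Subgroup G, R.Normal → IsPGroup p R → R = ⊥) {g : G}
    (hg : p ∣ orderOf g) {D : Subgroup G} (hDp : IsPGroup p D) (hDg : D ≤ centralizer {g})
    (hcard : Nat.card D = p ^ (Nat.card (centralizer ({g} : Set G))).factorization p)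
    (hsub : ∀ K : Subgroup G, K ≠ ⊤ → (∀ R : Subgroup K, R.Normal → IsPGroup p R → R = ⊥) →
      ∀ g' : K, (g' : G) = g → GenDiv p g')
    (h : ¬ (IsCommWith p g D ∧ (p = 2 → IsTriangle 2 4 2 g D) ∧
      (p = 3 → IsTriangle 3 3 3 g D))) : GenDiv p g := by
  by_cases h1 : IsCommWith p g D
  · by_cases h2 : p = 2 → IsTriangle 2 4 2 g D
    · by_cases h3 : p = 3 → IsTriangle 3 3 3 g D
      · exact absurd ⟨h1, h2, h3⟩ h
      · push Not at h3
        obtain ⟨rfl, h4⟩ := h3
        exact genDiv_of_noTri (p := 3) (n := 1) (b := 3) uSub3 hO hg hDp hDg hcard hsub h4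
    · push Not at h2
      obtain ⟨rfl, h4⟩ := h2
      exact genDiv_of_noTri (p := 2) (n := 2) (b := 2) uSub2 hO hg hDp hDg hcard hsub h4
  · exact genDiv_of_noComm hO hg hDp hDg hcard hsub h1

omit [IsAlgClosed k] [CharP k p] in
/-- the criterion for the groups of order at most `n + 1` -/
theorem keyB_step (red : integralClosure ℤ ℂ →+* k) (h𝒞 : SectionClosed p 𝒞)
    (h : WeightConjModSpecial p red 𝒞) (n : ℕ) (hn : GenDivisible p (UpTo 𝒞 n)) :
    P179C.KeyB p red (UpTo 𝒞 (n + 1)) := by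
  intro G _ _ _ R hG hO hR hR1
  have hO' : ∀ Q : Subgroup G, Q.Normal → IsPGroup p Q → Q = ⊥ := hO
  by_cases hgood : GoodSection p R
  · left
    obtain ⟨v, hv, hv1, hvc, h1⟩ := key_of_good hR hR1 hgood
    exact ⟨v, hv, hv1, hvc, fun g q hq hq' hgv hRg _ => h1 g q hq hq' hgv hRg⟩
  by_cases hS : Special p R
  · right
    intro B hB hD
    have h1 := h G hG.1 hO' B hB R hD hS
    rwa [numSimpleIn_eq, numWeightsIn_eq] at h1
  left
  unfold Special at hS
  push Not at hS
  obtain ⟨v, hvZ, hvo, h1⟩ := hS hgood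
  have hvo' : orderOf (v : G) = p := by rw [Subgroup.orderOf_coe, hvo]
  refine ⟨v, v.2, ?_, ?_, ?_⟩
  · intro h2
    rw [h2, orderOf_one] at hvo'
    exact hp.out.one_lt.ne hvo'
  · intro a ha
    exact congrArg Subtype.val (Subgroup.mem_center_iff.1 hvZ ⟨a, ha⟩)
  · intro g q hq hq' hgv hRg hcard
    have hloc := isLocalPair_of hq hq' hgv hRg hcard
    have hpg := dvd_of_isLocalPair hvo' hloc
    have hmem : ∀ A : Subgroup G, A ≠ ⊤ → UpTo 𝒞 n A := by
      intro A hA
      have hlt := card_lt_of_ne_top hA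
      have h2 := hG.2
      exact ⟨h𝒞.1 G A hG.1, by omega⟩
    refine dvd_SS_of hR hRg ?_ fun A hA hAO g' hg' => ?_
    · refine genDiv_of_not hO' hpg hR hloc.2.2.1 hcard (fun K hK hKO g' hg' => ?_) ?_
      · refine hn K (hmem K hK) hKO g' ?_
        rw [← Subgroup.orderOf_coe, hg']
        exact hpg
      · rintro ⟨h2, h3, h4⟩
        obtain ⟨h5, h6⟩ := h1 g hloc h2 h3
        exact h6 (h4 h5)
    · refine hn A (hmem A hA) hAO g' ?_
      rw [orderOf_of_conj hg']
      exact hpg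

/-- **The minimal counterexample.** -/
theorem reduction_upTo (red : integralClosure ℤ ℂ →+* k) (h𝒞 : SectionClosed p 𝒞)
    (h : WeightConjModSpecial p red 𝒞) (n : ℕ) : WeightConjMod p red (UpTo 𝒞 n) := by
  induction n with
  | zero =>
    intro G _ _ hG B hB
    have h1 : 0 < Nat.card G := Nat.card_pos
    have h2 := hG.2
    omega
  | succ n ih =>
    have h2 : WeightConjMod p red (UpTo 𝒞 n) ↔ GenDivisible p (UpTo 𝒞 n) :=
      (tfae_gen red _ (upTo_closed h𝒞 n)).out 0 1
    have h3 := keyB_step red h𝒞 h n (h2.1 ih)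
    have h4 := upTo_closed h𝒞 (n + 1)
    intro G _ _ hG B hB
    rw [numSimpleIn_eq, numWeightsIn_eq]
    exact P179C.class_blocksB ⟨h4.1, h4.2⟩ h3 hG B hB

/-- **The reduction theorem.** -/
theorem reduction (red : integralClosure ℤ ℂ →+* k) (h𝒞 : SectionClosed p 𝒞) :
    WeightConjMod p red 𝒞 ↔ WeightConjModSpecial p red 𝒞 := by
  constructor
  · intro h G _ _ hG _ B hB _ _ _
    exact h G hG B hB
  · intro h G _ _ hG B hB
    exact reduction_upTo red h𝒞 h (Nat.card G) G ⟨hG, le_rfl⟩ B hB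

theorem reduction_wreath (red : integralClosure ℤ ℂ →+* k) (h𝒞 : SectionClosed p 𝒞)
    (hW : WreathClosed p 𝒞) : WeightConj p red 𝒞 ↔ WeightConjModSpecial p red 𝒞 := by
  have h1 := (theoremR_final p (P179R.wrStmt (p := p) (k := k))).2 red 𝒞 hW h𝒞
  have h2 : WeightConj p red 𝒞 ↔ WeightConjMod p red 𝒞 := h1.out 0 1
  exact h2.trans (reduction red h𝒞)

end

end P179S
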