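import Mathlib

/-!
# Functions on the subgroups of a finite group: conjugation, orbit sums, definitions
-/

namespace P179S

open Subgroup MulAction

open scoped Classical

section Conj

variable {G : Type*} [Group G]

/-- the conjugate subgroup `c H c⁻¹` -/
def cj (c : G) (H : Subgroup G) : Subgroup G := H.map (MulAut.conj c).toMonoidHom

theorem mem_cj {c : G} {H : Subgroup G} {x : G} : x ∈ cj c H ↔ c⁻¹ * x * c ∈ H := by
  unfold cj
  rw [mem_map]
  constructor
  · rintro ⟨y, hy, rfl⟩
    have h : c⁻¹ * ((MulAut.conj c).toMonoidHom y) * c = y := by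
      simp [mul_assoc]
    rw [h]; exact hy
  · intro h
    refine ⟨_, h, ?_⟩
    simp [mul_assoc]

theorem cj_cj (a b : G) (H : Subgroup G) : cj a (cj b H) = cj (a * b) H := by
  ext x
  rw [mem_cj, mem_cj, mem_cj]
  have : b⁻¹ * (a⁻¹ * x * a) * b = (a * b)⁻¹ * x * (a * b) := by group
  rw [this]

@[simp] theorem cj_one (H : Subgroup G) : cj 1 H = H := by
  ext x
  rw [mem_cj]
  simp

theorem cj_mono {c : G} {H K : Subgroup G} (h : H ≤ K) : cj c H ≤ cj c K := by
  intro x hx
  rw [mem_cj] at hx ⊢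
  exact h hx

theorem cj_le {c : G} {H K : Subgroup G} : cj c H ≤ K ↔ H ≤ cj c⁻¹ K := by
  constructor
  · intro h
    have := cj_mono (c := c⁻¹) h
    rwa [cj_cj, inv_mul_cancel, cj_one] at this
  · intro h
    have := cj_mono (c := c) h
    rwa [cj_cj, mul_inv_cancel, cj_one] at this

theorem le_cj {c : G} {H K : Subgroup G} : H ≤ cj c K ↔ cj c⁻¹ H ≤ K := by
  rw [cj_le, inv_inv]

theorem cj_sup (c : G) (H K : Subgroup G) : cj c (H ⊔ K) = cj c H ⊔ cj c K :=
  Subgroup.map_sup _ _ _

theorem cj_zpowers (c t : G) : cj c (zpowers t) = zpowers (c * t * c⁻¹) := by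
  unfold cj
  rw [MonoidHom.map_zpowers]
  rfl

theorem cj_closure_pair (c x y : G) :
    cj c (closure {x, y}) = closure {c * x * c⁻¹, c * y * c⁻¹} := by
  unfold cj
  rw [MonoidHom.map_closure, Set.image_pair]
  rfl

@[simp] theorem cj_bot (c : G) : cj c (⊥ : Subgroup G) = ⊥ := Subgroup.map_bot _

theorem cj_injective (c : G) : Function.Injective (cj c) := by
  intro H K h
  have := congrArg (cj c⁻¹) h
  rwa [cj_cj, cj_cj, inv_mul_cancel, cj_one, cj_one] at this

theorem card_cj (c : G) (H : Subgroup G) : Nat.card (cj c H) = Nat.card H :=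
  (Nat.card_congr (H.equivMapOfInjective _ (MulAut.conj c).injective).toEquiv).symm

theorem isPGroup_cj {p : ℕ} {c : G} {H : Subgroup G} (h : IsPGroup p H) : IsPGroup p (cj c H) :=
  h.map _

theorem mem_normalizer_iff_cj {A : Subgroup G} {c : G} :
    c ∈ normalizer (A : Set G) ↔ cj c A = A := by
  rw [mem_normalizer_iff]
  constructor
  · intro h
    ext x
    rw [mem_cj, h (c⁻¹ * x * c)]
    have : c * (c⁻¹ * x * c) * c⁻¹ = x := by group
    rw [this]
  · intro h x
    have : x ∈ A ↔ c⁻¹ * (c * x * c⁻¹) * c ∈ A := by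
      have : c⁻¹ * (c * x * c⁻¹) * c = x := by group
      rw [this]
    rw [this, ← mem_cj, h]

theorem cj_eq_of_le [Finite G] {A : Subgroup G} {c : G} (h : cj c A ≤ A) : cj c A = A :=
  Subgroup.eq_of_le_of_card_ge h (card_cj c A).ge

theorem cj_normalizer {c : G} {A B : Subgroup G} (h : A ≤ normalizer (B : Set G)) :
    cj c A ≤ normalizer ((cj c B : Subgroup G) : Set G) := by
  intro x hx
  rw [mem_cj] at hx
  have h1 := mem_normalizer_iff_cj.1 (h hx)
  rw [mem_normalizer_iff_cj, cj_cj]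
  have h2 : cj (c⁻¹ * x * c) B = B := h1
  calc cj (x * c) B = cj (c * (c⁻¹ * x * c)) B := by
        congr 1; group
    _ = cj c (cj (c⁻¹ * x * c) B) := (cj_cj _ _ _).symm
    _ = cj c B := by rw [h2]

end Conj

section Orbit

/-- **Orbit sums.** If `f` is invariant under the group `R` and `d |R_q|` divides `f q` for all
`q`, then `d |R|` divides the sum of all values of `f`. -/
theorem orbit_dvd {R Q : Type*} [Group R] [Finite R] [Fintype Q] [MulAction R Q] (f : Q → ℤ)
    (hf : ∀ (r : R) (q : Q), f (r • q) = f q) (d : ℤ)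
    (h : ∀ q, d * (Nat.card (stabilizer R q) : ℤ) ∣ f q) : d * (Nat.card R : ℤ) ∣ ∑ q, f q := by
  have h1 : ∑ q, f q = ∑ ω : orbitRel.Quotient R Q,
      ∑ q ∈ Finset.univ.filter (fun q : Q => (Quotient.mk'' q : orbitRel.Quotient R Q) = ω),
        f q := by
    rw [Finset.sum_fiberwise]
  rw [h1]
  refine Finset.dvd_sum fun ω _ => ?_
  obtain ⟨q0, rfl⟩ := Quotient.exists_rep ω
  have h2 : ∀ q ∈ Finset.univ.filter (fun q : Q => (Quotient.mk'' q : orbitRel.Quotient R Q) =
      Quotient.mk _ q0), f q = f q0 := by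
    intro q hq
    rw [Finset.mem_filter] at hq
    have h3 : (orbitRel R Q) q q0 := Quotient.exact hq.2
    rw [orbitRel_apply] at h3
    obtain ⟨r, hr⟩ := h3
    have hr' : r • q0 = q := hr
    rw [← hr', hf]
  rw [Finset.sum_congr rfl h2, Finset.sum_const, nsmul_eq_mul]
  have h3 : (Finset.univ.filter (fun q : Q => (Quotient.mk'' q : orbitRel.Quotient R Q) =
      Quotient.mk _ q0)).card = Nat.card (orbit R q0) := by
    rw [Nat.card_eq_fintype_card, ← Set.toFinset_card]
    congr 1
    ext q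
    rw [Finset.mem_filter, Set.mem_toFinset]
    constructor
    · intro hq
      exact orbitRel_apply.1 (Quotient.exact hq.2)
    · intro hq
      exact ⟨Finset.mem_univ _, Quotient.sound (orbitRel_apply.2 hq)⟩
  rw [h3]
  have h4 : Nat.card (orbit R q0) * Nat.card (stabilizer R q0) = Nat.card R := by
    have := Fintype.ofFinite R
    rw [Nat.card_eq_fintype_card, Nat.card_eq_fintype_card, Nat.card_eq_fintype_card]
    exact card_orbit_mul_card_stabilizer_eq_card_group R q0
  rw [← h4]
  obtain ⟨m, hm⟩ := h q0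
  refine ⟨m, ?_⟩
  rw [hm]
  push_cast
  ring

end Orbit

section Defs

variable {G : Type*} [Group G] [Fintype G]

/-- invariance under conjugation -/
def Inv (w : Subgroup G → ℤ) : Prop := ∀ (c : G) (K : Subgroup G), w (cj c K) = w K

/-- the `p`-local congruences: `|T|` divides the sum of the values at the groups `⟨H, t⟩`, if
`H` is normal in `T` of `p`-power index -/
def Dress (p : ℕ) (w : Subgroup G → ℤ) : Prop :=
  ∀ H T : Subgroup G, H ≤ T → T ≤ normalizer (H : Set G) →
    (∃ n, Nat.card T = p ^ n * Nat.card H) →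
    (Nat.card T : ℤ) ∣ ∑ t : G, if t ∈ T then w (H ⊔ zpowers t) else 0

/-- `K` has a nontrivial normal `p`-subgroup -/
def HasOp (p : ℕ) (K : Subgroup G) : Prop :=
  ∃ R ≤ K, R ≠ ⊥ ∧ IsPGroup p R ∧ K ≤ normalizer (R : Set G)

/-- the function vanishes at the subgroups with a nontrivial normal `p`-subgroup -/
def Van (p : ℕ) (w : Subgroup G → ℤ) : Prop := ∀ K : Subgroup G, HasOp p K → w K = 0

/-- the sum of `w` over the groups generated by the pairs with commutator `g` -/
noncomputable def NN (w : Subgroup G → ℤ) (g : G) : ℤ :=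
  ∑ t : G × G, if t.1 * t.2 * t.1⁻¹ * t.2⁻¹ = g then w (closure {t.1, t.2}) else 0

/-- the divisibility at `g` -/
def Ev (p : ℕ) (w : Subgroup G → ℤ) (g : G) : Prop :=
  ∀ R : Subgroup G, IsPGroup p R → (∀ a ∈ R, a * g = g * a) →
    ((p : ℤ) * (Nat.card R : ℤ)) ∣ NN w g

/-- the induced function -/
noncomputable def Ind (A : Subgroup G) (u : Subgroup G → ℤ) (K : Subgroup G) : ℤ :=
  ∑ q : G ⧸ A, u (cj (Quotient.out q)⁻¹ K)

omit [Fintype G] in
theorem hasOp_cj {p : ℕ} {K : Subgroup G} (c : G) (h : HasOp p K) : HasOp p (cj c K) := by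
  obtain ⟨R, hR, hR1, hRp, hRn⟩ := h
  refine ⟨cj c R, cj_mono hR, ?_, isPGroup_cj hRp, cj_normalizer hRn⟩
  intro h2
  apply hR1
  have := congrArg (cj c⁻¹) h2
  rwa [cj_cj, inv_mul_cancel, cj_one, cj_bot] at this

end Defs

end P179S
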