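import Vale.Agent.P179.H5.Tri1

/-!
# Induced functions: congruences and divisibility
-/

namespace P179S

open Subgroup MulAction

open scoped Classical

variable {G : Type*} [Group G] [Fintype G]

/-- functions relative to a subgroup `A` -/
structure Rel (p : ℕ) (A : Subgroup G) (u : Subgroup G → ℤ) : Prop where
  supp : ∀ K, u K ≠ 0 → K ≤ A
  inv : ∀ a ∈ A, ∀ K, u (cj a K) = u K
  dress : ∀ H T : Subgroup G, H ≤ T → T ≤ A → T ≤ normalizer (H : Set G) →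
    (∃ n, Nat.card T = p ^ n * Nat.card H) →
    (Nat.card T : ℤ) ∣ ∑ t : G, if t ∈ T then u (H ⊔ zpowers t) else 0
  van : Van p u

section Quot

variable (A : Subgroup G)

omit [Fintype G] in
theorem out_eq {F : G → ℤ} (hF : ∀ c, ∀ a ∈ A, F (c * a) = F c) (c : G) :
    F (Quotient.out (c : G ⧸ A)) = F c := by
  obtain ⟨a, ha⟩ := QuotientGroup.mk_out_eq_mul A c
  rw [ha]
  exact hF c a a.2

omit [Fintype G] in
theorem out_smul {F : G → ℤ} (hF : ∀ c, ∀ a ∈ A, F (c * a) = F c) (c : G) (q : G ⧸ A) :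
    F (Quotient.out (c • q)) = F (c * Quotient.out q) := by
  have h : c • q = ((c * Quotient.out q : G) : G ⧸ A) := by
    conv_lhs => rw [← QuotientGroup.out_eq' q]
    rfl
  rw [h]
  exact out_eq A hF _

theorem sum_out_smul {F : G → ℤ} (hF : ∀ c, ∀ a ∈ A, F (c * a) = F c) (c : G) :
    ∑ q : G ⧸ A, F (c * Quotient.out q) = ∑ q : G ⧸ A, F (Quotient.out q) := by
  rw [← Equiv.sum_comp (MulAction.toPerm c) (fun q : G ⧸ A => F (Quotient.out q))]
  refine Finset.sum_congr rfl fun q _ => ?_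
  rw [MulAction.toPerm_apply, out_smul A hF]

omit [Fintype G] in
theorem card_stab (T : Subgroup G) (q : G ⧸ A) :
    Nat.card (stabilizer T q) =
      Nat.card ((cj (Quotient.out q)⁻¹ T ⊓ A : Subgroup G)) := by
  have h1 : stabilizer T q = (cj (Quotient.out q) A).subgroupOf T := by
    ext τ
    rw [mem_stabilizer_iff, mem_subgroupOf, mem_cj]
    have h2 : τ • q = (((τ : G) * Quotient.out q : G) : G ⧸ A) := by
      conv_lhs => rw [← QuotientGroup.out_eq' q]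
      rfl
    rw [h2]
    conv_lhs => rhs; rw [← QuotientGroup.out_eq' q]
    rw [eq_comm, QuotientGroup.eq]
    have h3 : (Quotient.out q)⁻¹ * ((τ : G) * Quotient.out q) =
        (Quotient.out q)⁻¹ * (τ : G) * Quotient.out q := by group
    rw [h3]
  have h4 : cj (Quotient.out q)⁻¹ T ⊓ A =
      cj (Quotient.out q)⁻¹ (cj (Quotient.out q) A ⊓ T) := by
    ext x
    rw [mem_inf, mem_cj, mem_cj, mem_inf, mem_cj]
    have h5 : (Quotient.out q)⁻¹ * ((Quotient.out q)⁻¹⁻¹ * x * (Quotient.out q)⁻¹) *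
        Quotient.out q = x := by group
    rw [h5, and_comm]
  rw [h1, h4, card_cj, ← Subgroup.inf_subgroupOf_right]
  exact Nat.card_congr (Subgroup.subgroupOfEquivOfLe inf_le_right).toEquiv

end Quot

section IndLemmas

variable {p : ℕ} {A : Subgroup G} {u : Subgroup G → ℤ}

omit [Fintype G] in
theorem inv_mul {u : Subgroup G → ℤ} (hu : ∀ a ∈ A, ∀ K, u (cj a K) = u K) (K : Subgroup G)
    (c a : G) (ha : a ∈ A) : u (cj (c * a)⁻¹ K) = u (cj c⁻¹ K) := by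
  rw [mul_inv_rev, ← cj_cj]
  exact hu _ (inv_mem ha) _

theorem ind_inv (hu : Rel p A u) : Inv (Ind A u) := by
  intro c K
  unfold Ind
  have h1 := sum_out_smul A (F := fun d => u (cj d⁻¹ K)) (fun d a ha => inv_mul hu.inv K d a ha) c⁻¹
  rw [← h1]
  refine Finset.sum_congr rfl fun q _ => ?_
  rw [cj_cj, mul_inv_rev, inv_inv]

theorem ind_van (hu : Rel p A u) : Van p (Ind A u) := by
  intro K hK
  unfold Ind
  exact Finset.sum_eq_zero fun q _ => hu.van _ (hasOp_cj _ hK)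

theorem ind_supp (hu : Rel p A u) {K : Subgroup G} (h : Ind A u K ≠ 0) : ∃ c, K ≤ cj c A := by
  unfold Ind at h
  obtain ⟨q, -, hq⟩ := Finset.exists_ne_zero_of_sum_ne_zero h
  refine ⟨Quotient.out q, ?_⟩
  rw [le_cj]
  exact hu.supp _ hq

theorem ind_dress [hp : Fact p.Prime] (hu : Rel p A u) : Dress p (Ind A u) := by
  intro H T hHT hTH hcard
  set f : G → ℤ := fun c => ∑ t : G, if t ∈ T then u (cj c⁻¹ (H ⊔ zpowers t)) else 0 with hf
  have hfA : ∀ c, ∀ a ∈ A, f (c * a) = f c := by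
    intro c a ha
    simp only [hf]
    refine Finset.sum_congr rfl fun t _ => ?_
    rw [inv_mul hu.inv _ c a ha]
  have h1 : (∑ t : G, if t ∈ T then Ind A u (H ⊔ zpowers t) else 0) =
      ∑ q : G ⧸ A, f (Quotient.out q) := by
    simp only [hf]
    rw [Finset.sum_comm]
    refine Finset.sum_congr rfl fun t _ => ?_
    split_ifs with ht
    · rfl
    · rw [Finset.sum_const_zero]
  rw [h1]
  have hfT : ∀ τ ∈ T, ∀ c, f (τ * c) = f c := by
    intro τ hτ c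
    simp only [hf]
    rw [← Equiv.sum_comp (MulAut.conj τ).toEquiv (fun t : G =>
      if t ∈ T then u (cj (τ * c)⁻¹ (H ⊔ zpowers t)) else 0)]
    refine Finset.sum_congr rfl fun t _ => ?_
    have h2 : (MulAut.conj τ).toEquiv t = τ * t * τ⁻¹ := rfl
    rw [h2]
    have h3 : τ * t * τ⁻¹ ∈ T ↔ t ∈ T := by
      constructor
      · intro h
        have := mul_mem (mul_mem (inv_mem hτ) h) hτ
        have h4 : τ⁻¹ * (τ * t * τ⁻¹) * τ = t := by group
        rwa [h4] at this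
      · intro h
        exact mul_mem (mul_mem hτ h) (inv_mem hτ)
    have h5 : cj (τ * c)⁻¹ (H ⊔ zpowers (τ * t * τ⁻¹)) = cj c⁻¹ (H ⊔ zpowers t) := by
      rw [mul_inv_rev, ← cj_cj, ← cj_zpowers]
      congr 1
      have h6 : cj τ H = H := mem_normalizer_iff_cj.1 (hTH hτ)
      conv_lhs => rw [← h6]
      rw [← cj_sup, cj_cj, inv_mul_cancel, cj_one]
    rw [h5]
    by_cases ht : t ∈ T
    · rw [if_pos ht, if_pos (h3.2 ht)]
    · rw [if_neg ht, if_neg fun h => ht (h3.1 h)]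
  have h2 := orbit_dvd (R := T) (Q := G ⧸ A) (fun q => f (Quotient.out q)) (fun τ q => by
    change f (Quotient.out ((τ : G) • q)) = _
    rw [out_smul A hfA, hfT _ τ.2]) 1 ?_
  · rw [one_mul] at h2
    exact h2
  intro q
  rw [one_mul, card_stab]
  set c := Quotient.out q
  have h3 : f c = ∑ t : G, if t ∈ cj c⁻¹ T then u (cj c⁻¹ H ⊔ zpowers t) else 0 := by
    simp only [hf]
    rw [← Equiv.sum_comp (MulAut.conj c⁻¹).toEquiv (fun t : G =>
      if t ∈ cj c⁻¹ T then u (cj c⁻¹ H ⊔ zpowers t) else 0)]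
    refine Finset.sum_congr rfl fun t _ => ?_
    have h2 : (MulAut.conj c⁻¹).toEquiv t = c⁻¹ * t * c⁻¹⁻¹ := rfl
    rw [h2, cj_sup, cj_zpowers]
    have h4 : c⁻¹ * t * c⁻¹⁻¹ ∈ cj c⁻¹ T ↔ t ∈ T := by
      rw [mem_cj]
      have : c⁻¹⁻¹ * (c⁻¹ * t * c⁻¹⁻¹) * c⁻¹ = t := by group
      rw [this]
    by_cases ht : t ∈ T
    · rw [if_pos ht, if_pos (h4.2 ht)]
    · rw [if_neg ht, if_neg fun h => ht (h4.1 h)]
  by_cases hH : cj c⁻¹ H ≤ A
  · have h4 : f c = ∑ t : G, if t ∈ (cj c⁻¹ T ⊓ A : Subgroup G) then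
        u (cj c⁻¹ H ⊔ zpowers t) else 0 := by
      rw [h3]
      refine Finset.sum_congr rfl fun t _ => ?_
      by_cases ht : t ∈ cj c⁻¹ T
      · by_cases htA : t ∈ A
        · rw [if_pos ht, if_pos ⟨ht, htA⟩]
        · rw [if_pos ht, if_neg fun h => htA h.2]
          by_contra h5
          exact htA ((le_sup_right.trans (hu.supp _ h5)) (mem_zpowers t))
      · rw [if_neg ht, if_neg fun h => ht h.1]
    change _ ∣ f c
    rw [h4]
    refine hu.dress _ _ (le_inf (cj_mono hHT) hH) inf_le_right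
      (inf_le_left.trans (cj_normalizer hTH)) ?_
    obtain ⟨n, hn⟩ := hcard
    have h5 : Nat.card (cj c⁻¹ H : Subgroup G) ∣ Nat.card (cj c⁻¹ T ⊓ A : Subgroup G) :=
      Subgroup.card_dvd_of_le (le_inf (cj_mono hHT) hH)
    have h6 : Nat.card (cj c⁻¹ T ⊓ A : Subgroup G) ∣ Nat.card (cj c⁻¹ T : Subgroup G) :=
      Subgroup.card_dvd_of_le inf_le_left
    obtain ⟨m, hm⟩ := h5
    rw [card_cj, hn, hm, card_cj] at h6
    have h7 : 0 < Nat.card H := Nat.card_pos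
    have h8 : m ∣ p ^ n := by
      have h9 : Nat.card H * m ∣ Nat.card H * p ^ n := by rwa [mul_comm (Nat.card H) (p ^ n)]
      exact Nat.dvd_of_mul_dvd_mul_left h7 h9
    obtain ⟨j, -, hj⟩ := (Nat.dvd_prime_pow hp.out).1 h8
    exact ⟨j, by rw [hm, hj, mul_comm]⟩
  · have h4 : f c = 0 := by
      rw [h3]
      refine Finset.sum_eq_zero fun t _ => ?_
      split_ifs with ht
      · by_contra h5
        exact hH (le_sup_left.trans (hu.supp _ h5))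
      · rfl
    change _ ∣ f c
    rw [h4]
    exact dvd_zero _

/-- `NN` at a conjugate -/
theorem NN_conj (w : Subgroup G → ℤ) (c g : G) :
    (∑ t : G × G, if t.1 * t.2 * t.1⁻¹ * t.2⁻¹ = g then w (cj c⁻¹ (closure {t.1, t.2})) else 0) =
      NN w (c⁻¹ * g * c) := by
  unfold NN
  rw [← Equiv.sum_comp ((MulAut.conj c⁻¹).toEquiv.prodCongr (MulAut.conj c⁻¹).toEquiv)
    (fun t : G × G => if t.1 * t.2 * t.1⁻¹ * t.2⁻¹ = c⁻¹ * g * c then
      w (closure {t.1, t.2}) else 0)]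
  refine Finset.sum_congr rfl fun t _ => ?_
  have h1 : ((MulAut.conj c⁻¹).toEquiv.prodCongr (MulAut.conj c⁻¹).toEquiv) t =
      (c⁻¹ * t.1 * c⁻¹⁻¹, c⁻¹ * t.2 * c⁻¹⁻¹) := rfl
  rw [h1, cj_closure_pair]
  have h2 : (c⁻¹ * t.1 * c⁻¹⁻¹, c⁻¹ * t.2 * c⁻¹⁻¹).1 * (c⁻¹ * t.1 * c⁻¹⁻¹, c⁻¹ * t.2 * c⁻¹⁻¹).2 *
      (c⁻¹ * t.1 * c⁻¹⁻¹, c⁻¹ * t.2 * c⁻¹⁻¹).1⁻¹ * (c⁻¹ * t.1 * c⁻¹⁻¹, c⁻¹ * t.2 * c⁻¹⁻¹).2⁻¹ =
      c⁻¹ * g * c ↔ t.1 * t.2 * t.1⁻¹ * t.2⁻¹ = g := by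
    have h3 : (c⁻¹ * t.1 * c⁻¹⁻¹, c⁻¹ * t.2 * c⁻¹⁻¹).1 * (c⁻¹ * t.1 * c⁻¹⁻¹, c⁻¹ * t.2 * c⁻¹⁻¹).2 *
      (c⁻¹ * t.1 * c⁻¹⁻¹, c⁻¹ * t.2 * c⁻¹⁻¹).1⁻¹ * (c⁻¹ * t.1 * c⁻¹⁻¹, c⁻¹ * t.2 * c⁻¹⁻¹).2⁻¹ =
      c⁻¹ * (t.1 * t.2 * t.1⁻¹ * t.2⁻¹) * c := by
      group
    rw [h3]
    constructor
    · intro h
      have h4 := congrArg (fun x => c * x * c⁻¹) h
      have h5 : ∀ z : G, c * (c⁻¹ * z * c) * c⁻¹ = z := fun z => by group
      change c * (c⁻¹ * (t.1 * t.2 * t.1⁻¹ * t.2⁻¹) * c) * c⁻¹ = c * (c⁻¹ * g * c) * c⁻¹ at h4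
      rwa [h5, h5] at h4
    · intro h
      rw [h]
  by_cases h : t.1 * t.2 * t.1⁻¹ * t.2⁻¹ = g
  · rw [if_pos h, if_pos (h2.2 h)]
  · rw [if_neg h, if_neg fun h3 => h (h2.1 h3)]

theorem ind_ev (hu : Rel p A u) {g : G}
    (he : ∀ c : G, ∀ R ≤ A, IsPGroup p R → (∀ a ∈ R, a * (c⁻¹ * g * c) = (c⁻¹ * g * c) * a) →
      ((p : ℤ) * (Nat.card R : ℤ)) ∣ NN u (c⁻¹ * g * c)) : Ev p (Ind A u) g := by
  intro R hR hRg
  set f : G → ℤ := fun c => NN u (c⁻¹ * g * c) with hf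
  have hfA : ∀ c, ∀ a ∈ A, f (c * a) = f c := by
    intro c a ha
    simp only [hf]
    have h1 : (c * a)⁻¹ * g * (c * a) = a⁻¹ * (c⁻¹ * g * c) * a := by group
    rw [h1, ← NN_conj]
    unfold NN
    refine Finset.sum_congr rfl fun t _ => ?_
    rw [hu.inv _ (inv_mem ha)]
  have h1 : NN (Ind A u) g = ∑ q : G ⧸ A, f (Quotient.out q) := by
    simp only [hf]
    unfold Ind
    simp_rw [← NN_conj]
    unfold NN
    rw [Finset.sum_comm]
    refine Finset.sum_congr rfl fun t _ => ?_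
    split_ifs with ht
    · rfl
    · rw [Finset.sum_const_zero]
  rw [h1]
  have hfR : ∀ r ∈ R, ∀ c, f (r * c) = f c := by
    intro r hr c
    simp only [hf]
    have h2 : (r * c)⁻¹ * g * (r * c) = c⁻¹ * (r⁻¹ * (g * r)) * c := by group
    rw [h2, ← hRg r hr]
    have h3 : r⁻¹ * (r * g) = g := by group
    rw [h3]
  refine orbit_dvd (R := R) (Q := G ⧸ A) (fun q => f (Quotient.out q)) (fun τ q => by
    change f (Quotient.out ((τ : G) • q)) = _
    rw [out_smul A hfA, hfR _ τ.2]) p fun q => ?_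
  rw [card_stab]
  refine he _ _ inf_le_right ((isPGroup_cj hR).to_le inf_le_left) ?_
  intro a ha
  have h2 := (mem_inf.1 ha).1
  rw [mem_cj] at h2
  have h3 := hRg _ h2
  set c := Quotient.out q
  have h4 : a * (c⁻¹ * g * c) = c⁻¹ * ((c⁻¹⁻¹ * a * c⁻¹) * g) * c := by group
  rw [h4, h3]
  group

end IndLemmas

end P179S
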