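import Vale.Agent.P179.H5.Tri2

/-!
# The triangular induction
-/

namespace P179S

open Subgroup MulAction

open scoped Classical

variable {G : Type*} [Group G] [Fintype G]

/-- `|N_G(A)|` is `|A|` times the number of cosets in the normaliser -/
theorem card_normalizer_eq (A : Subgroup G) :
    Nat.card (normalizer (A : Set G)) = Nat.card A *
      (Finset.univ.filter fun q : G ⧸ A => Quotient.out q ∈ normalizer (A : Set G)).card := by
  set N : Subgroup G := normalizer (A : Set G) with hN
  have hAN : A ≤ N := le_normalizer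
  have h1 : Nat.card (orbit N ((1 : G) : G ⧸ A)) *
      Nat.card (stabilizer N ((1 : G) : G ⧸ A)) = Nat.card N := by
    have := Fintype.ofFinite N
    rw [Nat.card_eq_fintype_card, Nat.card_eq_fintype_card, Nat.card_eq_fintype_card]
    exact card_orbit_mul_card_stabilizer_eq_card_group N _
  have h2 : Nat.card (stabilizer N ((1 : G) : G ⧸ A)) = Nat.card A := by
    rw [card_stab]
    obtain ⟨a, ha⟩ := QuotientGroup.mk_out_eq_mul A (1 : G)
    have h3 : Quotient.out ((1 : G) : G ⧸ A) ∈ N := by
      rw [ha, one_mul]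
      exact hAN a.2
    have h4 : cj (Quotient.out ((1 : G) : G ⧸ A))⁻¹ N ⊓ A = A := by
      refine inf_eq_right.2 ?_
      intro x hx
      rw [mem_cj, inv_inv]
      exact mul_mem (mul_mem h3 (hAN hx)) (inv_mem h3)
    rw [h4]
  have h3 : Nat.card (orbit N ((1 : G) : G ⧸ A)) =
      (Finset.univ.filter fun q : G ⧸ A => Quotient.out q ∈ N).card := by
    rw [Nat.card_eq_fintype_card, ← Set.toFinset_card]
    congr 1
    ext q
    rw [Finset.mem_filter, Set.mem_toFinset]
    constructor
    · rintro ⟨n, hn⟩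
      refine ⟨Finset.mem_univ _, ?_⟩
      have h5 : ((n : G) : G ⧸ A) = q := by
        rw [← hn]
        change _ = (n : G) • ((1 : G) : G ⧸ A)
        have : (n : G) • ((1 : G) : G ⧸ A) = (((n : G) * 1 : G) : G ⧸ A) := rfl
        rw [this, mul_one]
      obtain ⟨a, ha⟩ := QuotientGroup.mk_out_eq_mul A (n : G)
      rw [← h5, ha]
      exact mul_mem n.2 (hAN a.2)
    · rintro ⟨-, hq⟩
      refine ⟨⟨_, hq⟩, ?_⟩
      change (Quotient.out q) • ((1 : G) : G ⧸ A) = q
      have : (Quotient.out q) • ((1 : G) : G ⧸ A) = ((Quotient.out q * 1 : G) : G ⧸ A) := rfl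
      rw [this, mul_one]
      exact QuotientGroup.out_eq' q
  rw [← h1, h2, h3, mul_comm]

/-- the Sylow subgroup of `N_G(A) / A` -/
theorem exists_sylow (p : ℕ) [hp : Fact p.Prime] (A : Subgroup G) :
    ∃ (T : Subgroup G) (k m : ℕ), A ≤ T ∧ T ≤ normalizer (A : Set G) ∧
      Nat.card T = p ^ k * Nat.card A ∧
      Nat.card (normalizer (A : Set G)) = Nat.card A * (p ^ k * m) ∧ ¬ p ∣ m := by
  set N : Subgroup G := normalizer (A : Set G) with hN
  have hAN : A ≤ N := le_normalizer
  have hnorm : (A.subgroupOf N).Normal := normal_in_normalizer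
  obtain ⟨S⟩ : Nonempty (Sylow p (N ⧸ A.subgroupOf N)) := inferInstance
  set T' : Subgroup N := (S : Subgroup (N ⧸ A.subgroupOf N)).comap
    (QuotientGroup.mk' (A.subgroupOf N)) with hT'
  obtain ⟨k, hk⟩ := (IsPGroup.iff_card).1 S.isPGroup'
  have h1 : T'.index = (S : Subgroup (N ⧸ A.subgroupOf N)).index :=
    index_comap_of_surjective _ (QuotientGroup.mk'_surjective _)
  have h2 : Nat.card T' * T'.index = Nat.card N := card_mul_index T'
  have h3 : Nat.card (S : Subgroup (N ⧸ A.subgroupOf N)) *
      (S : Subgroup (N ⧸ A.subgroupOf N)).index = Nat.card (N ⧸ A.subgroupOf N) :=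
    card_mul_index _
  have h4 : Nat.card N = Nat.card (N ⧸ A.subgroupOf N) * Nat.card (A.subgroupOf N) :=
    card_eq_card_quotient_mul_card_subgroup _
  have h5 : Nat.card (A.subgroupOf N) = Nat.card A :=
    Nat.card_congr (Subgroup.subgroupOfEquivOfLe hAN).toEquiv
  have h6 : 0 < (S : Subgroup (N ⧸ A.subgroupOf N)).index := Nat.pos_of_ne_zero index_ne_zero_of_finite
  refine ⟨T'.map N.subtype, k, (S : Subgroup (N ⧸ A.subgroupOf N)).index, ?_, ?_, ?_, ?_, ?_⟩
  · intro a ha
    refine ⟨⟨a, hAN ha⟩, ?_, rfl⟩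
    rw [hT', SetLike.mem_coe, mem_comap]
    have h7 : (QuotientGroup.mk' (A.subgroupOf N)) ⟨a, hAN ha⟩ = 1 := by
      rw [QuotientGroup.mk'_apply, QuotientGroup.eq_one_iff, mem_subgroupOf]
      exact ha
    rw [h7]
    exact one_mem _
  · rintro x ⟨y, -, rfl⟩
    exact y.2
  · rw [Nat.card_congr (T'.equivMapOfInjective _ N.subtype_injective).toEquiv.symm]
    have h7 : Nat.card T' * (S : Subgroup (N ⧸ A.subgroupOf N)).index =
        (p ^ k * Nat.card A) * (S : Subgroup (N ⧸ A.subgroupOf N)).index := by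
      rw [← h1, h2, h4, h5, ← h3, hk, h1]
      ring
    exact Nat.eq_of_mul_eq_mul_right h6 h7
  · rw [h4, h5, ← h3, hk]
    ring
  · exact S.not_dvd_index

/-- **The triangular induction.** -/
theorem triangular {p : ℕ} [hp : Fact p.Prime] {g : G}
    (hA : ∀ A : Subgroup G, ¬ HasOp p A → ∃ u : Subgroup G → ℤ, Rel p A u ∧ u A = 1 ∧
      ∀ c : G, ∀ R ≤ A, IsPGroup p R → (∀ a ∈ R, a * (c⁻¹ * g * c) = (c⁻¹ * g * c) * a) →
        ((p : ℤ) * (Nat.card R : ℤ)) ∣ NN u (c⁻¹ * g * c)) :
    ∀ (n : ℕ) (w : Subgroup G → ℤ), Inv w → Dress p w → Van p w →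
      Set.ncard {K : Subgroup G | ∃ K', K ≤ K' ∧ w K' ≠ 0} = n → Ev p w g := by
  intro n
  induction n using Nat.strong_induction_on with
  | _ n ih =>
  intro w hinv hdress hvan hn
  by_cases hw : ∀ K, w K = 0
  · intro R _ _
    have : NN w g = 0 := by
      unfold NN
      exact Finset.sum_eq_zero fun t _ => by rw [hw, ite_self]
    rw [this]
    exact dvd_zero _
  push Not at hw
  obtain ⟨A, hAw, hAmax⟩ : ∃ A, w A ≠ 0 ∧ ∀ K, A ≤ K → w K ≠ 0 → K = A := by
    obtain ⟨K0, hK0⟩ := hw
    obtain ⟨A, hA1⟩ := (Set.toFinite {K : Subgroup G | w K ≠ 0}).exists_maximal ⟨K0, hK0⟩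
    exact ⟨A, hA1.1, fun K hK hK1 => le_antisymm (hA1.2 hK1 hK) hK⟩
  have hAop : ¬ HasOp p A := fun h => hAw (hvan A h)
  obtain ⟨u, hu, huA, hev⟩ := hA A hAop
  obtain ⟨T, k, m, hAT, hTN, hTcard, hNcard, hm⟩ := exists_sylow p A
  have hApos : 0 < Nat.card A := Nat.card_pos
  -- the value at `A` is divisible by `p ^ k`
  have hd : (p ^ k : ℤ) ∣ w A := by
    have h1 := hdress A T hAT hTN ⟨k, hTcard⟩
    have h2 : (∑ t : G, if t ∈ T then w (A ⊔ zpowers t) else 0) = (Nat.card A : ℤ) * w A := by
      have h3 : (∑ t : G, if t ∈ T then w (A ⊔ zpowers t) else 0) =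
          ∑ t : G, if t ∈ A then w A else 0 := by
        refine Finset.sum_congr rfl fun t _ => ?_
        by_cases htA : t ∈ A
        · rw [if_pos htA, if_pos (hAT htA), sup_eq_left.2 ((zpowers_le).2 htA)]
        · rw [if_neg htA]
          split_ifs with ht
          · by_contra h4
            have h5 := hAmax _ le_sup_left h4
            apply htA
            rw [← h5]
            exact (le_sup_right : zpowers t ≤ _) (mem_zpowers t)
          · rfl
      rw [h3, ← Finset.sum_filter, Finset.sum_const, nsmul_eq_mul]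
      congr 2
      rw [Nat.card_eq_fintype_card, Fintype.card_subtype]
    rw [h2, hTcard] at h1
    push_cast at h1
    rw [mul_comm] at h1
    exact Int.dvd_of_mul_dvd_mul_left (by exact_mod_cast hApos.ne') h1
  obtain ⟨c0, hc0⟩ := hd
  -- the value of the induced function at `A`
  have hInd : Ind A u A = (p : ℤ) ^ k * m := by
    have h1 : Ind A u A = ((Finset.univ.filter fun q : G ⧸ A =>
        Quotient.out q ∈ normalizer (A : Set G)).card : ℤ) := by
      unfold Ind
      have h2 : ∀ q : G ⧸ A, u (cj (Quotient.out q)⁻¹ A) =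
          if Quotient.out q ∈ normalizer (A : Set G) then 1 else 0 := by
        intro q
        split_ifs with h
        · rw [mem_normalizer_iff_cj.1 (inv_mem h), huA]
        · by_contra h3
          apply h
          have h4 := cj_eq_of_le (hu.supp _ h3)
          rw [← mem_normalizer_iff_cj] at h4
          have h5 := inv_mem h4
          rwa [inv_inv] at h5
      rw [Finset.sum_congr rfl fun q _ => h2 q, ← Finset.sum_filter, Finset.sum_const,
        nsmul_eq_mul, mul_one]
    have h2 := card_normalizer_eq A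
    rw [hNcard] at h2
    have h3 := Nat.eq_of_mul_eq_mul_left hApos h2
    rw [h1, ← h3]
    push_cast
    ring
  set w' : Subgroup G → ℤ := fun K => m * w K - c0 * Ind A u K with hw'
  have hindinv := ind_inv hu
  have hw'A : w' A = 0 := by
    simp only [hw']
    rw [hInd, hc0]
    ring
  have h1 : Ev p w' g := by
    refine ih _ ?_ w' ?_ ?_ ?_ rfl
    · rw [← hn]
      refine Set.ncard_lt_ncard ?_ (Set.toFinite _)
      have hsub : {K : Subgroup G | ∃ K', K ≤ K' ∧ w' K' ≠ 0} ⊆
          {K : Subgroup G | ∃ K', K ≤ K' ∧ w K' ≠ 0} := by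
        rintro K ⟨K', hK, hK'⟩
        by_cases h2 : w K' ≠ 0
        · exact ⟨K', hK, h2⟩
        · push Not at h2
          have h3 : Ind A u K' ≠ 0 := by
            intro h4
            apply hK'
            simp only [hw']
            rw [h2, h4]
            ring
          obtain ⟨c, hc⟩ := ind_supp hu h3
          exact ⟨cj c A, hK.trans hc, by rw [hinv]; exact hAw⟩
      refine (Set.ssubset_iff_of_subset hsub).2 ⟨A, ⟨A, le_rfl, hAw⟩, ?_⟩
      rintro ⟨K', hK, hK'⟩
      have h2 : K' ≠ A := fun h => hK' (by rw [h]; exact hw'A)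
      have h3 : w K' = 0 := by
        by_contra h4
        exact h2 (hAmax K' hK h4)
      have h4 : Ind A u K' ≠ 0 := by
        intro h4
        apply hK'
        simp only [hw']
        rw [h3, h4]
        ring
      obtain ⟨c, hc⟩ := ind_supp hu h4
      apply h2
      refine (Subgroup.eq_of_le_of_card_ge hK ?_).symm
      have h5 := Subgroup.card_le_of_le hc
      rwa [card_cj] at h5
    · intro c K
      simp only [hw']
      rw [hinv, hindinv]
    · intro H T hHT hTH hc
      have h2 := hdress H T hHT hTH hc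
      have h3 := ind_dress hu H T hHT hTH hc
      have h4 : (∑ t : G, if t ∈ T then w' (H ⊔ zpowers t) else 0) =
          m * (∑ t : G, if t ∈ T then w (H ⊔ zpowers t) else 0) -
          c0 * (∑ t : G, if t ∈ T then Ind A u (H ⊔ zpowers t) else 0) := by
        rw [Finset.mul_sum, Finset.mul_sum, ← Finset.sum_sub_distrib]
        refine Finset.sum_congr rfl fun t _ => ?_
        split_ifs
        · rfl
        · ring
      rw [h4]
      exact dvd_sub (h2.mul_left _) (h3.mul_left _)
    · intro K hK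
      simp only [hw']
      rw [hvan K hK, ind_van hu K hK]
      ring
  have h2 : Ev p (Ind A u) g := ind_ev hu hev
  intro R hR hRg
  have h3 := h1 R hR hRg
  have h4 := h2 R hR hRg
  have h5 : NN w' g = m * NN w g - c0 * NN (Ind A u) g := by
    unfold NN
    rw [Finset.mul_sum, Finset.mul_sum, ← Finset.sum_sub_distrib]
    refine Finset.sum_congr rfl fun t _ => ?_
    split_ifs
    · rfl
    · ring
  have h6 : ((p : ℤ) * (Nat.card R : ℤ)) ∣ m * NN w g := by
    have h7 : m * NN w g = NN w' g + c0 * NN (Ind A u) g := by rw [h5]; ring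
    rw [h7]
    exact dvd_add h3 (h4.mul_left _)
  obtain ⟨j, hj⟩ := (IsPGroup.iff_card).1 hR
  have h7 : IsCoprime ((p : ℤ) * (Nat.card R : ℤ)) (m : ℤ) := by
    have h8 : ((p : ℤ) * (Nat.card R : ℤ)) = ((p ^ (j + 1) : ℕ) : ℤ) := by
      rw [hj]; push_cast; ring
    rw [h8, Nat.isCoprime_iff_coprime]
    exact Nat.Coprime.pow_left _ ((Nat.Prime.coprime_iff_not_dvd hp.out).2 hm)
  exact h7.dvd_of_dvd_mul_left h6

end P179S
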