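import Vale.Agent.P179.H5.Tri3

/-!
# Functions on the subgroups of a subgroup
-/

namespace P179S

open Subgroup MulAction

open scoped Classical

variable {G : Type*} [Group G]

/-- the extension by zero -/
noncomputable def ext0 (A : Subgroup G) (v : Subgroup A → ℤ) (K : Subgroup G) : ℤ :=
  if K ≤ A then v (K.subgroupOf A) else 0

theorem card_subgroupOf' {A K : Subgroup G} (h : K ≤ A) :
    Nat.card (K.subgroupOf A) = Nat.card K :=
  Nat.card_congr (Subgroup.subgroupOfEquivOfLe h).toEquiv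

theorem cj_le_of_mem {A K : Subgroup G} {a : G} (ha : a ∈ A) (h : K ≤ A) : cj a K ≤ A := by
  intro x hx
  rw [mem_cj] at hx
  have h1 := h hx
  have h2 : x = a * (a⁻¹ * x * a) * a⁻¹ := by group
  rw [h2]
  exact A.mul_mem (A.mul_mem ha h1) (A.inv_mem ha)

theorem cj_subgroupOf {A K : Subgroup G} (a : A) :
    (cj (a : G) K).subgroupOf A = cj a (K.subgroupOf A) := by
  ext x
  rw [mem_subgroupOf, mem_cj, mem_cj, mem_subgroupOf]
  rfl

theorem zpowers_subgroupOf {A : Subgroup G} (t : A) :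
    (zpowers (t : G)).subgroupOf A = zpowers t := by
  ext x
  rw [mem_subgroupOf, mem_zpowers_iff, mem_zpowers_iff]
  constructor
  · rintro ⟨n, hn⟩
    exact ⟨n, Subtype.ext (by rw [← hn]; rfl)⟩
  · rintro ⟨n, hn⟩
    exact ⟨n, by rw [← hn]; rfl⟩

theorem sup_zpowers_subgroupOf {A H : Subgroup G} (hH : H ≤ A) (t : A) :
    (H ⊔ zpowers (t : G)).subgroupOf A = H.subgroupOf A ⊔ zpowers t := by
  rw [Subgroup.subgroupOf_sup hH (by rw [zpowers_le]; exact t.2), zpowers_subgroupOf]

theorem closure_subgroupOf {A : Subgroup G} (x y : A) :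
    (closure {(x : G), (y : G)}).subgroupOf A = closure {x, y} := by
  have h1 : (closure {x, y} : Subgroup A).map A.subtype = closure {(x : G), (y : G)} := by
    rw [MonoidHom.map_closure, Set.image_pair]
    rfl
  rw [← h1, subgroupOf, comap_map_eq_self_of_injective A.subtype_injective]

theorem ext0_self {A : Subgroup G} (v : Subgroup A → ℤ) : ext0 A v A = v ⊤ := by
  unfold ext0
  rw [if_pos le_rfl, subgroupOf_self]

theorem normalizer_subgroupOf' {A H T : Subgroup G} (h : T ≤ normalizer (H : Set G)) :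
    T.subgroupOf A ≤ normalizer ((H.subgroupOf A : Subgroup A) : Set A) := by
  intro t ht
  rw [mem_subgroupOf] at ht
  have h1 := mem_normalizer_iff_cj.1 (h ht)
  rw [mem_normalizer_iff_cj, ← cj_subgroupOf, h1]

theorem hasOp_subgroupOf {p : ℕ} {A K : Subgroup G} (hK : K ≤ A) (h : HasOp p K) :
    HasOp p (K.subgroupOf A) := by
  obtain ⟨R, hR, hR1, hRp, hRn⟩ := h
  refine ⟨R.subgroupOf A, ?_, ?_, ?_, ?_⟩
  · intro x hx
    rw [mem_subgroupOf] at hx ⊢
    exact hR hx
  · intro h0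
    apply hR1
    have h1 := subgroupOf_map_subtype R A
    rw [h0, Subgroup.map_bot, inf_eq_left.2 (hR.trans hK)] at h1
    exact h1.symm
  · exact hRp.of_equiv (Subgroup.subgroupOfEquivOfLe (hR.trans hK)).symm
  · exact normalizer_subgroupOf' hRn

theorem hasOp_top_of {p : ℕ} {A : Subgroup G} (h : HasOp p (⊤ : Subgroup A)) : HasOp p A := by
  obtain ⟨R, hR, hR1, hRp, hRn⟩ := h
  refine ⟨R.map A.subtype, ?_, ?_, ?_, ?_⟩
  · rintro x ⟨y, -, rfl⟩
    exact y.2
  · intro h0
    exact hR1 ((map_eq_bot_iff_of_injective _ A.subtype_injective).1 h0)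
  · exact hRp.map _
  · intro x hx
    have h1 := mem_normalizer_iff_cj.1 (hRn (mem_top (⟨x, hx⟩ : A)))
    rw [mem_normalizer_iff_cj]
    ext z
    rw [mem_cj]
    constructor
    · rintro ⟨y, hy, hyz⟩
      have hzA : z ∈ A := by
        have : z = x * (x⁻¹ * z * x) * x⁻¹ := by group
        rw [this, ← hyz]
        exact A.mul_mem (A.mul_mem hx y.2) (A.inv_mem hx)
      refine ⟨⟨z, hzA⟩, ?_, rfl⟩
      have hy' : y = (⟨x, hx⟩ : A)⁻¹ * ⟨z, hzA⟩ * ⟨x, hx⟩ := Subtype.ext hyz
      have : (⟨z, hzA⟩ : A) ∈ cj (⟨x, hx⟩ : A) R := by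
        rw [mem_cj, ← hy']; exact hy
      rwa [h1] at this
    · rintro ⟨y, hy, rfl⟩
      have : y ∈ cj (⟨x, hx⟩ : A) R := by rw [h1]; exact hy
      rw [mem_cj] at this
      exact ⟨_, this, rfl⟩

variable [Fintype G]

theorem sum_subtype' (A : Subgroup G) [Fintype A] (f : G → ℤ) (hf : ∀ t, t ∉ A → f t = 0) :
    ∑ t : G, f t = ∑ t : A, f t := by
  symm
  refine Finset.sum_bij_ne_zero (fun t _ _ => (t : G)) ?_ ?_ ?_ ?_
  · intro _ _ _
    exact Finset.mem_univ _
  · intro a _ _ b _ _ h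
    exact Subtype.ext h
  · intro b _ hb
    have hbA : b ∈ A := by
      by_contra h
      exact hb (hf b h)
    exact ⟨⟨b, hbA⟩, Finset.mem_univ _, hb, rfl⟩
  · intro _ _ _
    rfl

theorem rel_ext0 {p : ℕ} {A : Subgroup G} [Fintype A] {v : Subgroup A → ℤ} (hi : Inv v)
    (hd : Dress p v) (hv : Van p v) : Rel p A (ext0 A v) := by
  refine ⟨?_, ?_, ?_, ?_⟩
  · intro K hK
    by_contra h
    apply hK
    unfold ext0
    rw [if_neg h]
  · intro a ha K
    unfold ext0
    by_cases h : K ≤ A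
    · rw [if_pos h, if_pos (cj_le_of_mem ha h)]
      have := cj_subgroupOf (A := A) (K := K) ⟨a, ha⟩
      change (cj a K).subgroupOf A = _ at this
      rw [this]
      exact hi _ _
    · rw [if_neg h, if_neg]
      intro h2
      apply h
      have h3 := cj_le_of_mem (A.inv_mem ha) h2
      rwa [cj_cj, inv_mul_cancel, cj_one] at h3
  · intro H T hHT hTA hTn hcard
    have h1 := hd (H.subgroupOf A) (T.subgroupOf A)
      (by intro x hx; rw [mem_subgroupOf] at hx ⊢; exact hHT hx)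
      (normalizer_subgroupOf' hTn)
      (by rw [card_subgroupOf' hTA, card_subgroupOf' (hHT.trans hTA)]; exact hcard)
    rw [card_subgroupOf' hTA] at h1
    rw [sum_subtype' A]
    · convert h1 using 2 with t
      refine if_congr ?_ ?_ rfl
      · rw [mem_subgroupOf]
      · unfold ext0
        rw [if_pos, sup_zpowers_subgroupOf (hHT.trans hTA)]
        exact sup_le (hHT.trans hTA) (by rw [zpowers_le]; exact t.2)
    · intro t ht
      rw [if_neg fun h => ht (hTA h)]
  · intro K hK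
    unfold ext0
    by_cases h : K ≤ A
    · rw [if_pos h]
      exact hv _ (hasOp_subgroupOf h hK)
    · rw [if_neg h]

theorem NN_ext0 {A : Subgroup G} [Fintype A] (v : Subgroup A → ℤ) {g : G} (hg : g ∈ A) :
    NN (ext0 A v) g = NN v ⟨g, hg⟩ := by
  unfold NN
  symm
  refine Finset.sum_bij_ne_zero (fun t _ _ => ((t.1 : G), (t.2 : G))) ?_ ?_ ?_ ?_
  · intro _ _ _
    exact Finset.mem_univ _
  · intro a _ _ b _ _ h
    have h' := Prod.ext_iff.1 h
    exact Prod.ext (Subtype.ext h'.1) (Subtype.ext h'.2)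
  · intro b _ hb
    have hc : b.1 * b.2 * b.1⁻¹ * b.2⁻¹ = g := by
      by_contra h
      exact hb (if_neg h)
    rw [if_pos hc] at hb
    have hle : closure {b.1, b.2} ≤ A := by
      by_contra h
      exact hb (if_neg h)
    have h1 : b.1 ∈ A := hle (subset_closure (by simp))
    have h2 : b.2 ∈ A := hle (subset_closure (by simp))
    refine ⟨(⟨b.1, h1⟩, ⟨b.2, h2⟩), Finset.mem_univ _, ?_, rfl⟩
    rw [if_pos (Subtype.ext hc)]
    unfold ext0 at hb
    rw [if_pos hle] at hb
    have h3 := closure_subgroupOf (A := A) ⟨b.1, h1⟩ ⟨b.2, h2⟩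
    rw [← h3]
    exact hb
  · intro t _ ht
    have hc : t.1 * t.2 * t.1⁻¹ * t.2⁻¹ = ⟨g, hg⟩ := by
      by_contra h
      exact ht (if_neg h)
    have hc' : (t.1 : G) * t.2 * (t.1 : G)⁻¹ * (t.2 : G)⁻¹ = g := congrArg Subtype.val hc
    rw [if_pos hc, if_pos hc']
    unfold ext0
    rw [if_pos, closure_subgroupOf]
    rw [closure_le]
    rintro x (rfl | rfl)
    · exact t.1.2
    · exact t.2.2

theorem NN_ext0_of_notMem {A : Subgroup G} (v : Subgroup A → ℤ) {g : G} (hg : g ∉ A) :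
    NN (ext0 A v) g = 0 := by
  unfold NN
  refine Finset.sum_eq_zero fun t _ => ?_
  split_ifs with h
  · unfold ext0
    rw [if_neg]
    intro hle
    apply hg
    rw [← h]
    have h1 : t.1 ∈ A := hle (subset_closure (by simp))
    have h2 : t.2 ∈ A := hle (subset_closure (by simp))
    exact A.mul_mem (A.mul_mem (A.mul_mem h1 h2) (A.inv_mem h1)) (A.inv_mem h2)
  · rfl

/-- **The transfer theorem.** -/
theorem transfer {p : ℕ} [hp : Fact p.Prime] {g : G}
    (hA : ∀ (A : Subgroup G) [Fintype A], ¬ HasOp p A → ∃ v : Subgroup A → ℤ, Inv v ∧ Dress p v ∧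
      Van p v ∧ v ⊤ = 1 ∧ ∀ g' : A, IsConj (g' : G) g → Ev p v g')
    {w : Subgroup G → ℤ} (h1 : Inv w) (h2 : Dress p w) (h3 : Van p w) : Ev p w g := by
  refine triangular (fun A hAp => ?_) _ w h1 h2 h3 rfl
  have := Fintype.ofFinite A
  obtain ⟨v, hi, hd, hv, hv1, he⟩ := hA A hAp
  refine ⟨ext0 A v, rel_ext0 hi hd hv, by rw [ext0_self, hv1], ?_⟩
  intro c R hR hRp hRg
  by_cases hmem : c⁻¹ * g * c ∈ A
  · rw [NN_ext0 v hmem]
    have h4 := he ⟨c⁻¹ * g * c, hmem⟩ (isConj_iff.2 ⟨c, by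
      change c * (c⁻¹ * g * c) * c⁻¹ = g
      group⟩) (R.subgroupOf A) (hRp.of_equiv (Subgroup.subgroupOfEquivOfLe hR).symm) (by
        intro a ha
        rw [mem_subgroupOf] at ha
        exact Subtype.ext (hRg a ha))
    rwa [card_subgroupOf' hR] at h4
  · rw [NN_ext0_of_notMem v hmem]
    exact dvd_zero _

end P179S
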