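import Vale.Agent.P179.H5.Tw1

/-!
# The congruence for a twist
-/

namespace P179S

open Subgroup MulAction Function

open scoped Classical

section

variable {G : Type*} [Group G] [Finite G] {p : ℕ} [hp : Fact p.Prime]

/-- freeness at the pairs with commutator `g` -/
def FreeAt (p : ℕ) (g : G) : Prop :=
  ∀ ξ : G × G, cm ξ = g → Big p (gn ξ) → ∀ z : G, (∃ m : ℕ, z ^ p ^ m = 1) → cn z ξ = ξ → z = 1

theorem stepA {n : ℕ} {τ : G × G → G × G} (hτ : Twist (p ^ n) τ) {g : G} {P : Subgroup G}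
    (hP : IsPGroup p P) {j : ℕ} (hj : g ^ j ∈ P)
    (hfree : FreeAt p g) (S : (G × G) × G → Prop) (hS : ∀ t, S t → cm t.1 = g ∧ Big p (gn t.1))
    (hSc : ∀ t, ∀ c ∈ P, S t → S (cn c t.1, c * t.2 * c⁻¹))
    (hSf : ∀ t, S t → S (τ^[j] t.1, t.2)) (hSg : ∀ t, S t → g * t.2 = t.2 * g) :
    ((p * Nat.card P : ℕ) : ℤ) ∣ (Nat.card {t // S t} : ℤ) -
      Nat.card {t // S t ∧ ∃ c ∈ P, τ^[j] t.1 = cn c t.1 ∧ c * t.2 * c⁻¹ = t.2} := by
  let act : MulAction P {t // S t} :=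
    { smul := fun c t => ⟨(cn (c : G) t.1.1, (c : G) * t.1.2 * (c : G)⁻¹), hSc t.1 c c.2 t.2⟩
      one_smul := by
        rintro ⟨⟨ξ, k⟩, ht⟩
        apply Subtype.ext
        refine Prod.ext ?_ ?_
        · change cn ((1 : P) : G) ξ = ξ
          rw [Subgroup.coe_one, cn_one]
        · change ((1 : P) : G) * k * ((1 : P) : G)⁻¹ = k
          rw [Subgroup.coe_one, inv_one, one_mul, mul_one]
      mul_smul := by
        rintro a b ⟨⟨ξ, k⟩, ht⟩
        apply Subtype.ext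
        refine Prod.ext ?_ ?_
        · change cn ((a * b : P) : G) ξ = cn (a : G) (cn (b : G) ξ)
          rw [Subgroup.coe_mul, cn_mul]
        · change ((a * b : P) : G) * k * ((a * b : P) : G)⁻¹ =
            (a : G) * ((b : G) * k * (b : G)⁻¹) * (a : G)⁻¹
          rw [Subgroup.coe_mul]
          group }
  have hsm : ∀ (c : P) (t : {t // S t}),
      (c • t).1 = (cn (c : G) t.1.1, (c : G) * t.1.2 * (c : G)⁻¹) := fun _ _ => rfl
  let f : {t // S t} → {t // S t} := fun t => ⟨(τ^[j] t.1.1, t.1.2), hSf t.1 t.2⟩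
  have hfit : ∀ (m : ℕ) (t : {t // S t}), (f^[m] t).1 = (τ^[j * m] t.1.1, t.1.2) := by
    intro m
    induction m with
    | zero => intro t; rfl
    | succ m ih =>
      intro t
      rw [iterate_succ, comp_apply, ih, mul_add, mul_one, iterate_add]
      rfl
  have h := free_fix (p := p) (n := n) (R := P) (X := {t // S t}) ?_ f ?_ ?_
  · have e : Nat.card {x : {t // S t} // ∃ c : P, f x = c • x} =
        Nat.card {t // S t ∧ ∃ c ∈ P, τ^[j] t.1 = cn c t.1 ∧ c * t.2 * c⁻¹ = t.2} := by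
      refine Nat.card_congr ⟨fun x => ⟨x.1.1, x.1.2, ?_⟩, fun x => ⟨⟨x.1, x.2.1⟩, ?_⟩, ?_, ?_⟩
      · obtain ⟨x, c, hc⟩ := x
        have h1 := congrArg Subtype.val hc
        rw [hsm] at h1
        exact ⟨c, c.2, congrArg Prod.fst h1, (congrArg Prod.snd h1).symm⟩
      · obtain ⟨x, hx, c, hc, h1, h2⟩ := x
        refine ⟨⟨c, hc⟩, ?_⟩
        apply Subtype.ext
        rw [hsm]
        exact Prod.ext h1 h2.symm
      · intro x; rfl
      · intro x; rfl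
    rw [← e]
    exact h
  · rintro ⟨⟨ξ, k⟩, ht⟩ c hc
    have h1 := congrArg Subtype.val hc
    rw [hsm] at h1
    have h2 : cn (c : G) ξ = ξ := congrArg Prod.fst h1
    have h3 := hS _ ht
    obtain ⟨m, hm⟩ := hP c
    exact Subtype.ext (hfree ξ h3.1 h3.2 c ⟨m, congrArg Subtype.val hm⟩ h2)
  · rintro c ⟨⟨ξ, k⟩, ht⟩
    apply Subtype.ext
    rw [hsm]
    refine Prod.ext ?_ rfl
    exact hτ.conj_iter j c ξ
  · rintro ⟨⟨ξ, k⟩, ht⟩
    refine ⟨⟨g ^ j, hj⟩, ?_⟩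
    apply Subtype.ext
    rw [hfit, hsm]
    refine Prod.ext ?_ ?_
    · change τ^[j * p ^ n] ξ = cn (g ^ j) ξ
      rw [mul_comm, hτ.full_iter, (hS _ ht).1]
    · change k = g ^ j * k * (g ^ j)⁻¹
      have h1 : Commute g k := hSg _ ht
      rw [(h1.pow_left j).eq, mul_inv_cancel_right]

/-- **The congruence for a twist** -/
theorem stepB {n : ℕ} {τ : G × G → G × G} (hτ : Twist (p ^ n) τ) {g : G} {P : Subgroup G}
    (hP : IsPGroup p P) (hPg : ∀ c ∈ P, c * g = g * c) {j : ℕ} (hj : g ^ j ∈ P)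
    (hjp : Nat.Coprime j p) (hfree : FreeAt p g) :
    ((p * Nat.card P : ℕ) : ℤ) ∣ (Nat.card {ξ : G × G // cm ξ = g ∧ Big p (gn ξ)} : ℤ) -
      Nat.card {t : (G × G) × G // (cm t.1 = g ∧ Big p (gn t.1)) ∧ τ t.1 = cn t.2 t.1 ∧
        t.2 ^ p ^ n = g} := by
  have hbig : ∀ (c : G) (ξ : G × G), Big p (gn ξ) → Big p (gn (cn c ξ)) := by
    intro c ξ h
    rw [gn_cn]
    exact big_cj h
  have hcmc : ∀ (c : G) (ξ : G × G), c ∈ P → cm ξ = g → cm (cn c ξ) = g := by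
    intro c ξ hc h
    rw [cm_cn, h, hPg c hc, mul_inv_cancel_right]
  -- the pairs
  have h1 : ((p * Nat.card P : ℕ) : ℤ) ∣
      (Nat.card {t : (G × G) × G // (cm t.1 = g ∧ Big p (gn t.1)) ∧ t.2 = 1} : ℤ) -
      Nat.card {t : (G × G) × G // ((cm t.1 = g ∧ Big p (gn t.1)) ∧ t.2 = 1) ∧
        ∃ c ∈ P, τ^[j] t.1 = cn c t.1 ∧ c * t.2 * c⁻¹ = t.2} := stepA hτ hP hj hfree
    (fun t => (cm t.1 = g ∧ Big p (gn t.1)) ∧ t.2 = 1)
    (fun t ht => ht.1)
    (fun t c hc ht => ⟨⟨hcmc c _ hc ht.1.1, hbig c _ ht.1.2⟩, by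
      change c * t.2 * c⁻¹ = 1
      rw [ht.2, mul_one, mul_inv_cancel]⟩)
    (fun t ht => ⟨⟨by
      change cm (τ^[j] t.1) = g
      rw [hτ.comm_iter]; exact ht.1.1, by
      change Big p (gn (τ^[j] t.1))
      rw [hτ.gen_iter]; exact ht.1.2⟩, ht.2⟩)
    (fun t ht => by rw [ht.2, mul_one, one_mul])
  -- the pairs with a root of `g`
  have h2 : ((p * Nat.card P : ℕ) : ℤ) ∣
      (Nat.card {t : (G × G) × G // (cm t.1 = g ∧ Big p (gn t.1)) ∧ τ t.1 = cn t.2 t.1 ∧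
        t.2 ^ p ^ n = g} : ℤ) -
      Nat.card {t : (G × G) × G // ((cm t.1 = g ∧ Big p (gn t.1)) ∧ τ t.1 = cn t.2 t.1 ∧
        t.2 ^ p ^ n = g) ∧ ∃ c ∈ P, τ^[j] t.1 = cn c t.1 ∧ c * t.2 * c⁻¹ = t.2} :=
    stepA hτ hP hj hfree
    (fun t => (cm t.1 = g ∧ Big p (gn t.1)) ∧ τ t.1 = cn t.2 t.1 ∧ t.2 ^ p ^ n = g)
    (fun t ht => ht.1)
    (fun t c hc ht => by
      refine ⟨⟨hcmc c _ hc ht.1.1, hbig c _ ht.1.2⟩, ?_, ?_⟩
      · change τ (cn c t.1) = cn (c * t.2 * c⁻¹) (cn c t.1)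
        rw [hτ.conj, ht.2.1, ← cn_mul, ← cn_mul, inv_mul_cancel_right]
      · change (c * t.2 * c⁻¹) ^ p ^ n = g
        rw [conj_pow, ht.2.2, hPg c hc, mul_inv_cancel_right])
    (fun t ht => by
      refine ⟨⟨?_, ?_⟩, ?_, ht.2.2⟩
      · change cm (τ^[j] t.1) = g
        rw [hτ.comm_iter]; exact ht.1.1
      · change Big p (gn (τ^[j] t.1))
        rw [hτ.gen_iter]; exact ht.1.2
      · change τ (τ^[j] t.1) = cn t.2 (τ^[j] t.1)
        rw [← hτ.conj_iter, ← ht.2.1]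
        exact (iterate_succ_apply' τ j t.1).symm.trans (iterate_succ_apply τ j t.1))
    (fun t ht => by
      rw [← ht.2.2, ← pow_succ, ← pow_succ'])
  -- the fixed points
  have h3 : Nat.card {t : (G × G) × G // ((cm t.1 = g ∧ Big p (gn t.1)) ∧ t.2 = 1) ∧
        ∃ c ∈ P, τ^[j] t.1 = cn c t.1 ∧ c * t.2 * c⁻¹ = t.2} =
      Nat.card {t : (G × G) × G // ((cm t.1 = g ∧ Big p (gn t.1)) ∧ τ t.1 = cn t.2 t.1 ∧
        t.2 ^ p ^ n = g) ∧ ∃ c ∈ P, τ^[j] t.1 = cn c t.1 ∧ c * t.2 * c⁻¹ = t.2} := by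
    symm
    let F : {t : (G × G) × G // ((cm t.1 = g ∧ Big p (gn t.1)) ∧ τ t.1 = cn t.2 t.1 ∧
        t.2 ^ p ^ n = g) ∧ ∃ c ∈ P, τ^[j] t.1 = cn c t.1 ∧ c * t.2 * c⁻¹ = t.2} →
      {t : (G × G) × G // ((cm t.1 = g ∧ Big p (gn t.1)) ∧ t.2 = 1) ∧
        ∃ c ∈ P, τ^[j] t.1 = cn c t.1 ∧ c * t.2 * c⁻¹ = t.2} := fun t =>
      ⟨(t.1.1, 1), ⟨t.2.1.1, rfl⟩, by
        obtain ⟨c, hc, hc1, -⟩ := t.2.2
        exact ⟨c, hc, hc1, by
          change c * 1 * c⁻¹ = 1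
          rw [mul_one, mul_inv_cancel]⟩⟩
    -- the root determined by a pair
    have hcop : Nat.Coprime j (p ^ n) := Nat.Coprime.pow_right n hjp
    have hroot : ∀ ξ : G × G, cm ξ = g → Big p (gn ξ) → ∀ c ∈ P, τ^[j] ξ = cn c ξ →
        ∃ k : G, τ ξ = cn k ξ ∧ k ^ p ^ n = g ∧ c * k * c⁻¹ = k ∧
          ∀ k' : G, τ ξ = cn k' ξ → k' ^ p ^ n = g → c * k' * c⁻¹ = k' → k' = k := by
      intro ξ hξ hξB c hc hcξ
      -- `c ^ q = g ^ j`
      have hcq : c ^ p ^ n = g ^ j := by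
        have e1 := hτ.pow_of_eq hcξ (p ^ n)
        rw [mul_comm, hτ.full_iter, hξ] at e1
        have e2 : cn ((g ^ j)⁻¹ * c ^ p ^ n) ξ = ξ := by
          rw [cn_mul, ← e1, ← cn_mul, inv_mul_cancel, cn_one]
        have e3 : (g ^ j)⁻¹ * c ^ p ^ n ∈ P := P.mul_mem (P.inv_mem hj) (P.pow_mem hc _)
        obtain ⟨m, hm⟩ := hP ⟨_, e3⟩
        have e4 := hfree ξ hξ hξB _ ⟨m, congrArg Subtype.val hm⟩ e2
        exact (inv_mul_eq_one.1 e4).symm
      have hcg : Commute c g := hPg c hc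
      -- exponents
      obtain ⟨α, β, hαβ⟩ : ∃ α β : ℕ, j * α = 1 + p ^ n * β := by
        rcases Nat.eq_zero_or_pos j with hj0 | hj0
        · subst hj0
          exfalso
          have h6 : p = 1 := by simpa using hjp
          exact hp.out.one_lt.ne' h6
        · have hq0 : 0 < p ^ n := pow_pos hp.out.pos n
          rcases Nat.eq_or_lt_of_le (Nat.succ_le_of_lt hq0) with hq1 | hq1
          · exact ⟨1, j - 1, by rw [← hq1]; simp only [Nat.succ_eq_add_one]; omega⟩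
          · obtain ⟨α, -, hα⟩ := Nat.exists_mul_mod_eq_one_of_coprime hcop hq1
            refine ⟨α, j * α / p ^ n, ?_⟩
            have h7 := Nat.mod_add_div (j * α) (p ^ n)
            rw [hα] at h7
            exact h7.symm
      have hk : ∀ k : G, (k = (g ^ β)⁻¹ * c ^ α) → τ ξ = cn k ξ := by
        rintro k rfl
        have e1 := hτ.pow_of_eq hcξ α
        rw [hαβ, iterate_add, comp_apply, hτ.full_iter, hξ] at e1
        change τ (cn (g ^ β) ξ) = cn (c ^ α) ξ at e1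
        rw [hτ.conj] at e1
        rw [cn_mul, ← e1, ← cn_mul, inv_mul_cancel, cn_one]
      refine ⟨(g ^ β)⁻¹ * c ^ α, hk _ rfl, ?_, ?_, ?_⟩
      · have e2 : Commute (g ^ β)⁻¹ (c ^ α) := ((hcg.pow_pow α β).symm).inv_left
        rw [e2.mul_pow, ← pow_mul c, mul_comm α, pow_mul c, hcq, ← pow_mul, hαβ, inv_pow,
          ← pow_mul g, mul_comm β, pow_add, pow_one]
        have e5 : (g ^ (p ^ n * β))⁻¹ * (g * g ^ (p ^ n * β)) = g := by
          rw [← pow_succ', pow_succ, inv_mul_cancel_left]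
        exact e5
      · have e3 : Commute c ((g ^ β)⁻¹ * c ^ α) :=
          ((hcg.pow_right β).inv_right).mul_right ((Commute.refl c).pow_right α)
        rw [e3.eq, mul_inv_cancel_right]
      · intro k' hk1 hk2 hk3
        set k := (g ^ β)⁻¹ * c ^ α with hkdef
        have e4 : cn (k⁻¹ * k') ξ = ξ := by
          rw [cn_mul, ← hk1, hk _ rfl, ← cn_mul, inv_mul_cancel, cn_one]
        have hzg : Commute (k⁻¹ * k') g := commute_of_cn e4 (by
          have := cm_mem_gn ξ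
          rwa [hξ] at this)
        have hck : Commute c k :=
          ((hcg.pow_right β).inv_right).mul_right ((Commute.refl c).pow_right α)
        have hck' : Commute c k' := mul_inv_eq_iff_eq_mul.1 hk3
        have hzc : Commute (k⁻¹ * k') c := (hck.inv_right.mul_right hck').symm
        have hzk : Commute (k⁻¹ * k') k :=
          ((hzg.pow_right β).inv_right).mul_right (hzc.pow_right α)
        have e5 : k' = k * (k⁻¹ * k') := by group
        have e6 : (k⁻¹ * k') ^ p ^ n = 1 := by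
          have e7 : k' ^ p ^ n = k ^ p ^ n * (k⁻¹ * k') ^ p ^ n := by
            rw [← hzk.symm.mul_pow, ← e5]
          have e8 : k ^ p ^ n = g := by
            have e2 : Commute (g ^ β)⁻¹ (c ^ α) := ((hcg.pow_pow α β).symm).inv_left
            rw [hkdef, e2.mul_pow, ← pow_mul c, mul_comm α, pow_mul c, hcq, ← pow_mul, hαβ,
              inv_pow, ← pow_mul g, mul_comm β, pow_add, pow_one]
            have e5 : (g ^ (p ^ n * β))⁻¹ * (g * g ^ (p ^ n * β)) = g := by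
              rw [← pow_succ', pow_succ, inv_mul_cancel_left]
            exact e5
          rw [hk2, e8] at e7
          exact (mul_eq_left.1 e7.symm)
        have e9 := hfree ξ hξ hξB _ ⟨n, e6⟩ e4
        exact (inv_mul_eq_one.1 e9).symm
    refine Nat.card_congr (Equiv.ofBijective F ⟨?_, ?_⟩)
    · rintro ⟨⟨ξ, k⟩, ⟨⟨hξ, hξB⟩, hk1, hk2⟩, c, hc, hc1, hc2⟩
        ⟨⟨ξ', k'⟩, ⟨⟨hξ', hξB'⟩, hk1', hk2'⟩, c', hc', hc1', hc2'⟩ h
      have h4 : ξ = ξ' := congrArg (fun t => t.1.1) h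
      subst h4
      have h5 : c = c' := by
        have e1 : cn (c⁻¹ * c') ξ = ξ := by
          have e2 : τ^[j] ξ = cn c' ξ := hc1'
          have e3 : τ^[j] ξ = cn c ξ := hc1
          rw [cn_mul, ← e2, e3, ← cn_mul, inv_mul_cancel, cn_one]
        obtain ⟨m, hm⟩ := hP ⟨c⁻¹ * c', P.mul_mem (P.inv_mem hc) hc'⟩
        exact inv_mul_eq_one.1 (hfree ξ hξ hξB _ ⟨m, congrArg Subtype.val hm⟩ e1)
      subst h5
      obtain ⟨k0, -, -, -, hu⟩ := hroot ξ hξ hξB c hc hc1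
      have h6 : k = k' := (hu k hk1 hk2 hc2).trans (hu k' hk1' hk2' hc2').symm
      subst h6
      rfl
    · rintro ⟨⟨ξ, k⟩, ⟨⟨hξ, hξB⟩, hk⟩, c, hc, hc1, hc2⟩
      obtain ⟨k0, hk1, hk2, hk3, -⟩ := hroot ξ hξ hξB c hc hc1
      refine ⟨⟨(ξ, k0), ⟨⟨hξ, hξB⟩, hk1, hk2⟩, c, hc, hc1, hk3⟩, ?_⟩
      apply Subtype.ext
      exact Prod.ext rfl hk.symm
  have h4 : Nat.card {t : (G × G) × G // (cm t.1 = g ∧ Big p (gn t.1)) ∧ t.2 = 1} =
      Nat.card {ξ : G × G // cm ξ = g ∧ Big p (gn ξ)} := by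
    refine Nat.card_congr ⟨fun t => ⟨t.1.1, t.2.1⟩, fun ξ => ⟨(ξ.1, 1), ξ.2, rfl⟩, ?_, ?_⟩
    · rintro ⟨⟨ξ, k⟩, hξ, hk⟩
      apply Subtype.ext
      exact Prod.ext rfl hk.symm
    · intro ξ; rfl
  have h5 := dvd_sub h1 h2
  rw [h3, h4, sub_sub_sub_cancel_right] at h5
  exact h5

end

end P179S
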