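import Vale.Agent.P179.H5.Tw2

/-!
# The two twists
-/

namespace P179S

open Subgroup MulAction Function

open scoped Classical

section

variable {G : Type*} [Group G]

/-- the twist of order four -/
def tw4 (ξ : G × G) : G × G := (ξ.1 * ξ.2 * ξ.1⁻¹, ξ.1⁻¹)

/-- the twist of order three -/
def tw3 (ξ : G × G) : G × G := (ξ.1 * ξ.2 * ξ.1⁻¹, ξ.2⁻¹ * ξ.1⁻¹)

theorem twist4 : Twist (2 ^ 2) (tw4 : G × G → G × G) where
  comm := by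
    rintro ⟨x, y⟩
    simp only [cm, tw4]
    group
  conj := by
    rintro c ⟨x, y⟩
    refine Prod.ext ?_ ?_
    · simp only [cn, tw4]
      group
    · simp only [cn, tw4]
      group
  gen := by
    rintro ⟨x, y⟩
    refine le_antisymm (gn_le ?_ ?_) (gn_le ?_ ?_)
    · exact (gn (x, y)).mul_mem ((gn (x, y)).mul_mem (fst_mem_gn _) (snd_mem_gn _))
        ((gn (x, y)).inv_mem (fst_mem_gn _))
    · exact (gn (x, y)).inv_mem (fst_mem_gn _)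
    · have h := (gn (tw4 (x, y))).inv_mem (snd_mem_gn (tw4 (x, y)))
      simpa [tw4] using h
    · have h1 : x ∈ gn (tw4 (x, y)) := by
        have h := (gn (tw4 (x, y))).inv_mem (snd_mem_gn (tw4 (x, y)))
        simpa [tw4] using h
      have h2 : x * y * x⁻¹ ∈ gn (tw4 (x, y)) := fst_mem_gn (tw4 (x, y))
      have h3 := (gn (tw4 (x, y))).mul_mem ((gn (tw4 (x, y))).mul_mem
        ((gn (tw4 (x, y))).inv_mem h1) h2) h1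
      have h4 : x⁻¹ * (x * y * x⁻¹) * x = y := by group
      rwa [h4] at h3
  full := by
    rintro ⟨x, y⟩
    change tw4 (tw4 (tw4 (tw4 (x, y)))) = _
    refine Prod.ext ?_ ?_
    · simp only [cn, tw4, cm]
      group
    · simp only [cn, tw4, cm]
      group

theorem twist3 : Twist (3 ^ 1) (tw3 : G × G → G × G) where
  comm := by
    rintro ⟨x, y⟩
    simp only [cm, tw3]
    group
  conj := by
    rintro c ⟨x, y⟩
    refine Prod.ext ?_ ?_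
    · simp only [cn, tw3]
      group
    · simp only [cn, tw3]
      group
  gen := by
    rintro ⟨x, y⟩
    have hx : x ∈ gn (tw3 (x, y)) := by
      have h2 : x * y * x⁻¹ ∈ gn (tw3 (x, y)) := fst_mem_gn (tw3 (x, y))
      have h3 : y⁻¹ * x⁻¹ ∈ gn (tw3 (x, y)) := snd_mem_gn (tw3 (x, y))
      have h4 := (gn (tw3 (x, y))).mul_mem ((gn (tw3 (x, y))).inv_mem h2)
        ((gn (tw3 (x, y))).inv_mem h3)
      have h5 : (x * y * x⁻¹)⁻¹ * (y⁻¹ * x⁻¹)⁻¹ = x := by group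
      rwa [h5] at h4
    refine le_antisymm (gn_le ?_ ?_) (gn_le hx ?_)
    · exact (gn (x, y)).mul_mem ((gn (x, y)).mul_mem (fst_mem_gn _) (snd_mem_gn _))
        ((gn (x, y)).inv_mem (fst_mem_gn _))
    · exact (gn (x, y)).mul_mem ((gn (x, y)).inv_mem (snd_mem_gn _))
        ((gn (x, y)).inv_mem (fst_mem_gn _))
    · have h3 : y⁻¹ * x⁻¹ ∈ gn (tw3 (x, y)) := snd_mem_gn (tw3 (x, y))
      have h4 := (gn (tw3 (x, y))).mul_mem ((gn (tw3 (x, y))).inv_mem hx)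
        ((gn (tw3 (x, y))).inv_mem h3)
      have h5 : x⁻¹ * (y⁻¹ * x⁻¹)⁻¹ = y := by group
      rwa [h5] at h4
  full := by
    rintro ⟨x, y⟩
    change tw3 (tw3 (tw3 (x, y))) = _
    refine Prod.ext ?_ ?_
    · simp only [cn, tw3, cm]
      group
    · simp only [cn, tw3, cm]
      group

/-- an element of order prime to `p` with a `p ^ n`-th power in `H` -/
theorem big_of_root [Finite G] {p n : ℕ} [hp : Fact p.Prime] {τ : G × G → G × G}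
    (hτ : Twist (p ^ n) τ) {ξ : G × G} {k : G} (h1 : τ ξ = cn k ξ) (h2 : k ^ p ^ n = cm ξ)
    {L : Subgroup G} (hL : Big p L) (hLe : L ≤ gn ξ ⊔ zpowers k) : Big p (gn ξ) := by
  set H := gn ξ with hH
  have hkN : k ∈ normalizer (H : Set G) := by
    rw [mem_normalizer_iff_cj, hH, ← gn_cn, ← h1, hτ.gen]
  have hkq : k ^ p ^ n ∈ H := by rw [h2]; exact cm_mem_gn ξ
  set N := normalizer (H : Set G) with hN
  have hHN : H ≤ N := le_normalizer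
  have : (H.subgroupOf N).Normal := by
    refine ⟨fun a ha t => ?_⟩
    rw [mem_subgroupOf] at ha ⊢
    exact (mem_normalizer_iff.1 t.2 (a : G)).1 ha
  let π : N →* N ⧸ H.subgroupOf N := QuotientGroup.mk' (H.subgroupOf N)
  let S : Subgroup G := ((zpowers (π ⟨k, hkN⟩)).comap π).map N.subtype
  have hS : H ⊔ zpowers k ≤ S := by
    refine sup_le ?_ ?_
    · intro x hx
      refine ⟨⟨x, hHN hx⟩, ?_, rfl⟩
      change π ⟨x, hHN hx⟩ ∈ zpowers (π ⟨k, hkN⟩)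
      have : π ⟨x, hHN hx⟩ = 1 := (QuotientGroup.eq_one_iff _).2 (mem_subgroupOf.2 hx)
      rw [this]
      exact one_mem _
    · rw [zpowers_le]
      exact ⟨⟨k, hkN⟩, mem_zpowers _, rfl⟩
  intro x hx
  obtain ⟨w, hw, hwx⟩ := hS (hLe (hL x hx))
  have hw' : π w ∈ zpowers (π ⟨k, hkN⟩) := hw
  obtain ⟨i, hi⟩ := hw'
  have h3 : π w ^ p ^ n = 1 := by
    have h4 : π ⟨k, hkN⟩ ^ p ^ n = 1 := by
      rw [← map_pow]
      exact (QuotientGroup.eq_one_iff _).2 (mem_subgroupOf.2 hkq)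
    have h5 : π w = π ⟨k, hkN⟩ ^ i := hi.symm
    rw [h5, ← zpow_natCast, zpow_comm, zpow_natCast, h4, one_zpow]
  have h6 : x ^ p ^ n ∈ H := by
    rw [← map_pow] at h3
    have h7 := mem_subgroupOf.1 ((QuotientGroup.eq_one_iff _).1 h3)
    rw [← hwx]
    exact h7
  obtain ⟨m, hm⟩ := exists_pow_eq_self_of_coprime (x := x) (n := p ^ n)
    (Nat.Coprime.pow_left _ ((Nat.Prime.coprime_iff_not_dvd hp.out).2 hx))
  rw [← hm]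
  exact H.pow_mem h6 m

theorem rel2a {x y k : G} (h1 : x * y * x⁻¹ = k * x * k⁻¹) (h2 : x⁻¹ = k * y * k⁻¹)
    (h3 : k ^ 4 = x * y * x⁻¹ * y⁻¹) :
    y = k⁻¹ * x⁻¹ * k ∧ (k⁻¹ * x) ^ 4 = 1 ∧ (x⁻¹ * (k * k)) ^ 2 = 1 := by
  have hy : y = k⁻¹ * x⁻¹ * k := by rw [h2]; group
  have e1 : k * k = x * (k⁻¹ * k⁻¹) * x := by
    have e2 : k ^ 4 = k * x * k⁻¹ * y⁻¹ := by rw [h3, h1]
    rw [hy] at e2
    have e3 : k * (k * k) * k = k * (x * (k⁻¹ * k⁻¹) * x) * k := by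
      have e4 : k * (k * k) * k = k ^ 4 := by simp [pow_succ, mul_assoc]
      rw [e4, e2]
      simp [mul_assoc]
    exact mul_left_cancel (mul_right_cancel e3)
  have ht : (x⁻¹ * (k * k)) ^ 2 = 1 := by
    rw [pow_two]
    calc x⁻¹ * (k * k) * (x⁻¹ * (k * k)) = x⁻¹ * (x * (k⁻¹ * k⁻¹) * x) * (x⁻¹ * (k * k)) := by
          rw [← e1]
      _ = 1 := by simp [mul_assoc]
  refine ⟨hy, ?_, ht⟩
  rw [hy] at h1
  have e5 : (k⁻¹ * x) ^ 4 * (x⁻¹ * (k * k)) ^ 2 =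
      (k * k)⁻¹ * ((k * x * k⁻¹) * (x * (k⁻¹ * x⁻¹ * k) * x⁻¹)⁻¹) * (k * k) := by
    simp [pow_succ, mul_assoc]
  rw [ht, h1, mul_one] at e5
  rw [e5]
  simp [mul_assoc]

theorem rel2b {s t : G} (hs : s ^ 4 = 1) (ht : t ^ 2 = 1) :
    s * t * s * (t⁻¹ * s⁻¹ * s⁻¹) * (s * t * s)⁻¹ * (t⁻¹ * s⁻¹ * s⁻¹)⁻¹ = (s * t) ^ 4 ∧
    s * t * s * (t⁻¹ * s⁻¹ * s⁻¹) * (s * t * s)⁻¹ = s * t * (s * t * s) * (s * t)⁻¹ := by
  have ht1 : t⁻¹ = t := by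
    rw [inv_eq_iff_mul_eq_one, ← pow_two]; exact ht
  have hs1 : s⁻¹ * (s⁻¹ * s⁻¹) = s := by
    have h1 : s * (s * (s * s)) = 1 := by
      rw [← hs]; simp [pow_succ, mul_assoc]
    have h2 : s⁻¹ * (s⁻¹ * s⁻¹) = s⁻¹ * (s⁻¹ * s⁻¹) * (s * (s * (s * s))) := by
      rw [h1, mul_one]
    rw [h2]
    simp [mul_assoc]
  have e1 : s * t * s * (t⁻¹ * s⁻¹ * s⁻¹) * (s * t * s)⁻¹ =
      s * t * s * t⁻¹ * (s⁻¹ * (s⁻¹ * s⁻¹)) * t⁻¹ * s⁻¹ := by simp [mul_assoc]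
  have e2 : s * t * s * (t⁻¹ * s⁻¹ * s⁻¹) * (s * t * s)⁻¹ = s * t * s * t * s * t * s⁻¹ := by
    rw [e1, hs1, ht1]
  constructor
  · rw [e2]
    have e3 : s * t * s * t * s * t * s⁻¹ * (t⁻¹ * s⁻¹ * s⁻¹)⁻¹ = (s * t) ^ 4 := by
      simp [pow_succ, mul_assoc]
    exact e3
  · rw [e2]
    have e4 : s * t * (s * t * s) * (s * t)⁻¹ = s * t * s * t * s * t⁻¹ * s⁻¹ := by
      simp [mul_assoc]
    rw [e4, ht1]

theorem rel3a {x y k : G} (h1 : x * y * x⁻¹ = k * x * k⁻¹) (h2 : y⁻¹ * x⁻¹ = k * y * k⁻¹)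
    (h3 : k ^ 3 = x * y * x⁻¹ * y⁻¹) :
    y = k⁻¹ * k⁻¹ * x * k⁻¹ ∧ (k * x⁻¹ * k) ^ 3 = 1 ∧ (k⁻¹ * x) ^ 3 = 1 := by
  have hy : y = k⁻¹ * k⁻¹ * x * k⁻¹ := by
    rw [h1] at h3
    have e1 : y = (k ^ 3)⁻¹ * (k * x * k⁻¹) := by
      rw [h3]; simp [mul_assoc]
    rw [e1]
    simp [pow_succ, mul_assoc]
  have hd : (k⁻¹ * x * k⁻¹) ^ 3 = 1 := by
    have e1 : (k⁻¹ * x * k⁻¹) ^ 3 =
        k * (k⁻¹ * k⁻¹ * x * k⁻¹) * k⁻¹ * (x * (k⁻¹ * k⁻¹ * x * k⁻¹)) := by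
      simp [pow_succ, mul_assoc]
    rw [e1, ← hy, ← h2]
    simp [mul_assoc]
  have hs : (k * x⁻¹ * k) ^ 3 = 1 := by
    have e1 : k * x⁻¹ * k = (k⁻¹ * x * k⁻¹)⁻¹ := by simp [mul_assoc]
    rw [e1, inv_pow, hd, inv_one]
  refine ⟨hy, hs, ?_⟩
  have hd2 : k * x⁻¹ * k * (k * x⁻¹ * k) = k⁻¹ * x * k⁻¹ := by
    have e1 : k * x⁻¹ * k * (k * x⁻¹ * k) = (k * x⁻¹ * k) ^ 3 * (k * x⁻¹ * k)⁻¹ := by
      simp [pow_succ, mul_assoc]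
    rw [e1, hs, one_mul]
    simp [mul_assoc]
  have e2 : (x * (k⁻¹ * k⁻¹ * x * k⁻¹) * x⁻¹)⁻¹ * (k * x * k⁻¹) = 1 := by
    rw [← hy, h1, inv_mul_cancel]
  have e3 : (x * (k⁻¹ * k⁻¹ * x * k⁻¹) * x⁻¹)⁻¹ * (k * x * k⁻¹) =
      x * (k * x⁻¹ * k * (k * x⁻¹ * k)) * (x * k⁻¹) := by
    simp [mul_assoc]
  rw [e3, hd2] at e2
  have e4 : (k⁻¹ * x) ^ 3 = k⁻¹ * (x * (k⁻¹ * x * k⁻¹) * (x * k⁻¹)) * k := by
    simp [pow_succ, mul_assoc]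
  rw [e4, e2]
  simp

theorem rel3b {s t : G} (hs : s ^ 3 = 1) (ht : t ^ 3 = 1) :
    s * t * t * (t⁻¹ * s⁻¹ * s⁻¹) * (s * t * t)⁻¹ * (t⁻¹ * s⁻¹ * s⁻¹)⁻¹ = (s * t) ^ 3 ∧
    s * t * t * (t⁻¹ * s⁻¹ * s⁻¹) * (s * t * t)⁻¹ = s * t * (s * t * t) * (s * t)⁻¹ ∧
    (t⁻¹ * s⁻¹ * s⁻¹)⁻¹ * (s * t * t)⁻¹ = s * t * (t⁻¹ * s⁻¹ * s⁻¹) * (s * t)⁻¹ := by
  have inv2 : ∀ a : G, a ^ 3 = 1 → a⁻¹ * a⁻¹ = a := by
    intro a ha
    have h1 : a * (a * a) = 1 := by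
      rw [← ha]; simp [pow_succ, mul_assoc]
    have h2 : a⁻¹ * a⁻¹ = a⁻¹ * a⁻¹ * (a * (a * a)) := by
      rw [h1, mul_one]
    rw [h2]
    simp [mul_assoc]
  have hs1 := inv2 s hs
  have ht1 := inv2 t ht
  have e1 : s * t * t * (t⁻¹ * s⁻¹ * s⁻¹) * (s * t * t)⁻¹ =
      s * t * (s⁻¹ * s⁻¹) * (t⁻¹ * t⁻¹) * s⁻¹ := by simp [mul_assoc]
  have e2 : s * t * t * (t⁻¹ * s⁻¹ * s⁻¹) * (s * t * t)⁻¹ = s * t * s * t * s⁻¹ := by
    rw [e1, hs1, ht1]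
  refine ⟨?_, ?_, ?_⟩
  · rw [e2]
    simp [pow_succ, mul_assoc]
  · rw [e2]
    simp [mul_assoc]
  · have e3 : (t⁻¹ * s⁻¹ * s⁻¹)⁻¹ * (s * t * t)⁻¹ = s * s * t⁻¹ * s⁻¹ := by
      simp [mul_assoc]
    have e4 : s * t * (t⁻¹ * s⁻¹ * s⁻¹) * (s * t)⁻¹ = s⁻¹ * t⁻¹ * s⁻¹ := by
      simp [mul_assoc]
    have e5 : s * s = s⁻¹ := by
      rw [eq_inv_iff_mul_eq_one, ← hs]
      simp [pow_succ, mul_assoc]
    rw [e3, e4, e5]

theorem card_tri_gen [Finite G] {p n b : ℕ} [hp : Fact p.Prime] {τ : G × G → G × G}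
    (hτ : Twist (p ^ n) τ) (X Y S T : G → G → G)
    (ha : ∀ x y k, τ (x, y) = cn k (x, y) → k ^ p ^ n = cm (x, y) →
      S x k ^ p ^ n = 1 ∧ T x k ^ b = 1 ∧ S x k * T x k = k ∧ X (S x k) (T x k) = x ∧
        Y (S x k) (T x k) = y)
    (hb : ∀ s t : G, s ^ p ^ n = 1 → t ^ b = 1 →
      τ (X s t, Y s t) = cn (s * t) (X s t, Y s t) ∧ cm (X s t, Y s t) = (s * t) ^ p ^ n ∧
        S (X s t) (s * t) = s ∧ T (X s t) (s * t) = t)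
    (hg1 : ∀ (s t : G) (L : Subgroup G), s ∈ L → t ∈ L → X s t ∈ L ∧ Y s t ∈ L)
    (hg2 : ∀ (x k : G) (L : Subgroup G), x ∈ L → k ∈ L → S x k ∈ L ∧ T x k ∈ L) (g : G) :
    Nat.card {t : (G × G) × G // (cm t.1 = g ∧ Big p (gn t.1)) ∧ τ t.1 = cn t.2 t.1 ∧
      t.2 ^ p ^ n = g} =
    Nat.card {t : G × G // t.1 ^ p ^ n = 1 ∧ t.2 ^ b = 1 ∧ (t.1 * t.2) ^ p ^ n = g ∧
      ∀ x : G, ¬ p ∣ orderOf x → x ∈ closure {t.1, t.2}} := by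
  refine Nat.card_congr ⟨fun t => ⟨(S t.1.1.1 t.1.2, T t.1.1.1 t.1.2), ?_⟩,
    fun t => ⟨((X t.1.1 t.1.2, Y t.1.1 t.1.2), t.1.1 * t.1.2), ?_⟩, ?_, ?_⟩
  · obtain ⟨⟨⟨x, y⟩, k⟩, ⟨hg, hB⟩, hk, hkg⟩ := t
    have hg' : cm (x, y) = g := hg
    have hkg' : k ^ p ^ n = g := hkg
    obtain ⟨h1, h2, h3, h4, h5⟩ := ha x y k hk (by rw [hg', hkg'])
    refine ⟨h1, h2, ?_, ?_⟩
    · change (S x k * T x k) ^ p ^ n = g
      rw [h3]; exact hkg'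
    · intro w hw
      have h6 := hg1 (S x k) (T x k) (closure {S x k, T x k}) (subset_closure (by simp))
        (subset_closure (by simp))
      rw [h4, h5] at h6
      exact gn_le (ξ := (x, y)) h6.1 h6.2 (hB w hw)
  · obtain ⟨⟨s, t⟩, hs, ht, hst, hB⟩ := t
    have hst' : (s * t) ^ p ^ n = g := hst
    obtain ⟨h1, h2, h3, h4⟩ := hb s t hs ht
    refine ⟨⟨?_, ?_⟩, h1, hst'⟩
    · change cm (X s t, Y s t) = g
      rw [h2]; exact hst'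
    · refine big_of_root hτ h1 h2.symm (L := closure {s, t}) hB ?_
      rw [closure_le]
      have hx : X s t ∈ gn (X s t, Y s t) ⊔ zpowers (s * t) :=
        (le_sup_left : gn (X s t, Y s t) ≤ _) (fst_mem_gn (X s t, Y s t))
      have hk : s * t ∈ gn (X s t, Y s t) ⊔ zpowers (s * t) :=
        (le_sup_right : zpowers (s * t) ≤ _) (mem_zpowers _)
      have h5 := hg2 _ _ _ hx hk
      rw [h3, h4] at h5
      rintro w (rfl | rfl)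
      · exact h5.1
      · exact h5.2
  · rintro ⟨⟨⟨x, y⟩, k⟩, ⟨hg, hB⟩, hk, hkg⟩
    have hg' : cm (x, y) = g := hg
    have hkg' : k ^ p ^ n = g := hkg
    obtain ⟨h1, h2, h3, h4, h5⟩ := ha x y k hk (by rw [hg', hkg'])
    apply Subtype.ext
    exact Prod.ext (Prod.ext h4 h5) h3
  · rintro ⟨⟨s, t⟩, hs, ht, hst, hB⟩
    obtain ⟨h1, h2, h3, h4⟩ := hb s t hs ht
    apply Subtype.ext
    exact Prod.ext h3 h4

theorem card_tri2 [Finite G] (g : G) :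
    Nat.card {t : (G × G) × G // (cm t.1 = g ∧ Big 2 (gn t.1)) ∧ tw4 t.1 = cn t.2 t.1 ∧
      t.2 ^ 2 ^ 2 = g} =
    Nat.card {t : G × G // t.1 ^ 2 ^ 2 = 1 ∧ t.2 ^ 2 = 1 ∧ (t.1 * t.2) ^ 2 ^ 2 = g ∧
      ∀ x : G, ¬ 2 ∣ orderOf x → x ∈ closure {t.1, t.2}} := by
  refine card_tri_gen twist4 (fun s t => s * t * s) (fun s t => t⁻¹ * s⁻¹ * s⁻¹)
    (fun x k => k⁻¹ * x) (fun x k => x⁻¹ * (k * k)) ?_ ?_ ?_ ?_ g
  · intro x y k hk hkg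
    have h1 : x * y * x⁻¹ = k * x * k⁻¹ := congrArg Prod.fst hk
    have h2 : x⁻¹ = k * y * k⁻¹ := congrArg Prod.snd hk
    obtain ⟨hy, hs, ht⟩ := rel2a h1 h2 hkg
    refine ⟨hs, ht, ?_, ?_, ?_⟩
    · simp [mul_assoc]
    · simp [mul_assoc]
    · rw [hy]
      simp [mul_assoc]
  · intro s t hs ht
    obtain ⟨h1, h2⟩ := rel2b hs ht
    refine ⟨Prod.ext h2 ?_, h1, ?_, ?_⟩
    · change (s * t * s)⁻¹ = s * t * (t⁻¹ * s⁻¹ * s⁻¹) * (s * t)⁻¹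
      simp [mul_assoc]
    · simp [mul_assoc]
    · simp [mul_assoc]
  · intro s t L hs ht
    exact ⟨L.mul_mem (L.mul_mem hs ht) hs,
      L.mul_mem (L.mul_mem (L.inv_mem ht) (L.inv_mem hs)) (L.inv_mem hs)⟩
  · intro x k L hx hk
    exact ⟨L.mul_mem (L.inv_mem hk) hx, L.mul_mem (L.inv_mem hx) (L.mul_mem hk hk)⟩

theorem card_tri3 [Finite G] (g : G) :
    Nat.card {t : (G × G) × G // (cm t.1 = g ∧ Big 3 (gn t.1)) ∧ tw3 t.1 = cn t.2 t.1 ∧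
      t.2 ^ 3 ^ 1 = g} =
    Nat.card {t : G × G // t.1 ^ 3 ^ 1 = 1 ∧ t.2 ^ 3 = 1 ∧ (t.1 * t.2) ^ 3 ^ 1 = g ∧
      ∀ x : G, ¬ 3 ∣ orderOf x → x ∈ closure {t.1, t.2}} := by
  refine card_tri_gen twist3 (fun s t => s * t * t) (fun s t => t⁻¹ * s⁻¹ * s⁻¹)
    (fun x k => k * x⁻¹ * k) (fun x k => k⁻¹ * x) ?_ ?_ ?_ ?_ g
  · intro x y k hk hkg
    have h1 : x * y * x⁻¹ = k * x * k⁻¹ := congrArg Prod.fst hk
    have h2 : y⁻¹ * x⁻¹ = k * y * k⁻¹ := congrArg Prod.snd hk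
    obtain ⟨hy, hs, ht⟩ := rel3a h1 h2 hkg
    refine ⟨hs, ht, ?_, ?_, ?_⟩
    · simp [mul_assoc]
    · simp [mul_assoc]
    · rw [hy]
      simp [mul_assoc]
  · intro s t hs ht
    obtain ⟨h1, h2, h3⟩ := rel3b hs ht
    refine ⟨Prod.ext h2 h3, h1, ?_, ?_⟩
    · simp [mul_assoc]
    · simp [mul_assoc]
  · intro s t L hs ht
    exact ⟨L.mul_mem (L.mul_mem hs ht) ht,
      L.mul_mem (L.mul_mem (L.inv_mem ht) (L.inv_mem hs)) (L.inv_mem hs)⟩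
  · intro x k L hx hk
    exact ⟨L.mul_mem (L.mul_mem hk (L.inv_mem hx)) hk, L.mul_mem (L.inv_mem hk) hx⟩

end

end P179S
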